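import Vale.Agent.Lib.P021.Expansion

/-! The coefficient of the logarithm as a coefficient of a power series with nonnegative
coefficients. -/

namespace Vale.Agent.Lib.P021

open Finset PowerSeries

noncomputable section

lemma coeff_Uu_pow (j : ℕ) :
    coeff (2 * j) ((X ^ 2 - C 2 : ℝ⟦X⟧) ^ (2 * j)) = ((cb j : ℤ) : ℝ) := by
  have h : ((X ^ 2 - C 2 : ℝ⟦X⟧) ^ (2 * j)) =
      ((Polynomial.expand ℝ 2 ((Polynomial.X + Polynomial.C (-2)) ^ (2 * j)) : Polynomial ℝ) : ℝ⟦X⟧) := by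
    simp [map_pow, Polynomial.coe_pow, Polynomial.coe_add, Polynomial.coe_X, Polynomial.coe_C,
      sub_eq_add_neg]
  rw [h, Polynomial.coeff_coe, mul_comm 2 j, Polynomial.coeff_expand_mul (by norm_num),
    Polynomial.coeff_X_add_C_pow]
  unfold cb
  have e : j * 2 - j = j := by omega
  rw [e, mul_comm j 2]
  push_cast
  ring

lemma coeff_Uu_odd (j : ℕ) :
    coeff (2 * j + 1) ((X ^ 2 + C 2 : ℝ⟦X⟧) * (X ^ 2 - C 2 : ℝ⟦X⟧) ^ (2 * j)) = 0 := by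
  have h : ((X ^ 2 + C 2 : ℝ⟦X⟧) * (X ^ 2 - C 2 : ℝ⟦X⟧) ^ (2 * j)) =
      ((Polynomial.expand ℝ 2 ((Polynomial.X + Polynomial.C 2) *
        (Polynomial.X - Polynomial.C 2) ^ (2 * j)) : Polynomial ℝ) : ℝ⟦X⟧) := by
    simp [map_pow, map_mul, map_add, Polynomial.coe_pow, Polynomial.coe_sub, Polynomial.coe_X,
      Polynomial.coe_C, Polynomial.coe_add, Polynomial.coe_mul]
  rw [h, Polynomial.coeff_coe, Polynomial.coeff_expand (by norm_num)]
  have : ¬ 2 ∣ 2 * j + 1 := by omega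
  simp [this]

lemma coeff_term (a b : ℝ) (t m d : ℕ) (ht : t ≤ d) (hmd : m ≤ d) (hb : t = d → b = 0)
    (Ui : ℝ⟦X⟧) (hUi : (X ^ 2 - C 2 : ℝ⟦X⟧) * Ui = 1) :
    coeff (2 * d - 2 * m) ((C a * X ^ (2 * d - 2 * t) + C b * (X ^ (2 * d - 2 * t - 1) *
      (X ^ 2 + C 2))) * (X ^ 2 - C 2) ^ (2 * t) * Ui ^ (2 * m)) = a * ((cbt t m : ℤ) : ℝ) := by
  by_cases h : m ≤ t
  · -- the polynomial case
    have hcbt : cbt t m = cb (t - m) := by simp [cbt, h]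
    rw [hcbt]
    set j := t - m with hj
    have e1 : (X ^ 2 - C 2 : ℝ⟦X⟧) ^ (2 * t) * Ui ^ (2 * m) = (X ^ 2 - C 2) ^ (2 * j) := by
      have : 2 * t = 2 * j + 2 * m := by omega
      rw [this, pow_add, mul_assoc, ← mul_pow, hUi, one_pow, mul_one]
    rw [mul_assoc, e1, add_mul, map_add]
    have e2 : C a * X ^ (2 * d - 2 * t) * (X ^ 2 - C 2 : ℝ⟦X⟧) ^ (2 * j) =
        X ^ (2 * d - 2 * t) * (C a * (X ^ 2 - C 2) ^ (2 * j)) := by ring
    rw [e2, coeff_X_pow_mul', if_pos (by omega)]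
    have e3 : 2 * d - 2 * m - (2 * d - 2 * t) = 2 * j := by omega
    rw [e3, coeff_C_mul, coeff_Uu_pow]
    by_cases htd : t = d
    · rw [hb htd]; simp
    · have e4 : C b * (X ^ (2 * d - 2 * t - 1) * (X ^ 2 + C 2)) * (X ^ 2 - C 2 : ℝ⟦X⟧) ^ (2 * j) =
          X ^ (2 * d - 2 * t - 1) * (C b * ((X ^ 2 + C 2) * (X ^ 2 - C 2) ^ (2 * j))) := by ring
      rw [e4, coeff_X_pow_mul', if_pos (by omega)]
      have e5 : 2 * d - 2 * m - (2 * d - 2 * t - 1) = 2 * j + 1 := by omega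
      rw [e5, coeff_C_mul, coeff_Uu_odd]
      simp
  · have hcbt : cbt t m = 0 := by simp [cbt, h]
    rw [hcbt]
    have e1 : (X ^ 2 - C 2 : ℝ⟦X⟧) ^ (2 * t) * Ui ^ (2 * m) = Ui ^ (2 * (m - t)) := by
      have : 2 * m = 2 * t + 2 * (m - t) := by omega
      rw [this, pow_add, ← mul_assoc, ← mul_pow, hUi, one_pow, one_mul]
    rw [mul_assoc, e1, add_mul, map_add]
    have e2 : C a * X ^ (2 * d - 2 * t) * Ui ^ (2 * (m - t)) =
        X ^ (2 * d - 2 * t) * (C a * Ui ^ (2 * (m - t))) := by ring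
    have e4 : C b * (X ^ (2 * d - 2 * t - 1) * (X ^ 2 + C 2)) * Ui ^ (2 * (m - t)) =
        X ^ (2 * d - 2 * t - 1) * (C b * ((X ^ 2 + C 2) * Ui ^ (2 * (m - t)))) := by ring
    rw [e2, e4, coeff_X_pow_mul', coeff_X_pow_mul', if_neg (by omega), if_neg (by omega)]
    simp

/-- The identity of the logarithm coefficient with a power series coefficient. -/
lemma coeff_sum_identity (E O' : ℕ → ℤ) (m d : ℕ) (hmd : m ≤ d) (hO : O' d = 0)
    (Ui : ℝ⟦X⟧) (hUi : (X ^ 2 - C 2 : ℝ⟦X⟧) * Ui = 1) :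
    coeff (2 * d - 2 * m) ((∑ t ∈ range (d + 1), (C (E t : ℝ) * X ^ (2 * d - 2 * t) + C (O' t : ℝ) *
      (X ^ (2 * d - 2 * t - 1) * (X ^ 2 + C 2))) * (X ^ 2 - C 2) ^ (2 * t)) * Ui ^ (2 * m)) =
      ((qv E m d : ℤ) : ℝ) := by
  rw [sum_mul, map_sum]
  unfold qv
  push_cast
  refine sum_congr rfl fun t ht => ?_
  have ht' : t ≤ d := by simpa [Nat.lt_succ_iff] using ht
  exact coeff_term _ _ t m d ht' hmd (fun h => by rw [h, hO]; simp) Ui hUi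

/-- The series of which the logarithm coefficient is a coefficient of a power. -/
def PhiE : ℝ⟦X⟧ := (X ^ 2 + C 2 * X + C 2) ^ 3 * (X ^ 2 + C 3 * X + C 2) ^ 5 * ((C 2 - X ^ 2)⁻¹) ^ 4

/-- The logarithm coefficient as the coefficient of a power of a series. -/
theorem qv_eq_coeff (n : ℕ) :
    ((qv (En n) (2 * n) (4 * n) : ℤ) : ℝ) = coeff (4 * n) (PhiE ^ n) := by
  have hC2 : constantCoeff (C 2 - X ^ 2 : ℝ⟦X⟧) ≠ 0 := by simp
  set V : ℝ⟦X⟧ := (C 2 - X ^ 2)⁻¹ with hV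
  have hUi : (X ^ 2 - C 2 : ℝ⟦X⟧) * (-V) = 1 := by
    have := PowerSeries.mul_inv_cancel _ hC2
    rw [← hV] at this
    linear_combination this
  have h1 := coeff_sum_identity (En n) (fun t => -On n t) (2 * n) (4 * n) (by omega)
    (by simp [On_top]) (-V) hUi
  rw [← h1]
  have e1 : 2 * (4 * n) - 2 * (2 * n) = 4 * n := by omega
  rw [e1]
  congr 1
  have h2 := congrArg (Polynomial.coeToPowerSeries.ringHom (R := ℝ)) (That_identity n)
  simp only [map_sum, map_mul, map_add, map_pow, map_sub, Polynomial.coeToPowerSeries.ringHom_apply,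
    Polynomial.coe_X, Polynomial.coe_C] at h2
  have h3 : ((∑ t ∈ range (4 * n + 1), ((C (En n t : ℝ) * X ^ (2 * (4 * n) - 2 * t) +
      C ((-On n t : ℤ) : ℝ) * (X ^ (2 * (4 * n) - 2 * t - 1) * (X ^ 2 + C 2))) *
      (X ^ 2 - C 2) ^ (2 * t) : ℝ⟦X⟧))) =
      (X ^ 2 + C 2 * X + C 2) ^ (3 * n) * (X ^ 2 + C 3 * X + C 2) ^ (5 * n) := h2.symm
  rw [h3]
  unfold PhiE
  rw [mul_pow, mul_pow, ← pow_mul, ← pow_mul, ← pow_mul, ← hV]
  have e2 : (-V) ^ (2 * (2 * n)) = V ^ (4 * n) := by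
    rw [Even.neg_pow ⟨2 * n, by ring⟩ V]
    congr 1
    ring
  rw [e2]

end

end Vale.Agent.Lib.P021
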