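import Vale.Agent.Lib.P021.Dioph
import Vale.Agent.Lib.P021.QCoeff

/-! Assembly: from the three inputs (prime numbers, coefficient bounds, the path) to the bound for
the irrationality exponent of pi. -/

namespace Vale.Agent.Lib.P021

open Complex Finset

noncomputable section

/-- The rational part for index `n`. -/
def Gn (n : ℕ) : ℂ → ℂ := Gt (En n) (On n) (2 * n) (4 * n)

/-- The coefficient of the logarithm for index `n`. -/
def qn (n : ℕ) : ℤ := qv (En n) (2 * n) (4 * n)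

/-- The full antiderivative for index `n`. -/
def Fn (n : ℕ) (x : ℂ) : ℂ := Gn n x + (qn n : ℂ) * Complex.log x

/-- The imaginary part of the rational part at `1 + i`. -/
def yn (n : ℕ) : ℝ := (Gn n (1 + I)).im

lemma hasDerivAt_Fn (n : ℕ) {x : ℂ} (hx : 1 ≤ x.re) (hu : x ^ 2 ≠ 2) :
    HasDerivAt (Fn n) (BB x ^ n / x) x := by
  have hx0 : x ≠ 0 := by
    intro h; rw [h] at hx; simp at hx; linarith
  have hu' : uf x ≠ 0 := sub_ne_zero.mpr hu
  have hs : x ∈ Complex.slitPlane := by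
    rw [Complex.mem_slitPlane_iff]; left; linarith
  have h1 := hasDerivAt_Gt (En n) (On n) (2 * n) (4 * n) hx0 hu'
  have h2 := (Complex.hasDerivAt_log hs).const_mul (qn n : ℂ)
  have h3 := h1.add h2
  refine h3.congr_deriv ?_
  rw [Bf_spec n hx0 hu']
  unfold qn
  field_simp
  ring

/-- Telescoping bound along a polygon. -/
lemma polygon_bound (n : ℕ) (ρ : ℝ) (hρ : 0 ≤ ρ) (K : ℕ) (v : ℕ → ℂ)
    (hv : ∀ i < K, ∀ x ∈ segment ℝ (v i) (v (i + 1)), 1 ≤ x.re ∧ x ^ 2 ≠ 2 ∧ ‖BB x‖ ≤ ρ) :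
    ‖Fn n (v K) - Fn n (v 0)‖ ≤ (∑ i ∈ range K, ‖v (i + 1) - v i‖) * ρ ^ n := by
  have key : ∀ k ≤ K, ‖Fn n (v k) - Fn n (v 0)‖ ≤ (∑ i ∈ range k, ‖v (i + 1) - v i‖) * ρ ^ n := by
    intro k
    induction k with
    | zero => simp
    | succ k ih =>
      intro hk
      have hk' : k < K := by omega
      have h1 := ih (by omega)
      have hconv : Convex ℝ (segment ℝ (v k) (v (k + 1))) := convex_segment _ _
      have hder : ∀ x ∈ segment ℝ (v k) (v (k + 1)),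
          HasDerivWithinAt (Fn n) (BB x ^ n / x) (segment ℝ (v k) (v (k + 1))) x := by
        intro x hx
        obtain ⟨h2, h3, _⟩ := hv k hk' x hx
        exact (hasDerivAt_Fn n h2 h3).hasDerivWithinAt
      have hbd : ∀ x ∈ segment ℝ (v k) (v (k + 1)), ‖BB x ^ n / x‖ ≤ ρ ^ n := by
        intro x hx
        obtain ⟨h2, _, h4⟩ := hv k hk' x hx
        have h5 : 1 ≤ ‖x‖ := le_trans h2 (le_trans (le_abs_self _) (Complex.abs_re_le_norm x))
        rw [norm_div, norm_pow]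
        calc ‖BB x‖ ^ n / ‖x‖ ≤ ‖BB x‖ ^ n / 1 := by gcongr
          _ = ‖BB x‖ ^ n := by simp
          _ ≤ ρ ^ n := by gcongr
      have h6 := hconv.norm_image_sub_le_of_norm_hasDerivWithin_le hder hbd
        (left_mem_segment ℝ _ _) (right_mem_segment ℝ _ _)
      have h7 : Fn n (v (k + 1)) - Fn n (v 0) =
          (Fn n (v (k + 1)) - Fn n (v k)) + (Fn n (v k) - Fn n (v 0)) := by ring
      rw [h7, sum_range_succ]
      calc _ ≤ ‖Fn n (v (k + 1)) - Fn n (v k)‖ + ‖Fn n (v k) - Fn n (v 0)‖ := norm_add_le _ _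
        _ ≤ ρ ^ n * ‖v (k + 1) - v k‖ + (∑ i ∈ range k, ‖v (i + 1) - v i‖) * ρ ^ n := by
          gcongr
        _ = _ := by ring
  exact key K le_rfl

lemma arg_x0 : Complex.arg (1 + I) = Real.pi / 4 := by
  have h := Complex.arg_mul_cos_add_sin_mul_I (r := Real.sqrt 2) (θ := Real.pi / 4)
    (Real.sqrt_pos.mpr (by norm_num))
    ⟨by linarith [Real.pi_pos], by linarith [Real.pi_pos]⟩
  have e : ((Real.sqrt 2 : ℝ) : ℂ) * (Complex.cos ((Real.pi / 4 : ℝ) : ℂ) +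
      Complex.sin ((Real.pi / 4 : ℝ) : ℂ) * I) = 1 + I := by
    have hc : Complex.cos ((Real.pi / 4 : ℝ) : ℂ) = ((Real.sqrt 2 / 2 : ℝ) : ℂ) := by
      rw [← Complex.ofReal_cos, Real.cos_pi_div_four]
    have hs : Complex.sin ((Real.pi / 4 : ℝ) : ℂ) = ((Real.sqrt 2 / 2 : ℝ) : ℂ) := by
      rw [← Complex.ofReal_sin, Real.sin_pi_div_four]
    rw [hc, hs]
    have hsq : ((Real.sqrt 2 : ℝ) : ℂ) * ((Real.sqrt 2 : ℝ) : ℂ) = 2 := by
      rw [← Complex.ofReal_mul, Real.mul_self_sqrt (by norm_num)]; simp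
    push_cast
    linear_combination (1 / 2 + I / 2) * hsq
  rw [← e]
  exact h

lemma im_Fn (n : ℕ) : (Fn n (1 + I) - Fn n 1).im = yn n + (qn n : ℝ) * (Real.pi / 4) := by
  unfold Fn yn
  have h1 : (Gn n 1).im = 0 := Gt_one_im _ _ _ _
  have h2 : (Complex.log (1 + I)).im = Real.pi / 4 := by
    rw [Complex.log_im, arg_x0]
  simp only [Complex.sub_im, Complex.add_im, h1, Complex.log_one, mul_zero, add_zero, sub_zero,
    Complex.mul_im, Complex.intCast_re, Complex.intCast_im, zero_mul, h2]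

/-- A power of two dividing the least common multiple is small. -/
lemma two_pow_dvd_lcmUpto_le {a N : ℕ} (hN : 1 ≤ N) (h : 2 ^ a ∣ Nat.lcmUpto N) : 2 ^ a ≤ N := by
  have h1 := (Nat.prime_two.pow_dvd_iff_le_factorization (Nat.lcmUpto_ne_zero N)).mp h
  rw [Nat.factorization_lcmUpto N Nat.prime_two] at h1
  calc 2 ^ a ≤ 2 ^ Nat.log 2 N := Nat.pow_le_pow_right (by norm_num) h1
    _ ≤ N := Nat.pow_log_le_self 2 (by omega)

lemma dvd_lcmUpto {k N : ℕ} (h1 : 1 ≤ k) (h2 : k ≤ N) : k ∣ Nat.lcmUpto N := by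
  unfold Nat.lcmUpto
  exact Finset.dvd_lcm (f := id) (Finset.mem_Icc.mpr ⟨h1, h2⟩)

lemma lcmUpto_dvd_of_le {N N' : ℕ} (h : N ≤ N') : Nat.lcmUpto N ∣ Nat.lcmUpto N' := by
  conv_lhs => unfold Nat.lcmUpto
  refine Finset.lcm_dvd fun k hk => ?_
  rw [Finset.mem_Icc] at hk
  exact dvd_lcmUpto hk.1 (hk.2.trans h)

/-- The size of the greatest common divisor. -/
lemma gcd_bound {L L' M N : ℕ} (hN : 1 ≤ N) (hdvd : L' ∣ L) (hL'pos : 0 < L')
    (h2 : ∀ a, 2 ^ a ∣ L → 2 ^ a ≤ N) : Nat.gcd (2 * L) (2 ^ M * L') ≤ 2 * N * L' := by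
  obtain ⟨e, rfl⟩ := hdvd
  have h1 : Nat.gcd (2 * (L' * e)) (2 ^ M * L') = L' * Nat.gcd (2 * e) (2 ^ M) := by
    rw [show 2 * (L' * e) = L' * (2 * e) by ring, show 2 ^ M * L' = L' * 2 ^ M by ring,
      Nat.gcd_mul_left]
  rw [h1]
  have h3 : Nat.gcd (2 * e) (2 ^ M) ∣ 2 ^ M := Nat.gcd_dvd_right _ _
  obtain ⟨a, _, ha⟩ := (Nat.dvd_prime_pow Nat.prime_two).mp h3
  have h4 : Nat.gcd (2 * e) (2 ^ M) ∣ 2 * e := Nat.gcd_dvd_left _ _
  rw [ha] at h4 ⊢
  have h5 : 2 ^ a ≤ 2 * N := by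
    rcases a with _ | a
    · simp; omega
    · rw [pow_succ, mul_comm] at h4
      have h6 : 2 ^ a ∣ e := Nat.dvd_of_mul_dvd_mul_left (by norm_num) h4
      have h7 := h2 a (Dvd.dvd.mul_left h6 L')
      rw [pow_succ]; omega
  calc L' * 2 ^ a ≤ L' * (2 * N) := Nat.mul_le_mul_left _ h5
    _ = 2 * N * L' := by ring

/-- The common denominator of the rational part. -/
theorem exists_D (n : ℕ) : ∃ (D : ℕ) (b : ℤ), 1 ≤ D ∧
    D ≤ 2 * (6 * (4 * n + 1)) * Nat.lcmUpto (4 * n + 1) ∧ (D : ℝ) * yn n = b := by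
  set N := 4 * n + 1 with hN
  set L' := Nat.lcmUpto N with hL'
  set L := Nat.lcmUpto (6 * N) with hL
  have hL'pos : 0 < L' := Nat.lcmUpto_pos N
  have hLpos : 0 < L := Nat.lcmUpto_pos _
  -- first integrality
  have h1 := Gt_x0_mem (En n) (On n) (2 * n) (4 * n) (L := L') (N := N)
    (fun k hk1 hk2 => dvd_lcmUpto hk1 hk2) (by omega) (by omega)
  obtain ⟨M, a, b, hab⟩ := Lam_eq h1
  have hy1 : ((2 ^ M * L' : ℕ) : ℝ) * yn n = b := by
    have h3 : ((2 : ℂ) ^ M * ((L' : ℂ) * Gt (En n) (On n) (2 * n) (4 * n) (1 + I))) =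
        (((2 ^ M * L' : ℕ) : ℝ) : ℂ) * Gn n (1 + I) := by
      unfold Gn; push_cast; ring
    rw [h3] at hab
    have := congrArg Complex.im hab
    rw [Complex.im_ofReal_mul] at this
    unfold yn
    simpa using this
  -- second integrality
  have h2 := ratpart_mem (En n) (On n) (2 * n) (4 * n) N L (NumP n) (DenP n) (by omega) (by omega)
    (fun k hk1 hk2 => dvd_lcmUpto hk1 hk2) (GamPoly_NumP n) (GamPoly_DenP n) (DenP_coeff n)
    (fun z h3 h4 => BB_Xz_pow n z h3 h4)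
  rw [Gt_diff] at h2
  obtain ⟨a', b', hab'⟩ := Gam_eq h2
  have hy2 : ((2 * L : ℕ) : ℝ) * yn n = b' := by
    have h3 : (L : ℂ) * (2 * I * ((Gt (En n) (On n) (2 * n) (4 * n) (1 + I)).im : ℂ)) =
        ((((2 * L : ℕ) : ℝ) * yn n : ℝ) : ℂ) * I := by
      unfold yn Gn; push_cast; ring
    rw [h3] at hab'
    have := congrArg Complex.im hab'
    simpa using this
  -- Bezout
  set D := Nat.gcd (2 * L) (2 ^ M * L') with hD
  have hDpos : 1 ≤ D := Nat.gcd_pos_of_pos_left _ (by omega)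
  have hbez := Nat.gcd_eq_gcd_ab (2 * L) (2 ^ M * L')
  refine ⟨D, Nat.gcdA (2 * L) (2 ^ M * L') * b' + Nat.gcdB (2 * L) (2 ^ M * L') * b, hDpos, ?_, ?_⟩
  · have hdvd : L' ∣ L := lcmUpto_dvd_of_le (by omega)
    exact gcd_bound (by omega) hdvd hL'pos (fun a ha => two_pow_dvd_lcmUpto_le (by omega) ha)
  · have h4 : (D : ℝ) = ((2 * L : ℕ) : ℝ) * (Nat.gcdA (2 * L) (2 ^ M * L') : ℝ) +
        ((2 ^ M * L' : ℕ) : ℝ) * (Nat.gcdB (2 * L) (2 ^ M * L') : ℝ) := by
      have := congrArg (fun z : ℤ => (z : ℝ)) hbez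
      simpa using this
    rw [h4]
    push_cast
    push_cast at hy1 hy2
    rw [← hy1, ← hy2]
    ring

/-- Polynomial growth is dominated by exponential growth. -/
lemma linear_le_exp {c A : ℝ} (hc : 0 < c) (hA : 0 ≤ A) :
    ∃ n₀ : ℕ, ∀ n ≥ n₀, A * ((n : ℝ) + 1) ≤ Real.exp (c * n) := by
  obtain ⟨N, hN⟩ := exists_nat_gt (4 * A / c ^ 2 + 1)
  refine ⟨N, fun n hn => ?_⟩
  have hn' : (N : ℝ) ≤ n := by exact_mod_cast hn
  have h1 : 4 * A / c ^ 2 < n := by linarith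
  have h2 : 1 < (n : ℝ) := by
    have : 0 ≤ 4 * A / c ^ 2 := by positivity
    linarith
  have hc2 : 0 < c ^ 2 := by positivity
  have h3 : 4 * A < n * c ^ 2 := by
    rwa [div_lt_iff₀ hc2] at h1
  have h4 := Real.quadratic_le_exp_of_nonneg (x := c * n) (by positivity)
  have h5 : A * ((n : ℝ) + 1) ≤ (c * n) ^ 2 / 2 := by
    nlinarith
  have h6 : 0 ≤ c * n := by positivity
  nlinarith

/-- The main theorem from the inputs. -/
theorem main_of_inputs
    (hpsi : ∀ ε > 0, ∃ X : ℝ, ∀ x ≥ X, Chebyshev.psi x ≤ (1 + ε) * x)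
    (hQu : ∀ n : ℕ, PowerSeries.coeff (4 * n) (PhiE ^ n) ≤ Real.exp (10.5404 * n))
    (hQl : ∃ n₀ : ℕ, ∀ n ≥ n₀, Real.exp (10.54 * n) ≤ PowerSeries.coeff (4 * n) (PhiE ^ n))
    (hpath : ∃ (K : ℕ) (v : ℕ → ℂ), v 0 = 1 ∧ v K = 1 + I ∧ ∀ i < K,
      ∀ x ∈ segment ℝ (v i) (v (i + 1)), 1 ≤ x.re ∧ x ^ 2 ≠ 2 ∧ ‖BB x‖ ≤ Real.exp (-6.5295))
    : ∃ Q : ℝ, 1 ≤ Q ∧ ∀ p q : ℤ, Q ≤ q →
      1 / (q : ℝ) ^ (27 / 4 : ℝ) < |Real.pi - p / q| := by
  obtain ⟨K, v, hv0, hvK, hv⟩ := hpath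
  obtain ⟨n₁, hQl⟩ := hQl
  set C : ℝ := ∑ i ∈ range K, ‖v (i + 1) - v i‖ with hC
  have hCnn : 0 ≤ C := sum_nonneg fun _ _ => norm_nonneg _
  -- the path bound
  have hH : ∀ n : ℕ, |yn n + (qn n : ℝ) * (Real.pi / 4)| ≤ C * Real.exp (-6.5295 * n) := by
    intro n
    have h1 := polygon_bound n (Real.exp (-6.5295)) (Real.exp_pos _).le K v hv
    rw [hv0, hvK] at h1
    rw [← im_Fn]
    have h2 : Real.exp (-6.5295) ^ n = Real.exp (-6.5295 * n) := by
      rw [← Real.exp_nat_mul]; congr 1; ring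
    rw [← h2]
    exact le_trans (Complex.abs_im_le_norm _) h1
  -- the coefficient
  have hq : ∀ n : ℕ, ((qn n : ℤ) : ℝ) = PowerSeries.coeff (4 * n) (PhiE ^ n) := qv_eq_coeff
  -- the denominators
  choose D b hD1 hD2 hD3 using exists_D
  obtain ⟨X, hX⟩ := hpsi (1 / 100000) (by norm_num)
  obtain ⟨n₂, hn₂⟩ := linear_le_exp (c := 1 / 100000) (A := 48) (by norm_num) (by norm_num)
  obtain ⟨n₃, hn₃⟩ := linear_le_exp (c := 1 / 10000) (A := 4 * C) (by norm_num) (by positivity)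
  obtain ⟨n₄, hn₄⟩ := exists_nat_gt (max X 40000)
  have hn₄1 : X < n₄ := lt_of_le_of_lt (le_max_left _ _) hn₄
  have hn₄2 : (40000 : ℝ) < n₄ := lt_of_le_of_lt (le_max_right _ _) hn₄
  have hDbd : ∀ n ≥ n₂ + n₄, (D n : ℝ) ≤ Real.exp (4.0001 * n) := by
    intro n hn
    have hnn : (n₄ : ℝ) ≤ n := by exact_mod_cast (by omega : n₄ ≤ n)
    have hx : ((4 * n + 1 : ℕ) : ℝ) ≥ X := by
      push_cast
      linarith
    have h1 := hX _ hx
    rw [Chebyshev.psi_eq_log_lcmUpto] at h1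
    have hpos : (0 : ℝ) < Nat.lcmUpto (4 * n + 1) := by exact_mod_cast Nat.lcmUpto_pos _
    have h2 : (Nat.lcmUpto (4 * n + 1) : ℝ) ≤ Real.exp ((1 + 1 / 100000) * ((4 * n + 1 : ℕ) : ℝ)) := by
      rw [← Real.log_le_iff_le_exp hpos]
      exact h1
    have h3 : ((D n : ℕ) : ℝ) ≤ 2 * (6 * (4 * n + 1)) * (Nat.lcmUpto (4 * n + 1) : ℝ) := by
      exact_mod_cast hD2 n
    have h4 : (2 * (6 * (4 * (n : ℝ) + 1))) ≤ 48 * ((n : ℝ) + 1) := by
      nlinarith
    have h5 := hn₂ n (by omega)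
    have h6 : (D n : ℝ) ≤ Real.exp (1 / 100000 * n) *
        Real.exp ((1 + 1 / 100000) * ((4 * n + 1 : ℕ) : ℝ)) := by
      refine h3.trans ?_
      gcongr
      linarith
    rw [← Real.exp_add] at h6
    refine h6.trans (Real.exp_le_exp.mpr ?_)
    push_cast
    norm_num
    nlinarith
  have hDpos : ∀ n, (1 : ℝ) ≤ D n := fun n => by exact_mod_cast hD1 n
  -- the forms
  set a : ℕ → ℤ := fun n => (D n : ℤ) * qn n with ha
  set b' : ℕ → ℤ := fun n => 4 * b n with hb'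
  have hform : ∀ n, (a n : ℝ) * Real.pi + b' n =
      4 * (D n : ℝ) * (yn n + (qn n : ℝ) * (Real.pi / 4)) := by
    intro n
    simp only [ha, hb']
    push_cast
    rw [← hD3 n]
    ring
  set n₀ := n₁ + n₂ + n₃ + n₄ with hn₀
  have hqpos : ∀ n ≥ n₀, Real.exp (10.54 * n) ≤ (qn n : ℝ) := by
    intro n hn
    rw [hq]
    exact hQl n (by omega)
  have hremainder : ∀ n ≥ n₀, 4 * (C * Real.exp (-6.5295 * n)) ≤ Real.exp (-6.5294 * n) := by
    intro n hn
    have h1 := hn₃ n (by omega)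
    have h2 : 4 * C ≤ Real.exp (1 / 10000 * n) := by
      refine le_trans ?_ h1
      have : (0 : ℝ) ≤ n := by positivity
      nlinarith
    have h3 : Real.exp (-6.5294 * n) = Real.exp (1 / 10000 * n) * Real.exp (-6.5295 * n) := by
      rw [← Real.exp_add]; congr 1; ring
    rw [h3]
    calc 4 * (C * Real.exp (-6.5295 * n)) = (4 * C) * Real.exp (-6.5295 * n) := by ring
      _ ≤ _ := by gcongr
  have hres := dioph_main Real.pi a b' 14.5405 2.5293 17.0694 (by norm_num) (by norm_num)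
    (by norm_num) n₀ ?_ ?_ ?_ (27 / 4) ?_
  · obtain ⟨Q, hQ1, hQ⟩ := hres
    refine ⟨Q, hQ1, fun p q hq1 => hQ p q hq1 ?_⟩
    have hq0 : q ≠ 0 := by
      intro h
      rw [h] at hq1
      simp at hq1
      linarith
    exact (irrational_iff_ne_rational _).mp irrational_pi p q hq0
  · -- size of a
    intro n hn
    simp only [ha]
    push_cast
    rw [abs_mul, abs_of_pos (by linarith [hDpos n] : (0 : ℝ) < D n),
      abs_of_pos (lt_of_lt_of_le (Real.exp_pos _) (hqpos n hn))]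
    have h1 := hDbd n (by omega)
    have h2 : (qn n : ℝ) ≤ Real.exp (10.5404 * n) := by
      rw [hq]; exact hQu n
    have h3 : Real.exp (14.5405 * n) = Real.exp (4.0001 * n) * Real.exp (10.5404 * n) := by
      rw [← Real.exp_add]; congr 1; ring
    rw [h3]
    have h4 : (0 : ℝ) ≤ qn n := (Real.exp_pos _).le.trans (hqpos n hn)
    gcongr
  · -- size of the remainder
    intro n hn
    rw [hform, abs_mul, abs_of_pos (by linarith [hDpos n] : (0 : ℝ) < 4 * D n)]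
    have h1 := hDbd n (by omega)
    have h2 := hH n
    have h3 := hremainder n hn
    have h4 : Real.exp (-2.5293 * n) = Real.exp (4.0001 * n) * Real.exp (-6.5294 * n) := by
      rw [← Real.exp_add]; congr 1; ring
    rw [h4]
    calc 4 * (D n : ℝ) * |yn n + (qn n : ℝ) * (Real.pi / 4)|
        ≤ 4 * (D n : ℝ) * (C * Real.exp (-6.5295 * n)) := by gcongr
      _ = (D n : ℝ) * (4 * (C * Real.exp (-6.5295 * n))) := by ring
      _ ≤ _ := by gcongr
  · -- ratio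
    intro n hn
    have hqp := hqpos n hn
    have hq0 : (0 : ℝ) < qn n := lt_of_lt_of_le (Real.exp_pos _) hqp
    constructor
    · simp only [ha]
      have h1 : (D n : ℤ) ≠ 0 := by
        have := hD1 n
        omega
      have h2 : qn n ≠ 0 := by
        intro h
        rw [h] at hq0
        simp at hq0
      exact mul_ne_zero h1 h2
    · rw [hform, abs_mul, abs_of_pos (by linarith [hDpos n] : (0 : ℝ) < 4 * D n)]
      simp only [ha]
      push_cast
      rw [abs_mul, abs_of_pos (by linarith [hDpos n] : (0 : ℝ) < D n), abs_of_pos hq0]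
      have h2 := hH n
      have h3 := hremainder n hn
      have h4 : Real.exp (-6.5294 * n) = Real.exp (10.54 * n) * Real.exp (-17.0694 * n) := by
        rw [← Real.exp_add]; congr 1; ring
      have h5 : 4 * |yn n + (qn n : ℝ) * (Real.pi / 4)| ≤ (qn n : ℝ) * Real.exp (-17.0694 * n) := by
        calc 4 * |yn n + (qn n : ℝ) * (Real.pi / 4)| ≤ 4 * (C * Real.exp (-6.5295 * n)) := by gcongr
          _ ≤ Real.exp (-6.5294 * n) := h3
          _ = Real.exp (10.54 * n) * Real.exp (-17.0694 * n) := h4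
          _ ≤ _ := by gcongr
      calc 4 * (D n : ℝ) * |yn n + (qn n : ℝ) * (Real.pi / 4)|
          = (D n : ℝ) * (4 * |yn n + (qn n : ℝ) * (Real.pi / 4)|) := by ring
        _ ≤ (D n : ℝ) * ((qn n : ℝ) * Real.exp (-17.0694 * n)) := by gcongr
        _ = _ := by ring
  · -- the numerical exponent
    rw [min_eq_right (by norm_num)]
    norm_num

end

end Vale.Agent.Lib.P021
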