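import Mathlib

/-! The rational antiderivative blocks. -/

namespace Vale.Agent.Lib.P021

open Complex Finset

noncomputable section

/-- `g = x + 2 / x`. -/
def gf (x : ℂ) : ℂ := x + 2 / x

/-- `w = x - 2 / x`. -/
def wf (x : ℂ) : ℂ := x - 2 / x

/-- `u = x ^ 2 - 2`. -/
def uf (x : ℂ) : ℂ := x ^ 2 - 2

/-- The constant term of `w ^ (2 j)`. -/
def cb (j : ℕ) : ℤ := (Nat.choose (2 * j) j : ℤ) * (-2) ^ j

lemma gf_sq_sub (x : ℂ) (hx : x ≠ 0) : gf x ^ 2 - 8 = wf x ^ 2 := by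
  unfold gf wf; field_simp; ring

lemma wf_eq (x : ℂ) (hx : x ≠ 0) : wf x = uf x / x := by
  unfold wf uf; field_simp

lemma wf_ne_zero {x : ℂ} (hx : x ≠ 0) (hu : uf x ≠ 0) : wf x ≠ 0 := by
  rw [wf_eq x hx]; exact div_ne_zero hu hx

lemma hasDerivAt_wf {x : ℂ} (hx : x ≠ 0) : HasDerivAt wf (gf x / x) x := by
  have h1 : HasDerivAt (fun y : ℂ => y - 2 * y⁻¹) (1 - 2 * (-(x ^ 2)⁻¹)) x :=
    (hasDerivAt_id x).sub ((hasDerivAt_inv hx).const_mul 2)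
  have h2 : (1 - 2 * (-(x ^ 2)⁻¹)) = gf x / x := by
    unfold gf; field_simp; ring
  rw [← h2]
  refine h1.congr_of_eventuallyEq ?_
  filter_upwards with y
  unfold wf; ring

lemma hasDerivAt_uf (x : ℂ) : HasDerivAt uf (2 * x) x := by
  have h1 : HasDerivAt (fun y : ℂ => y ^ 2 - 2) ((2 : ℕ) * x ^ (2 - 1) * 1) x :=
    ((hasDerivAt_id x).pow 2).sub_const 2
  have h2 : ((2 : ℕ) * x ^ (2 - 1) * 1) = 2 * x := by simp
  rw [h2] at h1
  exact h1

/-- The `w ^ (2 j + 1)` block. -/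
def Wb (j : ℤ) (x : ℂ) : ℂ := wf x ^ (2 * j + 1) / ((2 * (j : ℂ)) + 1)

lemma two_mul_add_one_ne (j : ℤ) : (2 * (j : ℂ) + 1) ≠ 0 := by
  have h : (2 * j + 1 : ℤ) ≠ 0 := by omega
  have h2 : ((2 * j + 1 : ℤ) : ℂ) ≠ 0 := by exact_mod_cast h
  simpa using h2

lemma hasDerivAt_Wb (j : ℤ) {x : ℂ} (hx : x ≠ 0) (hu : uf x ≠ 0) :
    HasDerivAt (Wb j) (wf x ^ (2 * j) * (gf x / x)) x := by
  have hw := wf_ne_zero hx hu
  have h1 : HasDerivAt (fun y : ℂ => y ^ (2 * j + 1)) (((2 * j + 1 : ℤ) : ℂ) * wf x ^ (2 * j + 1 - 1))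
      (wf x) := hasDerivAt_zpow _ _ (Or.inl hw)
  have h2 := (h1.comp x (hasDerivAt_wf hx)).div_const (2 * (j : ℂ) + 1)
  have h3 : ((2 * j + 1 : ℤ) : ℂ) * wf x ^ (2 * j + 1 - 1) * (gf x / x) / (2 * (j : ℂ) + 1) =
      wf x ^ (2 * j) * (gf x / x) := by
    have := two_mul_add_one_ne j
    have e : 2 * j + 1 - 1 = 2 * j := by ring
    rw [e]
    push_cast
    field_simp
  rw [← h3]
  exact h2

/-- Antiderivative of `(w ^ (2 j) - cb j) / x`, for natural `j`. -/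
def Apos (j : ℕ) (x : ℂ) : ℂ :=
  ∑ k ∈ range (2 * j + 1), ((Nat.choose (2 * j) k : ℂ) * (-2) ^ k) *
    (x ^ ((2 * j : ℤ) - 2 * k) / ((2 * j : ℂ) - 2 * k))

lemma wf_pow_expand (j : ℕ) {x : ℂ} (hx : x ≠ 0) :
    wf x ^ (2 * j) = ∑ k ∈ range (2 * j + 1), ((Nat.choose (2 * j) k : ℂ) * (-2) ^ k) *
      x ^ ((2 * j : ℤ) - 2 * k) := by
  have h : wf x = (-2 / x) + x := by unfold wf; ring
  rw [h, add_pow]
  refine sum_congr rfl fun k hk => ?_
  have hk' : k ≤ 2 * j := by simpa [Nat.lt_succ_iff] using hk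
  have e : ((2 * j : ℤ) - 2 * k) = ((2 * j - k : ℕ) : ℤ) - (k : ℤ) := by
    rw [Nat.cast_sub hk']; push_cast; ring
  rw [e, zpow_sub₀ hx, zpow_natCast, zpow_natCast, div_pow]
  field_simp

lemma hasDerivAt_Apos (j : ℕ) {x : ℂ} (hx : x ≠ 0) :
    HasDerivAt (Apos j) ((wf x ^ (2 * j) - (cb j : ℂ)) / x) x := by
  have hterm : ∀ k ∈ range (2 * j + 1), HasDerivAt
      (fun y : ℂ => ((Nat.choose (2 * j) k : ℂ) * (-2) ^ k) *
        (y ^ ((2 * j : ℤ) - 2 * k) / ((2 * j : ℂ) - 2 * k)))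
      (if k = j then 0 else ((Nat.choose (2 * j) k : ℂ) * (-2) ^ k) *
        x ^ ((2 * j : ℤ) - 2 * k) / x) x := by
    intro k _
    by_cases hkj : k = j
    · subst hkj
      simp only [if_true]
      have : (fun y : ℂ => ((Nat.choose (2 * k) k : ℂ) * (-2) ^ k) *
          (y ^ ((2 * k : ℤ) - 2 * k) / ((2 * k : ℂ) - 2 * k))) = fun _ => 0 := by
        funext y; simp
      rw [this]
      exact hasDerivAt_const _ _
    · simp only [hkj, if_false]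
      set e : ℤ := (2 * j : ℤ) - 2 * k with he
      have he0 : (e : ℂ) ≠ 0 := by
        have : e ≠ 0 := by rw [he]; omega
        exact_mod_cast this
      have hec : ((2 * j : ℂ) - 2 * k) = (e : ℂ) := by rw [he]; push_cast; ring
      rw [hec]
      have h1 : HasDerivAt (fun y : ℂ => y ^ e) ((e : ℂ) * x ^ (e - 1)) x :=
        hasDerivAt_zpow _ _ (Or.inl hx)
      have h2 := (h1.div_const (e : ℂ)).const_mul ((Nat.choose (2 * j) k : ℂ) * (-2) ^ k)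
      refine h2.congr_deriv ?_
      rw [zpow_sub_one₀ hx]
      field_simp
  have hsum := HasDerivAt.fun_sum hterm
  have hfun : (fun y : ℂ => ∑ k ∈ range (2 * j + 1), ((Nat.choose (2 * j) k : ℂ) * (-2) ^ k) *
      (y ^ ((2 * j : ℤ) - 2 * k) / ((2 * j : ℂ) - 2 * k))) = Apos j := by
    funext y; rfl
  rw [hfun] at hsum
  refine hsum.congr_deriv ?_
  symm
  rw [wf_pow_expand j hx]
  have hmem : j ∈ range (2 * j + 1) := by simp; omega
  rw [sum_ite, sum_const_zero, zero_add]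
  have hsplit := sum_erase_add (range (2 * j + 1))
    (fun k => ((Nat.choose (2 * j) k : ℂ) * (-2) ^ k) * x ^ ((2 * j : ℤ) - 2 * k)) hmem
  rw [← hsplit]
  have hcb : ((Nat.choose (2 * j) j : ℂ) * (-2) ^ j) * x ^ ((2 * j : ℤ) - 2 * j) = (cb j : ℂ) := by
    unfold cb; push_cast; simp
  rw [hcb, add_sub_cancel_right, sum_div]
  refine sum_congr ?_ fun k _ => rfl
  ext k
  simp [mem_filter, mem_erase, and_comm]

/-- Antiderivative of `w ^ (- 2 l) / x`, for natural `l ≥ 1`. -/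
def Aneg (l : ℕ) (x : ℂ) : ℂ :=
  ∑ s ∈ range l, (1 / 2) * ((Nat.choose (l - 1) s : ℂ) * 2 ^ (l - 1 - s)) *
    (uf x ^ ((s : ℤ) - 2 * l + 1) / ((s : ℂ) - 2 * l + 1))

lemma hasDerivAt_Aneg {l : ℕ} (hl : 1 ≤ l) {x : ℂ} (hx : x ≠ 0) (hu : uf x ≠ 0) :
    HasDerivAt (Aneg l) (wf x ^ (-(2 * l : ℤ)) / x) x := by
  have hterm : ∀ s ∈ range l, HasDerivAt
      (fun y : ℂ => (1 / 2) * ((Nat.choose (l - 1) s : ℂ) * 2 ^ (l - 1 - s)) *
        (uf y ^ ((s : ℤ) - 2 * l + 1) / ((s : ℂ) - 2 * l + 1)))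
      (x * (((Nat.choose (l - 1) s : ℂ) * 2 ^ (l - 1 - s)) * uf x ^ ((s : ℤ) - 2 * l))) x := by
    intro s hs
    have hs' : s < l := by simpa using hs
    set e : ℤ := (s : ℤ) - 2 * l + 1 with he
    have he0 : (e : ℂ) ≠ 0 := by
      have : e ≠ 0 := by rw [he]; omega
      exact_mod_cast this
    have hec : ((s : ℂ) - 2 * l + 1) = (e : ℂ) := by rw [he]; push_cast; ring
    rw [hec]
    have h1 : HasDerivAt (fun y : ℂ => y ^ e) ((e : ℂ) * uf x ^ (e - 1)) (uf x) :=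
      hasDerivAt_zpow _ _ (Or.inl hu)
    have h2 := ((h1.comp x (hasDerivAt_uf x)).div_const (e : ℂ)).const_mul
      ((1 / 2) * ((Nat.choose (l - 1) s : ℂ) * 2 ^ (l - 1 - s)))
    refine HasDerivAt.congr_deriv (f := fun y : ℂ => (1 / 2) * ((Nat.choose (l - 1) s : ℂ) * 2 ^ (l - 1 - s)) *
        (uf y ^ e / (e : ℂ))) h2 ?_
    have e1 : (s : ℤ) - 2 * l = e - 1 := by rw [he]; ring
    rw [e1]
    field_simp
  have hsum := HasDerivAt.fun_sum hterm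
  have hfun : (fun y : ℂ => ∑ s ∈ range l, (1 / 2) * ((Nat.choose (l - 1) s : ℂ) * 2 ^ (l - 1 - s)) *
        (uf y ^ ((s : ℤ) - 2 * l + 1) / ((s : ℂ) - 2 * l + 1))) = Aneg l := by
    funext y; rfl
  rw [hfun] at hsum
  refine hsum.congr_deriv ?_
  symm
  rw [← mul_sum]
  -- the binomial identity
  have hb : ∑ s ∈ range l, ((Nat.choose (l - 1) s : ℂ) * 2 ^ (l - 1 - s)) *
      uf x ^ ((s : ℤ) - 2 * l) = uf x ^ (-(2 * l : ℤ)) * x ^ (2 * (l - 1)) := by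
    have hx2 : x ^ 2 = uf x + 2 := by unfold uf; ring
    rw [pow_mul, hx2, add_pow]
    have hl' : l - 1 + 1 = l := by omega
    rw [hl', mul_sum]
    refine sum_congr rfl fun s _ => ?_
    rw [sub_eq_add_neg, zpow_add₀ hu, zpow_natCast]
    have : (-(2 * (l : ℤ))) = -(2 * l : ℤ) := rfl
    ring
  rw [hb, wf_eq x hx, div_zpow]
  have hl2 : (2 * l : ℤ) = ((2 * l : ℕ) : ℤ) := by push_cast; ring
  have hl3 : 2 * l = 2 * (l - 1) + 1 + 1 := by omega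
  rw [zpow_neg, zpow_neg, hl2, zpow_natCast, zpow_natCast, hl3]
  field_simp
  ring

end

end Vale.Agent.Lib.P021
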