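import Mathlib

/-! Abstract Diophantine lemma: linear forms with integer coefficients, with two-sided control on
the coefficient of the number, give an upper bound for its irrationality exponent. -/

namespace Vale.Agent.Lib.P021

open Real

/-- If `a n * α + b n` are small integer linear forms, with `|a n|` growing at most like
`exp (S n)`, the remainder at most like `exp (-T n)` and the ratio remainder over `a n` at most
like `exp (-U n)`, then `α` has irrationality exponent at most `1 + S / min T (U - S)`. -/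
theorem dioph_main (α : ℝ) (a b : ℕ → ℤ) (S T U : ℝ) (hS : 0 < S) (hT : 0 < T) (hUS : S < U)
    (n₀ : ℕ)
    (h1 : ∀ n ≥ n₀, |(a n : ℝ)| ≤ exp (S * n))
    (h2 : ∀ n ≥ n₀, |(a n : ℝ) * α + b n| ≤ exp (-T * n))
    (h3 : ∀ n ≥ n₀, a n ≠ 0 ∧ |(a n : ℝ) * α + b n| ≤ |(a n : ℝ)| * exp (-U * n))
    (ν : ℝ) (hν : 1 + S / min T (U - S) < ν) :
    ∃ Q : ℝ, 1 ≤ Q ∧ ∀ p q : ℤ, Q ≤ q → α ≠ p / q → 1 / (q : ℝ) ^ ν < |α - p / q| := by
  set m := min T (U - S) with hm
  have hUSpos : 0 < U - S := by linarith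
  have hmpos : 0 < m := lt_min hT hUSpos
  have hU : 0 < U := by linarith
  have hmT : m ≤ T := min_le_left _ _
  have hmUS : m ≤ U - S := min_le_right _ _
  set C₁ : ℝ := S * (n₀ + 1) + S * (log 2 + U) / m + log 2 with hC₁
  have hC₁nn : 0 ≤ C₁ := by
    have h2 : 0 ≤ log 2 := log_nonneg (by norm_num)
    have : 0 ≤ S * (n₀ + 1) := by positivity
    have : 0 ≤ S * (log 2 + U) / m := by positivity
    linarith
  have hgap : 0 < ν - (1 + S / m) := by linarith
  refine ⟨exp (C₁ / (ν - (1 + S / m)) + 1), one_le_exp (by positivity), ?_⟩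
  intro p q hq hne
  set Qr : ℝ := exp (C₁ / (ν - (1 + S / m)) + 1) with hQr
  have hQ1 : (1 : ℝ) ≤ Qr := one_le_exp (by positivity)
  have hq1 : (1 : ℝ) ≤ (q : ℝ) := le_trans hQ1 hq
  have hq0 : (0 : ℝ) < (q : ℝ) := by linarith
  set ℓ : ℝ := log q with hℓ
  have hℓnn : 0 ≤ ℓ := log_nonneg hq1
  have hqexp : (q : ℝ) = exp ℓ := (exp_log hq0).symm
  have hℓbig : C₁ / (ν - (1 + S / m)) + 1 ≤ ℓ := by
    have := log_le_log (exp_pos _) hq
    rwa [log_exp] at this
  set δ : ℝ := |α - p / q| with hδ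
  have hδpos : 0 < δ := abs_pos.mpr (sub_ne_zero.mpr hne)
  -- the threshold index
  set n₂ : ℕ := max n₀ ⌈(ℓ + log 2) / T⌉₊ with hn₂
  have hn₂₀ : n₀ ≤ n₂ := le_max_left _ _
  have hn₂T : (ℓ + log 2) / T ≤ n₂ :=
    le_trans (Nat.le_ceil _) (by exact_mod_cast le_max_right _ _)
  have hsmall : ∀ n ≥ n₂, 2 * (q : ℝ) * exp (-T * n) ≤ 1 := by
    intro n hn
    have hn' : (n₂ : ℝ) ≤ n := by exact_mod_cast hn
    have h4 : ℓ + log 2 ≤ T * n := by
      have := (div_le_iff₀ hT).mp (le_trans hn₂T hn')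
      linarith
    have : 2 * (q : ℝ) = exp (ℓ + log 2) := by
      rw [exp_add, exp_log (by norm_num : (0 : ℝ) < 2), ← hqexp]; ring
    rw [this, ← exp_add]
    apply exp_le_one_iff.mpr
    nlinarith
  -- the integer form
  have hcases : ∀ n ≥ n₂, ((a n * p + b n * q : ℤ) ≠ 0 →
      exp (-S * n) / (2 * q) ≤ δ) ∧ ((a n * p + b n * q : ℤ) = 0 → δ ≤ exp (-U * n)) := by
    intro n hn
    have hn0 : n ≥ n₀ := le_trans hn₂₀ hn
    have hform : ((a n * p + b n * q : ℤ) : ℝ) =
        q * ((a n : ℝ) * α + b n) - q * (a n : ℝ) * (α - p / q) := by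
      push_cast
      field_simp
      ring
    constructor
    · intro hY
      have h5 : (1 : ℝ) ≤ |((a n * p + b n * q : ℤ) : ℝ)| := by
        have : (1 : ℤ) ≤ |a n * p + b n * q| := Int.one_le_abs hY
        exact_mod_cast this
      rw [hform] at h5
      have h6 : |(q : ℝ) * ((a n : ℝ) * α + b n) - q * (a n : ℝ) * (α - p / q)| ≤
          q * exp (-T * n) + q * |(a n : ℝ)| * δ := by
        refine le_trans (abs_sub _ _) ?_
        rw [abs_mul, abs_mul, abs_mul, abs_of_pos hq0]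
        have := h2 n hn0
        gcongr
      have h7 := hsmall n hn
      have h8 : (1 / 2 : ℝ) ≤ q * |(a n : ℝ)| * δ := by linarith
      have h9 := h1 n hn0
      have h10 : (1 / 2 : ℝ) ≤ q * exp (S * n) * δ := by
        refine le_trans h8 ?_
        gcongr
      rw [div_le_iff₀ (by positivity)]
      have h11 : exp (-S * n) * exp (S * n) = 1 := by
        rw [← exp_add]; simp
      have h12 : exp (-S * n) * (1 / 2) ≤ exp (-S * n) * (q * exp (S * n) * δ) := by
        gcongr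
      have h13 : exp (-S * n) * (q * exp (S * n) * δ) = q * δ * (exp (-S * n) * exp (S * n)) := by
        ring
      rw [h13, h11] at h12
      linarith
    · intro hY
      obtain ⟨h14, h15⟩ := h3 n hn0
      have h16 : (a n : ℝ) ≠ 0 := by exact_mod_cast h14
      have h17 : ((a n : ℝ) * α + b n) = (a n : ℝ) * (α - p / q) := by
        have : ((a n * p + b n * q : ℤ) : ℝ) = 0 := by rw [hY]; simp
        rw [hform] at this
        have h18 : (q : ℝ) ≠ 0 := hq0.ne'
        have h19 : (q : ℝ) * (((a n : ℝ) * α + b n) - (a n : ℝ) * (α - p / q)) = 0 := by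
          linarith
        have := (mul_eq_zero.mp h19).resolve_left h18
        linarith
      rw [h17, abs_mul] at h15
      have h20 : 0 < |(a n : ℝ)| := abs_pos.mpr h16
      exact le_of_mul_le_mul_left h15 h20
  -- there is a nondegenerate index
  have hex : ∃ n, n ≥ n₂ ∧ (a n * p + b n * q : ℤ) ≠ 0 := by
    by_contra hcon
    push Not at hcon
    obtain ⟨N, hN⟩ := exists_nat_gt (max (n₂ : ℝ) (log (1 / δ) / U))
    have hN1 : (n₂ : ℝ) < N := lt_of_le_of_lt (le_max_left _ _) hN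
    have hN2 : log (1 / δ) / U < N := lt_of_le_of_lt (le_max_right _ _) hN
    have hN3 : N ≥ n₂ := by exact_mod_cast hN1.le
    have h21 := (hcases N hN3).2 (hcon N hN3)
    have h22 : log (1 / δ) < U * N := by
      have := (div_lt_iff₀ hU).mp hN2
      linarith
    have h23 : log δ ≤ -U * N := by
      have := log_le_log hδpos (h21.trans_eq rfl)
      rwa [log_exp] at this
    have h24 : log (1 / δ) = -log δ := by
      rw [one_div, log_inv]
    linarith
  classical
  set n₁ : ℕ := Nat.find hex with hn₁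
  obtain ⟨hn₁a, hn₁b⟩ : n₁ ≥ n₂ ∧ (a n₁ * p + b n₁ * q : ℤ) ≠ 0 := Nat.find_spec hex
  have hlow : exp (-S * n₁) / (2 * q) ≤ δ := (hcases n₁ hn₁a).1 hn₁b
  have hlog2 : 0 ≤ log 2 := log_nonneg (by norm_num)
  -- bound on n₁
  have hbound : (n₁ : ℝ) ≤ n₀ + 1 + (ℓ + log 2 + U) / m := by
    by_cases hc : n₁ = n₂
    · rw [hc, hn₂]
      have h25 : ((max n₀ ⌈(ℓ + log 2) / T⌉₊ : ℕ) : ℝ) ≤ n₀ + ⌈(ℓ + log 2) / T⌉₊ := by
        rcases le_total n₀ ⌈(ℓ + log 2) / T⌉₊ with h | h
        · rw [max_eq_right h]; have : (0 : ℝ) ≤ n₀ := by positivity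
          linarith
        · rw [max_eq_left h]; have : (0 : ℝ) ≤ (⌈(ℓ + log 2) / T⌉₊ : ℝ) := by positivity
          linarith
      have h26 : (⌈(ℓ + log 2) / T⌉₊ : ℝ) ≤ (ℓ + log 2) / T + 1 :=
        (Nat.ceil_lt_add_one (by positivity)).le
      have h27 : (ℓ + log 2) / T ≤ (ℓ + log 2 + U) / m := by
        apply div_le_div₀ (by positivity) (by linarith) hmpos hmT
      linarith
    · have hlt : n₂ < n₁ := lt_of_le_of_ne hn₁a (Ne.symm hc)
      have hmin := Nat.find_min hex (m := n₁ - 1) (by omega)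
      have h28 : n₁ - 1 ≥ n₂ := by omega
      have h29 : (a (n₁ - 1) * p + b (n₁ - 1) * q : ℤ) = 0 := by
        by_contra hne0
        exact hmin ⟨h28, hne0⟩
      have h30 := (hcases (n₁ - 1) h28).2 h29
      have h31 : ((n₁ - 1 : ℕ) : ℝ) = (n₁ : ℝ) - 1 := by
        rw [Nat.cast_sub (by omega)]; simp
      rw [h31] at h30
      have h32 : exp (-S * n₁) / (2 * q) ≤ exp (-U * ((n₁ : ℝ) - 1)) := le_trans hlow h30
      have h33 : (2 : ℝ) * q = exp (ℓ + log 2) := by
        rw [exp_add, exp_log (by norm_num : (0 : ℝ) < 2), ← hqexp]; ring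
      rw [h33, ← exp_sub] at h32
      have h34 := exp_le_exp.mp h32
      have h35 : (U - S) * n₁ ≤ ℓ + log 2 + U := by nlinarith
      have h36 : (n₁ : ℝ) ≤ (ℓ + log 2 + U) / (U - S) := by
        rw [le_div_iff₀ hUSpos]; linarith
      have h37 : (ℓ + log 2 + U) / (U - S) ≤ (ℓ + log 2 + U) / m := by
        apply div_le_div_of_nonneg_left (by positivity) hmpos hmUS
      have : (0 : ℝ) ≤ n₀ := by positivity
      linarith
  -- conclusion
  have hfinal : exp (-((1 + S / m) * ℓ + C₁)) ≤ δ := by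
    refine le_trans ?_ hlow
    have h33 : (2 : ℝ) * q = exp (ℓ + log 2) := by
      rw [exp_add, exp_log (by norm_num : (0 : ℝ) < 2), ← hqexp]; ring
    rw [h33, ← exp_sub]
    apply exp_le_exp.mpr
    have h38 : S * n₁ ≤ S * (n₀ + 1 + (ℓ + log 2 + U) / m) := by gcongr
    have h39 : S * (n₀ + 1 + (ℓ + log 2 + U) / m) =
        S * (n₀ + 1) + S / m * ℓ + S * (log 2 + U) / m := by
      field_simp
      ring
    rw [hC₁]
    nlinarith
  have hstrict : -(ν * ℓ) < -((1 + S / m) * ℓ + C₁) := by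
    have h40 : C₁ / (ν - (1 + S / m)) < ℓ := by linarith
    have h41 := (div_lt_iff₀ hgap).mp h40
    nlinarith
  have hqν : (q : ℝ) ^ ν = exp (ν * ℓ) := by
    rw [rpow_def_of_pos hq0, mul_comm]
  rw [hqν, one_div, ← exp_neg]
  exact lt_of_lt_of_le (exp_lt_exp.mpr hstrict) hfinal

end Vale.Agent.Lib.P021
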