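import Vale.Agent.Lib.P021.Ratpart

/-! Expansion of an integer polynomial in powers of `X ^ 2 - 8`; the specific integrand; the
coefficient of the logarithm as a power series coefficient. -/

namespace Vale.Agent.Lib.P021

open Finset

noncomputable section

open Polynomial in
/-- Expansion of an integer polynomial in powers of `X ^ 2 - 8`. -/
theorem exists_expansion (d : ℕ) (T : ℤ[X]) (hT : T.natDegree ≤ 2 * d) :
    ∃ E O : ℕ → ℤ, O d = 0 ∧
      T = ∑ t ∈ range (d + 1), (C (E t) + C (O t) * X) * (X ^ 2 - C 8) ^ t := by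
  induction d generalizing T with
  | zero =>
    refine ⟨fun _ => T.coeff 0, fun _ => 0, rfl, ?_⟩
    have : T = C (T.coeff 0) := eq_C_of_natDegree_le_zero (by omega)
    simpa using this
  | succ d ih =>
    have hmonic : (X ^ 2 - C (8 : ℤ)).Monic := monic_X_pow_sub_C _ (by norm_num)
    have hdeg : natDegree (X ^ 2 - C (8 : ℤ)) = 2 := natDegree_X_pow_sub_C
    have hT1 : (T /ₘ (X ^ 2 - C (8 : ℤ))).natDegree ≤ 2 * d := by
      rw [natDegree_divByMonic T hmonic, hdeg]; omega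
    obtain ⟨E, O, hO, hE⟩ := ih _ hT1
    have hR : (T %ₘ (X ^ 2 - C (8 : ℤ))).natDegree ≤ 1 := by
      have hne : (X ^ 2 - C (8 : ℤ)) ≠ 1 := by
        intro h
        rw [h] at hdeg
        simp at hdeg
      have h1 := natDegree_modByMonic_lt T hmonic hne
      rw [hdeg] at h1
      omega
    obtain ⟨b, a, hab⟩ := exists_eq_X_add_C_of_natDegree_le_one hR
    refine ⟨fun t => Nat.casesOn t a E, fun t => Nat.casesOn t b O, hO, ?_⟩
    rw [sum_range_succ']
    have hsplit := modByMonic_add_div T (X ^ 2 - C (8 : ℤ))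
    rw [hE, hab] at hsplit
    rw [← hsplit, mul_sum, add_comm]
    congr 1
    · refine sum_congr rfl fun t _ => ?_
      show _ = (C (E t) + C (O t) * X) * (X ^ 2 - C 8) ^ (t + 1)
      ring
    · show _ = (C a + C b * X) * (X ^ 2 - C 8) ^ 0
      ring

lemma aeval_expansion {d : ℕ} {T : Polynomial ℤ} {E O : ℕ → ℤ}
    (h : T = ∑ t ∈ range (d + 1),
      (Polynomial.C (E t) + Polynomial.C (O t) * Polynomial.X) *
        (Polynomial.X ^ 2 - Polynomial.C 8) ^ t) {R : Type*} [CommRing R] [Algebra ℤ R] (y : R) :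
    Polynomial.aeval y T = ∑ t ∈ range (d + 1), (((E t : ℤ) : R) + ((O t : ℤ) : R) * y) *
      (y ^ 2 - 8) ^ t := by
  rw [h, map_sum]
  refine sum_congr rfl fun t _ => ?_
  simp [map_mul, map_add, map_pow, map_sub, map_ofNat]

/-- The integrand in terms of the expansion. -/
lemma Bf_eq {d m : ℕ} {T : Polynomial ℤ} {E O : ℕ → ℤ}
    (h : T = ∑ t ∈ range (d + 1),
      (Polynomial.C (E t) + Polynomial.C (O t) * Polynomial.X) *
        (Polynomial.X ^ 2 - Polynomial.C 8) ^ t) {x : ℂ} (hx : x ≠ 0) (hu : uf x ≠ 0) :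
    Bf E O m d x = Polynomial.aeval (gf x) T * wf x ^ (-(2 * m : ℤ)) := by
  have hw := wf_ne_zero hx hu
  rw [aeval_expansion h, sum_mul]
  unfold Bf
  refine sum_congr rfl fun t _ => ?_
  rw [gf_sq_sub x hx, mul_assoc]
  congr 1
  have e : (2 * ((t : ℤ) - m)) = ((2 * t : ℕ) : ℤ) + (-(2 * m : ℤ)) := by push_cast; ring
  rw [e, zpow_add₀ hw, zpow_natCast, pow_mul]

/-- The polynomial `T_n`. -/
def Tn (n : ℕ) : Polynomial ℤ :=
  (Polynomial.X - Polynomial.C 2) ^ (3 * n) * (Polynomial.X - Polynomial.C 3) ^ (5 * n)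

lemma natDegree_Tn (n : ℕ) : (Tn n).natDegree ≤ 2 * (4 * n) := by
  unfold Tn
  refine Polynomial.natDegree_mul_le.trans ?_
  have h1 : ((Polynomial.X - Polynomial.C 2 : Polynomial ℤ) ^ (3 * n)).natDegree ≤ 3 * n * 1 :=
    Polynomial.natDegree_pow_le_of_le _ (Polynomial.natDegree_X_sub_C_le 2)
  have h2 : ((Polynomial.X - Polynomial.C 3 : Polynomial ℤ) ^ (5 * n)).natDegree ≤ 5 * n * 1 :=
    Polynomial.natDegree_pow_le_of_le _ (Polynomial.natDegree_X_sub_C_le 3)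
  omega

/-- Even coefficients of the expansion of `T_n`. -/
def En (n : ℕ) : ℕ → ℤ := Classical.choose (exists_expansion (4 * n) (Tn n) (natDegree_Tn n))

/-- Odd coefficients of the expansion of `T_n`. -/
def On (n : ℕ) : ℕ → ℤ :=
  Classical.choose (Classical.choose_spec (exists_expansion (4 * n) (Tn n) (natDegree_Tn n)))

lemma On_top (n : ℕ) : On n (4 * n) = 0 :=
  (Classical.choose_spec (Classical.choose_spec
    (exists_expansion (4 * n) (Tn n) (natDegree_Tn n)))).1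

lemma Tn_eq (n : ℕ) : Tn n = ∑ t ∈ range (4 * n + 1),
    (Polynomial.C (En n t) + Polynomial.C (On n t) * Polynomial.X) *
      (Polynomial.X ^ 2 - Polynomial.C 8) ^ t :=
  (Classical.choose_spec (Classical.choose_spec
    (exists_expansion (4 * n) (Tn n) (natDegree_Tn n)))).2

/-- The base integrand. -/
def BB (x : ℂ) : ℂ := (x ^ 2 - 2 * x + 2) ^ 3 * (x ^ 2 - 3 * x + 2) ^ 5 / (x ^ 4 * (x ^ 2 - 2) ^ 4)

lemma Bf_spec (n : ℕ) {x : ℂ} (hx : x ≠ 0) (hu : uf x ≠ 0) :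
    Bf (En n) (On n) (2 * n) (4 * n) x = BB x ^ n := by
  rw [Bf_eq (Tn_eq n) hx hu]
  have h1 : Polynomial.aeval (gf x) (Tn n) =
      (gf x - 2) ^ (3 * n) * (gf x - 3) ^ (5 * n) := by
    unfold Tn
    simp [map_mul, map_pow, map_sub, map_ofNat]
  rw [h1, wf_eq x hx]
  have h2 : gf x - 2 = (x ^ 2 - 2 * x + 2) / x := by
    unfold gf; field_simp; ring
  have h3 : gf x - 3 = (x ^ 2 - 3 * x + 2) / x := by
    unfold gf; field_simp; ring
  have h4 : (2 * ((2 * n : ℕ) : ℤ)) = ((4 * n : ℕ) : ℤ) := by push_cast; ring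
  rw [h2, h3, h4, zpow_neg, zpow_natCast]
  have hu' : x ^ 2 - 2 ≠ 0 := hu
  unfold BB uf
  rw [div_pow, div_pow, div_pow, div_pow, mul_pow, mul_pow]
  simp only [← pow_mul]
  field_simp
  ring

/-- The power series of the integrand in the coordinate. -/
lemma BB_Xz (z : ℂ) (h1 : p1 z ≠ 0) (h2 : p2 z ≠ 0) :
    BB (Xz z) = kap * z ^ 3 * (1 - z) ^ 3 * (1 - 2 * z) ^ 5 * (1 - (1 + Complex.I) * z) ^ 5 /
      (p1 z ^ 4 * p2 z ^ 4) := by
  have hI : (Complex.I : ℂ) * Complex.I = -1 := Complex.I_mul_I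
  have hX : Xz z ≠ 0 := by rw [Xz_eq]; exact mul_ne_zero kap_ne h1
  have hlin : Xz z = 1 - Complex.I + 2 * Complex.I * z := by
    simp only [Xz, kap]
    linear_combination (-z) * hI
  have e1 : Xz z ^ 2 - 2 * Xz z + 2 = 4 * z * (1 - z) := by
    rw [hlin]
    linear_combination (2 * z - 1) ^ 2 * hI
  have e2 : Xz z ^ 2 - 3 * Xz z + 2 = -kap * ((1 - 2 * z) * (1 - (1 + Complex.I) * z)) := by
    rw [hlin]
    simp only [kap]
    linear_combination (2 * z - 1) * (z - 1) * hI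
  have e4 : Xz z ^ 2 - 2 = -2 * (1 + Complex.I) * p2 z := uf_Xz z
  have e5 : (1 + Complex.I) ^ 4 = -4 := by
    have : (1 + Complex.I) ^ 2 = 2 * Complex.I := by linear_combination hI
    calc (1 + Complex.I) ^ 4 = ((1 + Complex.I) ^ 2) ^ 2 := by ring
      _ = -4 := by rw [this]; linear_combination 4 * hI
  unfold BB
  rw [e1, e2, e4, Xz_eq]
  have e6 : (-2 * (1 + Complex.I) * p2 z) ^ 4 = -64 * p2 z ^ 4 := by
    rw [mul_pow, mul_pow, e5]; norm_num
  rw [e6]
  have hk := kap_ne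
  field_simp
  ring

/-- The integrand at the coordinate as a quotient of polynomials. -/
def NumP (n : ℕ) : Polynomial ℂ :=
  (Polynomial.C kap * Polynomial.X ^ 3 * (1 - Polynomial.X) ^ 3 *
    (1 - Polynomial.C 2 * Polynomial.X) ^ 5 *
    (1 - Polynomial.C (1 + Complex.I) * Polynomial.X) ^ 5) ^ n

/-- Denominator of the integrand at the coordinate. -/
def DenP (n : ℕ) : Polynomial ℂ := (P1 ^ 4 * P2 ^ 4) ^ n

lemma GamPoly_NumP (n : ℕ) : GamPoly (NumP n) := by
  unfold NumP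
  refine GamPoly.pow ?_ n
  have h1 : GamPoly (1 - Polynomial.X : Polynomial ℂ) := GamPoly.one.sub GamPoly.X
  have h2 : GamPoly (1 - Polynomial.C 2 * Polynomial.X : Polynomial ℂ) :=
    GamPoly.one.sub ((GamPoly.C two_mem_Gam).mul GamPoly.X)
  have h3 : GamPoly (1 - Polynomial.C (1 + Complex.I) * Polynomial.X : Polynomial ℂ) :=
    GamPoly.one.sub ((GamPoly.C (Gam.add_mem Gam.one_mem I_mem_Gam)).mul GamPoly.X)
  exact (((((GamPoly.C kap_mem).mul (GamPoly.X.pow 3)).mul (h1.pow 3)).mul (h2.pow 5)).mul (h3.pow 5))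

lemma GamPoly_DenP (n : ℕ) : GamPoly (DenP n) :=
  ((GamPoly_P1.pow 4).mul (GamPoly_P2.pow 4)).pow n

lemma DenP_coeff (n : ℕ) : (DenP n).coeff 0 = 1 := by
  rw [coeff_zero_eq_eval, DenP]
  simp [eval_P1, eval_P2, p1_zero, p2_zero]

lemma BB_Xz_pow (n : ℕ) (z : ℂ) (h1 : p1 z ≠ 0) (h2 : p2 z ≠ 0) :
    (DenP n).eval z ≠ 0 ∧
      Bf (En n) (On n) (2 * n) (4 * n) (Xz z) = (NumP n).eval z / (DenP n).eval z := by
  have hX : Xz z ≠ 0 := by rw [Xz_eq]; exact mul_ne_zero kap_ne h1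
  have hu : uf (Xz z) ≠ 0 := by
    rw [uf_Xz]
    refine mul_ne_zero (mul_ne_zero (by norm_num) ?_) h2
    intro h
    have := congrArg Complex.re h
    simp at this
  have he : (DenP n).eval z = (p1 z ^ 4 * p2 z ^ 4) ^ n := by
    simp [DenP, eval_P1, eval_P2]
  refine ⟨?_, ?_⟩
  · rw [he]
    exact pow_ne_zero _ (mul_ne_zero (pow_ne_zero _ h1) (pow_ne_zero _ h2))
  · rw [Bf_spec n hX hu, BB_Xz z h1 h2, div_pow, he]
    simp [NumP]

open Polynomial in
/-- The polynomial identity behind the coefficient formula. -/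
lemma That_identity (n : ℕ) :
    ((X ^ 2 + C 2 * X + C 2) ^ (3 * n) * (X ^ 2 + C 3 * X + C 2) ^ (5 * n) : ℝ[X]) =
    ∑ t ∈ range (4 * n + 1), (C (En n t : ℝ) * X ^ (2 * (4 * n) - 2 * t) + C ((-On n t : ℤ) : ℝ) *
      (X ^ (2 * (4 * n) - 2 * t - 1) * (X ^ 2 + C 2))) * (X ^ 2 - C 2) ^ (2 * t) := by
  apply Polynomial.eq_of_infinite_eval_eq
  refine Set.Infinite.mono (s := {x : ℝ | x ≠ 0}) ?_ (Set.Finite.infinite_compl (Set.finite_singleton 0))
  intro x hx
  have hx' : x ≠ 0 := hx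
  simp only [Set.mem_ofPred_eq, eval_mul, eval_pow, eval_add, eval_sub, eval_C, eval_X, eval_finsetSum]
  set y : ℝ := x + 2 / x with hy
  have hT := aeval_expansion (Tn_eq n) (-y : ℝ)
  have hT1 : Polynomial.aeval (-y : ℝ) (Tn n) = (y + 2) ^ (3 * n) * (y + 3) ^ (5 * n) := by
    unfold Tn
    simp only [map_mul, map_pow, map_sub, Polynomial.aeval_X, Polynomial.aeval_C]
    have e1 : (-y - algebraMap ℤ ℝ 2) = -(y + 2) := by simp; ring
    have e2 : (-y - algebraMap ℤ ℝ 3) = -(y + 3) := by simp; ring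
    rw [e1, e2, neg_pow (y + 2), neg_pow (y + 3)]
    have e3 : ((-1 : ℝ)) ^ (3 * n) * (-1) ^ (5 * n) = 1 := by
      rw [← pow_add]
      have : 3 * n + 5 * n = 2 * (4 * n) := by ring
      rw [this, pow_mul]; simp
    calc _ = ((-1 : ℝ) ^ (3 * n) * (-1) ^ (5 * n)) * ((y + 2) ^ (3 * n) * (y + 3) ^ (5 * n)) := by ring
      _ = _ := by rw [e3, one_mul]
  rw [hT1] at hT
  have e4 : (x ^ 2 + 2 * x + 2) ^ (3 * n) * (x ^ 2 + 3 * x + 2) ^ (5 * n) =
      x ^ (8 * n) * ((y + 2) ^ (3 * n) * (y + 3) ^ (5 * n)) := by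
    have e5 : x ^ 2 + 2 * x + 2 = x * (y + 2) := by rw [hy]; field_simp; ring
    have e6 : x ^ 2 + 3 * x + 2 = x * (y + 3) := by rw [hy]; field_simp; ring
    rw [e5, e6, mul_pow, mul_pow]
    have : x ^ (8 * n) = x ^ (3 * n) * x ^ (5 * n) := by rw [← pow_add]; congr 1; ring
    rw [this]; ring
  rw [e4, hT, mul_sum]
  refine sum_congr rfl fun t ht => ?_
  have ht' : t ≤ 4 * n := by simpa [Nat.lt_succ_iff] using ht
  have e7 : y ^ 2 - 8 = (x ^ 2 - 2) ^ 2 / x ^ 2 := by rw [hy]; field_simp; ring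
  have e8 : x ^ (8 * n) = x ^ (2 * (4 * n) - 2 * t) * x ^ (2 * t) := by
    rw [← pow_add]; congr 1; omega
  rw [neg_sq, e7, div_pow, ← pow_mul, ← pow_mul, e8]
  have hx2 : x ^ (2 * t) ≠ 0 := pow_ne_zero _ hx'
  by_cases htd : t = 4 * n
  · have hO : On n t = 0 := by rw [htd]; exact On_top n
    rw [hO]
    simp
    field_simp
  · have e9 : x ^ (2 * (4 * n) - 2 * t) = x ^ (2 * (4 * n) - 2 * t - 1) * x := by
      rw [← pow_succ]; congr 1; omega
    have e10 : (-y : ℝ) = -(x ^ 2 + 2) / x := by rw [hy]; field_simp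
    push_cast
    rw [e10, e9]
    field_simp

end

end Vale.Agent.Lib.P021
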