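import Mathlib

/-!
# A polygonal path on which `B1` is small

A small verified checker (reflection): polynomials in one variable `u` with integer coefficients
as lists, and the Bernstein-type test that all coefficients are nonnegative.  A point of the half
open segment from `a/D` to `b/D` is `(a + u b) / (D (1 + u))` with `u ≥ 0`.
-/

namespace Vale.Agent.Lib.P021

open Complex

/-- The function bounded along the path. -/
noncomputable def B1 (x : ℂ) : ℂ :=
  (x ^ 2 - 2 * x + 2) ^ 3 * (x ^ 2 - 3 * x + 2) ^ 5 / (x ^ 4 * (x ^ 2 - 2) ^ 4)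

namespace PathCheck

/-- Sum of coefficient lists. -/
def addP : List ℤ → List ℤ → List ℤ
  | [], m => m
  | a :: l, [] => a :: l
  | a :: l, b :: m => (a + b) :: addP l m

/-- Scalar multiple of a coefficient list. -/
def smulP (c : ℤ) : List ℤ → List ℤ
  | [] => []
  | a :: l => (c * a) :: smulP c l

/-- Product of coefficient lists. -/
def mulP : List ℤ → List ℤ → List ℤ
  | [], _ => []
  | a :: l, m => addP (smulP a m) (0 :: mulP l m)

/-- Powers of coefficient lists. -/
def powP (l : List ℤ) : ℕ → List ℤ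
  | 0 => [1]
  | n + 1 => mulP l (powP l n)

/-- Evaluation of a coefficient list at a real number. -/
noncomputable def evalU (u : ℝ) : List ℤ → ℝ
  | [] => 0
  | a :: l => (a : ℝ) + u * evalU u l

lemma evalU_addP (u : ℝ) : ∀ l m : List ℤ, evalU u (addP l m) = evalU u l + evalU u m
  | [], m => by simp [addP, evalU]
  | a :: l, [] => by simp [addP, evalU]
  | a :: l, b :: m => by
    simp only [addP, evalU, evalU_addP u l m]
    push_cast
    ring

lemma evalU_smulP (u : ℝ) (c : ℤ) : ∀ l : List ℤ, evalU u (smulP c l) = c * evalU u l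
  | [] => by simp [smulP, evalU]
  | a :: l => by
    simp only [smulP, evalU, evalU_smulP u c l]
    push_cast
    ring

lemma evalU_mulP (u : ℝ) : ∀ l m : List ℤ, evalU u (mulP l m) = evalU u l * evalU u m
  | [], m => by simp [mulP, evalU]
  | a :: l, m => by
    simp only [mulP, evalU_addP, evalU_smulP, evalU, evalU_mulP u l m]
    push_cast
    ring

lemma evalU_powP (u : ℝ) (l : List ℤ) : ∀ n : ℕ, evalU u (powP l n) = evalU u l ^ n
  | 0 => by simp [powP, evalU]
  | n + 1 => by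
    simp only [powP, evalU_mulP, evalU_powP u l n]
    ring

/-- All coefficients are nonnegative. -/
def allNonneg : List ℤ → Bool
  | [] => true
  | a :: l => decide (0 ≤ a) && allNonneg l

/-- All coefficients are nonnegative and the constant one is positive. -/
def allPos : List ℤ → Bool
  | [] => false
  | a :: l => decide (0 < a) && allNonneg l

lemma evalU_nonneg {u : ℝ} (hu : 0 ≤ u) : ∀ l : List ℤ, allNonneg l = true → 0 ≤ evalU u l
  | [], _ => by simp [evalU]
  | a :: l, h => by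
    simp only [allNonneg, Bool.and_eq_true, decide_eq_true_eq] at h
    have h1 : (0 : ℝ) ≤ a := by exact_mod_cast h.1
    have h2 := evalU_nonneg hu l h.2
    simp only [evalU]
    positivity

lemma evalU_pos {u : ℝ} (hu : 0 ≤ u) (l : List ℤ) (h : allPos l = true) : 0 < evalU u l := by
  cases l with
  | nil => simp [allPos] at h
  | cons a l =>
    simp only [allPos, Bool.and_eq_true, decide_eq_true_eq] at h
    have h1 : (0 : ℝ) < a := by exact_mod_cast h.1
    have h2 := evalU_nonneg hu l h.2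
    simp only [evalU]
    positivity

/-- The polynomial `|al x^2 + be x + ga|^2 (D (1+u))^4` in the variable `u`,
where `x = (ar + u br + i (ai + u bi)) / (D (1+u))`. -/
def facPoly (al be ga ar ai br bi D : ℤ) : List ℤ :=
  let Xr := [ar, br]
  let Xi := [ai, bi]
  let H := [D, D]
  let re := addP (addP (smulP al (addP (mulP Xr Xr) (smulP (-1) (mulP Xi Xi))))
    (smulP be (mulP Xr H))) (smulP ga (mulP H H))
  let im := addP (smulP (2 * al) (mulP Xr Xi)) (smulP be (mulP Xi H))
  addP (mulP re re) (mulP im im)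

/-- The point of the half open segment with parameter `u`. -/
noncomputable def pt (ar ai br bi D : ℤ) (u : ℝ) : ℂ :=
  ⟨((ar : ℝ) + u * br) / (D * (1 + u)), ((ai : ℝ) + u * bi) / (D * (1 + u))⟩

lemma facPoly_eval (al be ga ar ai br bi D : ℤ) {u : ℝ} (hu : 0 ≤ u) (hD : (D : ℝ) ≠ 0) :
    normSq ((al : ℂ) * (pt ar ai br bi D u) ^ 2 + (be : ℂ) * (pt ar ai br bi D u) + (ga : ℂ)) *
      ((D : ℝ) * (1 + u)) ^ 4 = evalU u (facPoly al be ga ar ai br bi D) := by
  have h1 : (1 : ℝ) + u ≠ 0 := by positivity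
  have hh : (D : ℝ) * (1 + u) ≠ 0 := mul_ne_zero hD h1
  set h : ℝ := (D : ℝ) * (1 + u) with hdef
  set X : ℝ := ((ar : ℝ) + u * br) with hX
  set Y : ℝ := ((ai : ℝ) + u * bi) with hY
  have hpt : pt ar ai br bi D u = ⟨X / h, Y / h⟩ := rfl
  have hz : (al : ℂ) * (pt ar ai br bi D u) ^ 2 + (be : ℂ) * (pt ar ai br bi D u) + (ga : ℂ) =
      ⟨(al : ℝ) * ((X / h) ^ 2 - (Y / h) ^ 2) + be * (X / h) + ga,
        2 * (al : ℝ) * (X / h) * (Y / h) + be * (Y / h)⟩ := by
    rw [hpt]
    apply Complex.ext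
    · simp [pow_two]
    · simp [pow_two]
      ring
  have e1 : evalU u [ar, br] = X := by simp [evalU, hX]
  have e2 : evalU u [ai, bi] = Y := by simp [evalU, hY]
  have e3 : evalU u [D, D] = h := by simp [evalU, hdef]; ring
  rw [hz, normSq_mk]
  simp only [facPoly, evalU_addP, evalU_mulP, evalU_smulP, e1, e2, e3]
  push_cast
  field_simp
  ring

/-- A factor: `(al, be, ga, e)` stands for `(al x^2 + be x + ga)^e`. -/
abbrev Fac := ℤ × ℤ × ℤ × ℕ

/-- The complex product of factors. -/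
noncomputable def prodF : List Fac → ℂ → ℂ
  | [], _ => 1
  | f :: L, x => ((f.1 : ℂ) * x ^ 2 + (f.2.1 : ℂ) * x + (f.2.2.1 : ℂ)) ^ f.2.2.2 * prodF L x

/-- The total degree of a list of factors. -/
def degF : List Fac → ℕ
  | [] => 0
  | f :: L => f.2.2.2 + degF L

/-- The polynomial of a product of factors. -/
def polyF (ar ai br bi D : ℤ) : List Fac → List ℤ
  | [] => [1]
  | f :: L => mulP (powP (facPoly f.1 f.2.1 f.2.2.1 ar ai br bi D) f.2.2.2) (polyF ar ai br bi D L)

lemma polyF_eval (ar ai br bi D : ℤ) {u : ℝ} (hu : 0 ≤ u) (hD : (D : ℝ) ≠ 0) :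
    ∀ L : List Fac, normSq (prodF L (pt ar ai br bi D u)) * ((D : ℝ) * (1 + u)) ^ (4 * degF L) =
      evalU u (polyF ar ai br bi D L)
  | [] => by simp [prodF, degF, polyF, evalU]
  | f :: L => by
    have h1 := polyF_eval ar ai br bi D hu hD L
    have h2 := facPoly_eval f.1 f.2.1 f.2.2.1 ar ai br bi D hu hD
    have key : ∀ (N M H : ℝ) (e d : ℕ), N ^ e * M * H ^ (4 * (e + d)) =
        (N * H ^ 4) ^ e * (M * H ^ (4 * d)) := by
      intro N M H e d
      rw [mul_pow, ← pow_mul, mul_add, pow_add]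
      ring
    simp only [polyF, evalU_mulP, evalU_powP, ← h1, ← h2, prodF, degF, map_mul, map_pow]
    exact key _ _ _ _ _

/-- Positivity of each factor along the segment. -/
def allFacPos (ar ai br bi D : ℤ) : List Fac → Bool
  | [] => true
  | f :: L => allPos (facPoly f.1 f.2.1 f.2.2.1 ar ai br bi D) && allFacPos ar ai br bi D L

lemma prodF_ne_zero (ar ai br bi D : ℤ) {u : ℝ} (hu : 0 ≤ u) (hD : (D : ℝ) ≠ 0) :
    ∀ L : List Fac, allFacPos ar ai br bi D L = true → prodF L (pt ar ai br bi D u) ≠ 0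
  | [], _ => by simp [prodF]
  | f :: L, h => by
    simp only [allFacPos, Bool.and_eq_true] at h
    have h1 := prodF_ne_zero ar ai br bi D hu hD L h.2
    have h2 := evalU_pos hu _ h.1
    rw [← facPoly_eval f.1 f.2.1 f.2.2.1 ar ai br bi D hu hD] at h2
    have h3 : (f.1 : ℂ) * (pt ar ai br bi D u) ^ 2 + (f.2.1 : ℂ) * (pt ar ai br bi D u) +
        (f.2.2.1 : ℂ) ≠ 0 := by
      intro h0
      rw [h0] at h2
      simp at h2
    simp only [prodF]
    exact mul_ne_zero (pow_ne_zero _ h3) h1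

/-- The test on a single segment from `(ar + i ai)/D` to `(br + i bi)/D`:
`Q |num|^2 ≤ P |den|^2` (coefficientwise), the denominator does not vanish and the real parts
stay at least `1`. -/
def segCheck (num den : List Fac) (P Q D : ℤ) (a b : ℤ × ℤ) : Bool :=
  decide (0 < D) && decide (D ≤ a.1) && decide (D ≤ b.1) && decide (degF num = degF den) &&
    allFacPos a.1 a.2 b.1 b.2 D den &&
    allNonneg (addP (smulP P (polyF a.1 a.2 b.1 b.2 D den))
      (smulP (-Q) (polyF a.1 a.2 b.1 b.2 D num)))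

/-- What the segment test gives at the parameter `u`. -/
lemma segCheck_spec {num den : List Fac} {P Q D : ℤ} {a b : ℤ × ℤ}
    (h : segCheck num den P Q D a b = true) {u : ℝ} (hu : 0 ≤ u) :
    1 ≤ (pt a.1 a.2 b.1 b.2 D u).re ∧ prodF den (pt a.1 a.2 b.1 b.2 D u) ≠ 0 ∧
      (Q : ℝ) * normSq (prodF num (pt a.1 a.2 b.1 b.2 D u)) ≤
        (P : ℝ) * normSq (prodF den (pt a.1 a.2 b.1 b.2 D u)) := by
  simp only [segCheck, Bool.and_eq_true, decide_eq_true_eq] at h
  obtain ⟨⟨⟨⟨⟨h0, h1⟩, h2⟩, h3⟩, h4⟩, h5⟩ := h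
  have hD : (0 : ℝ) < D := by exact_mod_cast h0
  have hD' : (D : ℝ) ≠ 0 := hD.ne'
  have hu1 : (0 : ℝ) < 1 + u := by positivity
  refine ⟨?_, prodF_ne_zero _ _ _ _ _ hu hD' _ h4, ?_⟩
  · have h1' : (D : ℝ) ≤ a.1 := by exact_mod_cast h1
    have h2' : (D : ℝ) ≤ b.1 := by exact_mod_cast h2
    simp only [pt]
    rw [le_div_iff₀ (by positivity)]
    nlinarith
  · have h6 := evalU_nonneg hu _ h5
    rw [evalU_addP, evalU_smulP, evalU_smulP, ← polyF_eval _ _ _ _ _ hu hD',
      ← polyF_eval _ _ _ _ _ hu hD', ← h3] at h6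
    have hpos : (0 : ℝ) < ((D : ℝ) * (1 + u)) ^ (4 * degF num) := by positivity
    push_cast at h6
    have h7 : 0 ≤ ((P : ℝ) * normSq (prodF den (pt a.1 a.2 b.1 b.2 D u)) -
        (Q : ℝ) * normSq (prodF num (pt a.1 a.2 b.1 b.2 D u))) *
        ((D : ℝ) * (1 + u)) ^ (4 * degF num) := by
      nlinarith
    have h8 := nonneg_of_mul_nonneg_left h7 hpos
    linarith

end PathCheck

open PathCheck

/-- The factors of the numerator of `B1`. -/
def numB1 : List Fac := [(1, -2, 2, 3), (1, -3, 2, 5)]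

/-- The factors of the denominator of `B1`. -/
def denB1 : List Fac := [(0, 1, 0, 4), (1, 0, -2, 4)]

lemma prodF_numB1 (x : ℂ) :
    prodF numB1 x = (x ^ 2 - 2 * x + 2) ^ 3 * (x ^ 2 - 3 * x + 2) ^ 5 := by
  simp only [numB1, prodF]
  push_cast
  ring

lemma prodF_denB1 (x : ℂ) : prodF denB1 x = x ^ 4 * (x ^ 2 - 2) ^ 4 := by
  simp only [denB1, prodF]
  push_cast
  ring

lemma B1_eq (x : ℂ) : B1 x = prodF numB1 x / prodF denB1 x := by
  rw [prodF_numB1, prodF_denB1, B1]

/-- The vertices of the polygon, times `10000`. -/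
def vs : List (ℤ × ℤ) :=
  [(10000, 0), (10184, 557), (10353, 1059), (10533, 1558), (10728, 2050), (10939, 2536),
    (11165, 3016), (11401, 3490), (11640, 3964), (11870, 4441), (12077, 4940), (12232, 5498),
    (12270, 6065), (12179, 6627), (11993, 7165), (11745, 7678), (11457, 8170), (11138, 8642),
    (10794, 9097), (10429, 9534), (10000, 10000)]

/-- The `i`-th vertex in integer coordinates. -/
def vi (i : ℕ) : ℤ × ℤ := vs.getD i (10000, 10000)

/-- The `i`-th vertex. -/
noncomputable def vv (i : ℕ) : ℂ := ⟨((vi i).1 : ℝ) / 10000, ((vi i).2 : ℝ) / 10000⟩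

/-- All segments pass the test, with `P / Q = (145973 / 10^8)^2`. -/
lemma all_check : ∀ i < 20, segCheck numB1 denB1 (145973 ^ 2) ((10 ^ 8) ^ 2) 10000 (vi i) (vi (i + 1)) =
    true := by
  decide +kernel

/-- The rational under-estimate of `exp (-6.5295)`. -/
lemma kappa_le : (145973 / 10 ^ 8 : ℝ) ≤ Real.exp (-6.5295) := by
  have h1 : Real.exp 1 < 2.7182818286 := Real.exp_one_lt_d9
  have h2 : Real.exp 6 ≤ 2.7182818286 ^ 6 := by
    have : Real.exp 6 = Real.exp 1 ^ 6 := by
      rw [← Real.exp_nat_mul]; norm_num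
    rw [this]
    exact pow_le_pow_left₀ (Real.exp_pos 1).le h1.le 6
  have h3 : Real.exp 0.5295 ≤ 1.698085 := by
    have := Real.exp_bound' (x := 0.5295) (by norm_num) (by norm_num) (n := 8) (by norm_num)
    refine this.trans ?_
    norm_num [Finset.sum_range_succ, Nat.factorial]
  have h4 : Real.exp 6.5295 ≤ 2.7182818286 ^ 6 * 1.698085 := by
    have : Real.exp 6.5295 = Real.exp 6 * Real.exp 0.5295 := by
      rw [← Real.exp_add]; norm_num
    rw [this]
    exact mul_le_mul h2 h3 (Real.exp_pos _).le (by norm_num)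
  rw [Real.exp_neg]
  rw [le_inv_comm₀ (by norm_num) (Real.exp_pos _)]
  refine h4.trans ?_
  norm_num

/-- The half open segment in terms of the parameter `u`. -/
lemma seg_pt (a b : ℤ × ℤ) {s t : ℝ} (hs : 0 < s) (ht : 0 ≤ t) (hst : s + t = 1) :
    ∃ u : ℝ, 0 ≤ u ∧ s • (⟨(a.1 : ℝ) / 10000, (a.2 : ℝ) / 10000⟩ : ℂ) +
      t • (⟨(b.1 : ℝ) / 10000, (b.2 : ℝ) / 10000⟩ : ℂ) = pt a.1 a.2 b.1 b.2 10000 u := by
  refine ⟨t / s, by positivity, ?_⟩
  have h1 : (1 : ℝ) + t / s = 1 / s := by
    field_simp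
    linarith
  apply Complex.ext
  · simp only [pt, Complex.add_re, Complex.real_smul, Complex.mul_re, Complex.ofReal_re,
      Complex.ofReal_im, zero_mul, sub_zero, h1]
    push_cast
    field_simp
  · simp only [pt, Complex.add_im, Complex.real_smul, Complex.mul_im, Complex.ofReal_re,
      Complex.ofReal_im, zero_mul, add_zero, h1]
    push_cast
    field_simp

/-- The bound at a point of the half open segment number `i`. -/
lemma bound_at (i : ℕ) (hi : i < 20) {s t : ℝ} (hs : 0 < s) (ht : 0 ≤ t) (hst : s + t = 1) :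
    1 ≤ (s • vv i + t • vv (i + 1)).re ∧ (s • vv i + t • vv (i + 1)) ^ 2 ≠ 2 ∧
      ‖B1 (s • vv i + t • vv (i + 1))‖ ≤ Real.exp (-6.5295) := by
  obtain ⟨u, hu, hx⟩ := seg_pt (vi i) (vi (i + 1)) hs ht hst
  have hx' : s • vv i + t • vv (i + 1) = pt (vi i).1 (vi i).2 (vi (i + 1)).1 (vi (i + 1)).2 10000 u :=
    hx
  rw [hx']
  obtain ⟨h1, h2, h3⟩ := segCheck_spec (all_check i hi) hu
  set x := pt (vi i).1 (vi i).2 (vi (i + 1)).1 (vi (i + 1)).2 10000 u with hxdef
  refine ⟨h1, ?_, ?_⟩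
  · intro h0
    apply h2
    rw [prodF_denB1, h0]
    simp
  · have hd : 0 < normSq (prodF denB1 x) := normSq_pos.mpr h2
    have h4 : normSq (B1 x) ≤ (145973 / 10 ^ 8 : ℝ) ^ 2 := by
      rw [B1_eq, map_div₀, div_le_iff₀ hd]
      push_cast at h3
      nlinarith
    have h5 : ‖B1 x‖ ^ 2 ≤ (145973 / 10 ^ 8 : ℝ) ^ 2 := by
      rw [← Complex.normSq_eq_norm_sq]
      exact h4
    have h6 : ‖B1 x‖ ≤ (145973 / 10 ^ 8 : ℝ) :=
      le_of_sq_le_sq h5 (by norm_num) |>.trans le_rfl
    exact h6.trans kappa_le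

lemma vv_zero : vv 0 = 1 := by
  apply Complex.ext <;> simp [vv, vi, vs]

lemma vv_last : vv 20 = 1 + Complex.I := by
  apply Complex.ext <;> simp [vv, vi, vs]

lemma B1_last : B1 (1 + Complex.I) = 0 := by
  have h : (1 + Complex.I) ^ 2 - 2 * (1 + Complex.I) + 2 = 0 := by
    ring_nf
    simp
  rw [B1, h]
  simp

/-- A polygonal path from `1` to `1 + i` in the half plane `Re x ≥ 1` avoiding the zeros of
`x^2 - 2`, on which `|B1| ≤ exp (-6.5295)`. -/
theorem path_exists : ∃ (K : ℕ) (v : ℕ → ℂ), v 0 = 1 ∧ v K = 1 + Complex.I ∧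
    ∀ i < K, ∀ x ∈ segment ℝ (v i) (v (i + 1)),
      1 ≤ x.re ∧ x ^ 2 ≠ 2 ∧ ‖B1 x‖ ≤ Real.exp (-6.5295) := by
  refine ⟨20, vv, vv_zero, vv_last, ?_⟩
  intro i hi x hx
  obtain ⟨s, t, hs, ht, hst, rfl⟩ := hx
  rcases hs.lt_or_eq with hs0 | hs0
  · exact bound_at i hi hs0 ht hst
  · have ht1 : t = 1 := by linarith
    subst ht1
    rw [← hs0, zero_smul, zero_add, one_smul]
    rcases Nat.lt_or_ge (i + 1) 20 with h | h
    · have := bound_at (i + 1) h (s := 1) (t := 0) one_pos le_rfl (by norm_num)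
      simpa using this
    · have hi1 : i + 1 = 20 := by omega
      rw [hi1, vv_last, B1_last]
      refine ⟨by simp, ?_, by simpa using (Real.exp_pos _).le⟩
      intro h2
      have := congrArg Complex.im h2
      ring_nf at this
      simp at this

end Vale.Agent.Lib.P021
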