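import Mathlib

/-! Two-sided exponential bounds for the central coefficients of powers of `PhiS`. -/

namespace Vale.Agent.Lib.P021

open PowerSeries Finset

/-- The generating series. -/
noncomputable def PhiS : PowerSeries Real :=
  (X^2 + C 2 * X + C 2)^3 * (X^2 + C 3 * X + C 2)^5 * ((C 2 - X^2)⁻¹)^4

/-- The central coefficients. -/
noncomputable def Qs (n : Nat) : Real := coeff (4*n) (PhiS^n)

/-! ### Series with nonnegative coefficients -/

/-- All coefficients are nonnegative. -/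
def NN (φ : ℝ⟦X⟧) : Prop := ∀ k, 0 ≤ coeff k φ

lemma coeff_mul_ge {φ ψ : ℝ⟦X⟧} (hφ : NN φ) (hψ : NN ψ) (i j : ℕ) :
    coeff i φ * coeff j ψ ≤ coeff (i + j) (φ * ψ) := by
  rw [coeff_mul]
  have hmem : (i, j) ∈ antidiagonal (i + j) := by simp
  exact Finset.single_le_sum (f := fun p : ℕ × ℕ => coeff p.1 φ * coeff p.2 ψ)
    (fun p _ => mul_nonneg (hφ _) (hψ _)) hmem

lemma NN.mul {φ ψ : ℝ⟦X⟧} (hφ : NN φ) (hψ : NN ψ) : NN (φ * ψ) := by
  intro k
  rw [coeff_mul]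
  exact Finset.sum_nonneg (fun p _ => mul_nonneg (hφ _) (hψ _))

lemma NN.add {φ ψ : ℝ⟦X⟧} (hφ : NN φ) (hψ : NN ψ) : NN (φ + ψ) := by
  intro k
  rw [map_add]
  exact add_nonneg (hφ _) (hψ _)

lemma NN_C {c : ℝ} (hc : 0 ≤ c) : NN (C c) := by
  intro k
  rw [coeff_C]
  split_ifs
  · exact hc
  · exact le_rfl

lemma NN_one : NN (1 : ℝ⟦X⟧) := by
  have : (1 : ℝ⟦X⟧) = C 1 := by simp
  rw [this]; exact NN_C zero_le_one

lemma NN.pow {φ : ℝ⟦X⟧} (hφ : NN φ) (n : ℕ) : NN (φ ^ n) := by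
  induction n with
  | zero => simpa using NN_one
  | succ n ih => rw [pow_succ]; exact ih.mul hφ

lemma NN_X : NN (X : ℝ⟦X⟧) := by
  intro k
  rw [coeff_X]
  split_ifs
  · exact zero_le_one
  · exact le_rfl

/-! ### The series `D` -/

/-- The reciprocal series. -/
noncomputable def DD : ℝ⟦X⟧ := (C 2 - X^2)⁻¹

lemma const_ne : constantCoeff (C 2 - X^2 : ℝ⟦X⟧) ≠ 0 := by
  simp

lemma DD_mul : DD * (C 2 - X^2) = 1 := by
  unfold DD
  exact PowerSeries.inv_mul_cancel _ const_ne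

lemma coeff_mul_sub (φ : ℝ⟦X⟧) (j : ℕ) :
    coeff j (φ * (C 2 - X^2)) =
      2 * coeff j φ - (if 2 ≤ j then coeff (j - 2) φ else 0) := by
  rw [mul_sub, map_sub, mul_comm φ (C 2), coeff_C_mul, coeff_mul_X_pow']

lemma dd_zero : coeff 0 DD = 1 / 2 := by
  have h := congrArg (coeff 0) DD_mul
  rw [coeff_mul_sub] at h
  simp only [show ¬ (2 ≤ 0) by omega, if_false, sub_zero, coeff_zero_one] at h
  linarith

lemma dd_one : coeff 1 DD = 0 := by
  have h := congrArg (coeff 1) DD_mul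
  rw [coeff_mul_sub] at h
  simp [coeff_one] at h
  exact h

lemma dd_add_two (k : ℕ) : coeff (k + 2) DD = coeff k DD / 2 := by
  have h := congrArg (coeff (k + 2)) DD_mul
  rw [coeff_mul_sub] at h
  simp [coeff_one] at h
  linarith

lemma NN_DD : NN DD := by
  intro k
  induction k using Nat.twoStepInduction with
  | zero => rw [dd_zero]; norm_num
  | one => rw [dd_one]
  | more k ih _ => rw [dd_add_two]; positivity

/-- Coefficients of powers of `DD`. -/
noncomputable def GG (m : ℕ) : ℝ⟦X⟧ :=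
  mk fun j => if 2 ∣ j then (((m + j / 2).choose m : ℕ) : ℝ) * (1 / 2) ^ (j / 2 + m + 1) else 0

lemma coeff_GG_even (m k : ℕ) :
    coeff (2 * k) (GG m) = (((m + k).choose m : ℕ) : ℝ) * (1 / 2) ^ (k + m + 1) := by
  unfold GG
  rw [coeff_mk]
  simp

lemma coeff_GG_odd (m k : ℕ) : coeff (2 * k + 1) (GG m) = 0 := by
  unfold GG
  rw [coeff_mk]
  have : ¬ 2 ∣ (2 * k + 1) := by omega
  simp [this]

lemma GG_zero_mul : GG 0 * (C 2 - X^2) = 1 := by
  ext j
  rw [coeff_mul_sub, coeff_one]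
  rcases Nat.even_or_odd' j with ⟨k, rfl | rfl⟩
  · rcases k with _ | k
    · have h0 := coeff_GG_even 0 0
      simp only [Nat.mul_zero] at h0 ⊢
      rw [h0]
      simp
    · have h1 : 2 * (k + 1) - 2 = 2 * k := by omega
      have h2 : 2 ≤ 2 * (k + 1) := by omega
      have h3 : 2 * (k + 1) ≠ 0 := by omega
      rw [if_pos h2, h1, if_neg h3, coeff_GG_even, coeff_GG_even]
      simp only [zero_add, Nat.choose_zero_right, Nat.cast_one, one_mul, add_zero]
      ring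
  · rcases k with _ | k
    · have : ¬ (2 ≤ 2 * 0 + 1) := by omega
      rw [if_neg this, coeff_GG_odd]
      simp
    · have h1 : 2 * (k + 1) + 1 - 2 = 2 * k + 1 := by omega
      have h2 : 2 ≤ 2 * (k + 1) + 1 := by omega
      have h3 : 2 * (k + 1) + 1 ≠ 0 := by omega
      rw [if_pos h2, h1, if_neg h3, coeff_GG_odd, coeff_GG_odd]
      simp

lemma GG_succ_mul (m : ℕ) : GG (m + 1) * (C 2 - X^2) = GG m := by
  ext j
  rw [coeff_mul_sub]
  rcases Nat.even_or_odd' j with ⟨k, rfl | rfl⟩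
  · rcases k with _ | k
    · simp only [Nat.mul_zero, show ¬ (2 ≤ 0) by omega, if_false, sub_zero]
      have h0 := coeff_GG_even (m + 1) 0
      have h1 := coeff_GG_even m 0
      simp only [Nat.mul_zero] at h0 h1
      rw [h0, h1]
      simp
      ring
    · have h1 : 2 * (k + 1) - 2 = 2 * k := by omega
      have h2 : 2 ≤ 2 * (k + 1) := by omega
      rw [if_pos h2, h1, coeff_GG_even, coeff_GG_even, coeff_GG_even]
      have hc : (((m + 1 + (k + 1)).choose (m + 1) : ℕ) : ℝ) =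
          ((m + (k + 1)).choose m : ℕ) + ((m + 1 + k).choose (m + 1) : ℕ) := by
        have : m + 1 + (k + 1) = (m + (k + 1)) + 1 := by omega
        rw [this, Nat.choose_succ_succ]
        have h4 : m + (k + 1) = m + 1 + k := by omega
        push_cast
        rw [h4]
      rw [hc]
      ring
  · rcases k with _ | k
    · have : ¬ (2 ≤ 2 * 0 + 1) := by omega
      rw [if_neg this, coeff_GG_odd, coeff_GG_odd]
      simp
    · have h1 : 2 * (k + 1) + 1 - 2 = 2 * k + 1 := by omega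
      have h2 : 2 ≤ 2 * (k + 1) + 1 := by omega
      rw [if_pos h2, h1, coeff_GG_odd, coeff_GG_odd, coeff_GG_odd]
      simp

lemma DD_pow (m : ℕ) : DD ^ (m + 1) = GG m := by
  have hne : (C 2 - X^2 : ℝ⟦X⟧) ≠ 0 := by
    intro h
    have := const_ne
    rw [h] at this
    simp at this
  induction m with
  | zero =>
    rw [zero_add, pow_one]
    unfold DD
    exact (PowerSeries.inv_eq_iff_mul_eq_one const_ne).2 GG_zero_mul
  | succ m ih =>
    rw [pow_succ, ih]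
    have h : GG (m + 1) * (C 2 - X^2) * DD = GG (m + 1) := by
      rw [mul_assoc, mul_comm (C 2 - X^2), DD_mul, mul_one]
    rw [← h, GG_succ_mul]

lemma coeff_DD_pow (m k : ℕ) :
    coeff (2 * k) (DD ^ (m + 1)) = (((m + k).choose m : ℕ) : ℝ) * (1 / 2) ^ (k + m + 1) := by
  rw [DD_pow, coeff_GG_even]

/-! ### Finite sums -/

/-- Finite sums at `r`. -/
noncomputable def PS (φ : ℝ⟦X⟧) (r : ℝ) (N : ℕ) : ℝ := ∑ k ∈ range N, coeff k φ * r ^ k

/-- Nonnegative coefficients with finite sums bounded by `M`. -/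
def Adm (r M : ℝ) (φ : ℝ⟦X⟧) : Prop := NN φ ∧ ∀ N, PS φ r N ≤ M

lemma Adm.nonneg {r M : ℝ} {φ : ℝ⟦X⟧} (h : Adm r M φ) : 0 ≤ M := by
  have := h.2 0
  simpa [PS] using this

lemma PS_antidiag (a b : ℕ → ℝ) (r : ℝ) (N : ℕ) :
    ∑ k ∈ range N, (∑ p ∈ antidiagonal k, a p.1 * b p.2) * r ^ k =
      ∑ i ∈ range N, a i * r ^ i * ∑ j ∈ range (N - i), b j * r ^ j := by
  have h1 : ∀ k, (∑ p ∈ antidiagonal k, a p.1 * b p.2) * r ^ k =
      ∑ i ∈ range (k + 1), a i * b (k - i) * r ^ k := by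
    intro k
    rw [Finset.Nat.sum_antidiagonal_eq_sum_range_succ_mk, Finset.sum_mul]
  simp_rw [h1]
  rw [Finset.sum_comm' (s' := fun i => Ico i N) (t' := range N)]
  · apply Finset.sum_congr rfl
    intro i hi
    rw [Finset.sum_Ico_eq_sum_range, Finset.mul_sum]
    apply Finset.sum_congr rfl
    intro j _
    have : i + j - i = j := by omega
    rw [this, pow_add]
    ring
  · intro k i
    simp only [mem_range, mem_Ico]
    omega

lemma Adm.mul {r M M' : ℝ} {φ ψ : ℝ⟦X⟧} (hr : 0 ≤ r) (hφ : Adm r M φ) (hψ : Adm r M' ψ) :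
    Adm r (M * M') (φ * ψ) := by
  refine ⟨hφ.1.mul hψ.1, fun N => ?_⟩
  unfold PS
  have h1 : ∀ k, coeff k (φ * ψ) = ∑ p ∈ antidiagonal k, coeff p.1 φ * coeff p.2 ψ :=
    fun k => coeff_mul k φ ψ
  simp_rw [h1]
  rw [PS_antidiag (fun i => coeff i φ) (fun j => coeff j ψ) r N]
  calc ∑ i ∈ range N, coeff i φ * r ^ i * ∑ j ∈ range (N - i), coeff j ψ * r ^ j
      ≤ ∑ i ∈ range N, coeff i φ * r ^ i * M' := by
        apply Finset.sum_le_sum
        intro i _
        apply mul_le_mul_of_nonneg_left (hψ.2 _)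
        exact mul_nonneg (hφ.1 _) (pow_nonneg hr _)
    _ = (∑ i ∈ range N, coeff i φ * r ^ i) * M' := by rw [Finset.sum_mul]
    _ ≤ M * M' := mul_le_mul_of_nonneg_right (hφ.2 _) hψ.nonneg

lemma Adm.add {r M M' : ℝ} {φ ψ : ℝ⟦X⟧} (hφ : Adm r M φ) (hψ : Adm r M' ψ) :
    Adm r (M + M') (φ + ψ) := by
  refine ⟨hφ.1.add hψ.1, fun N => ?_⟩
  have : PS (φ + ψ) r N = PS φ r N + PS ψ r N := by
    unfold PS
    rw [← Finset.sum_add_distrib]
    apply Finset.sum_congr rfl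
    intro k _
    rw [map_add]; ring
  rw [this]
  exact add_le_add (hφ.2 N) (hψ.2 N)

lemma Adm_C {r c : ℝ} (hc : 0 ≤ c) : Adm r c (C c) := by
  refine ⟨NN_C hc, fun N => ?_⟩
  unfold PS
  rcases N with _ | N
  · simpa using hc
  · rw [Finset.sum_range_succ']
    have : ∑ k ∈ range N, coeff (k + 1) (C c : ℝ⟦X⟧) * r ^ (k + 1) = 0 := by
      apply Finset.sum_eq_zero
      intro k _
      rw [coeff_C, if_neg (by omega)]
      simp
    rw [this]
    simp

lemma Adm_one {r : ℝ} : Adm r 1 (1 : ℝ⟦X⟧) := by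
  have : (1 : ℝ⟦X⟧) = C 1 := by simp
  rw [this]; exact Adm_C zero_le_one

lemma Adm_X {r : ℝ} (hr : 0 ≤ r) : Adm r r (X : ℝ⟦X⟧) := by
  refine ⟨NN_X, fun N => ?_⟩
  unfold PS
  rcases N with _ | _ | N
  · simpa using hr
  · simpa [coeff_X] using hr
  · rw [Finset.sum_range_succ', Finset.sum_range_succ']
    have : ∑ k ∈ range N, coeff (k + 1 + 1) (X : ℝ⟦X⟧) * r ^ (k + 1 + 1) = 0 := by
      apply Finset.sum_eq_zero
      intro k _
      rw [coeff_X, if_neg (by omega)]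
      simp
    rw [this]
    simp [coeff_X]

lemma Adm.pow {r M : ℝ} {φ : ℝ⟦X⟧} (hr : 0 ≤ r) (hφ : Adm r M φ) (n : ℕ) :
    Adm r (M ^ n) (φ ^ n) := by
  induction n with
  | zero => simpa using Adm_one
  | succ n ih => rw [pow_succ, pow_succ]; exact ih.mul hr hφ

lemma PS_DD_bound {r : ℝ} (hr : 0 ≤ r) (hr2 : r ^ 2 < 2) (N : ℕ) :
    PS DD r N ≤ 1 / (2 - r ^ 2) := by
  have hpos : 0 < 2 - r ^ 2 := by linarith
  have hM : 1 / 2 ≤ 1 / (2 - r ^ 2) := by
    apply one_div_le_one_div_of_le hpos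
    nlinarith [sq_nonneg r]
  have hfix : 1 / 2 + r ^ 2 / 2 * (1 / (2 - r ^ 2)) = 1 / (2 - r ^ 2) := by
    field_simp
    ring
  have hrec : ∀ N, PS DD r (N + 2) = 1 / 2 + r ^ 2 / 2 * PS DD r N := by
    intro N
    unfold PS
    rw [Finset.sum_range_succ', Finset.sum_range_succ', Finset.mul_sum]
    have : ∀ k, coeff (k + 1 + 1) DD * r ^ (k + 1 + 1) = r ^ 2 / 2 * (coeff k DD * r ^ k) := by
      intro k
      rw [show k + 1 + 1 = k + 2 by omega, dd_add_two, pow_add]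
      ring
    simp_rw [this]
    rw [dd_one, dd_zero]
    simp
    ring
  induction N using Nat.twoStepInduction with
  | zero =>
    simp only [PS, range_zero, sum_empty]
    positivity
  | one =>
    simp only [PS, sum_range_one, dd_zero, pow_zero, mul_one]
    exact hM
  | more N ih _ =>
    rw [hrec]
    have : 0 ≤ r ^ 2 / 2 := by positivity
    calc 1 / 2 + r ^ 2 / 2 * PS DD r N
        ≤ 1 / 2 + r ^ 2 / 2 * (1 / (2 - r ^ 2)) := by
          have := mul_le_mul_of_nonneg_left ih this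
          linarith
      _ = 1 / (2 - r ^ 2) := hfix

lemma Adm_DD {r : ℝ} (hr : 0 ≤ r) (hr2 : r ^ 2 < 2) : Adm r (1 / (2 - r ^ 2)) DD :=
  ⟨NN_DD, PS_DD_bound hr hr2⟩

lemma PhiS_eq : PhiS = (X^2 + C 2 * X + C 2)^3 * (X^2 + C 3 * X + C 2)^5 * DD^4 := rfl

lemma NN_PhiS : NN PhiS := by
  rw [PhiS_eq]
  have h2 : (0 : ℝ) ≤ 2 := by norm_num
  have h3 : (0 : ℝ) ≤ 3 := by norm_num
  have hA : NN (X^2 + C 2 * X + C 2 : ℝ⟦X⟧) :=
    ((NN_X.pow 2).add ((NN_C h2).mul NN_X)).add (NN_C h2)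
  have hB : NN (X^2 + C 3 * X + C 2 : ℝ⟦X⟧) :=
    ((NN_X.pow 2).add ((NN_C h3).mul NN_X)).add (NN_C h2)
  exact ((hA.pow 3).mul (hB.pow 5)).mul (NN_DD.pow 4)

lemma Adm_PhiS {r : ℝ} (hr : 0 ≤ r) (hr2 : r ^ 2 < 2) :
    Adm r ((r ^ 2 + 2 * r + 2) ^ 3 * (r ^ 2 + 3 * r + 2) ^ 5 * (1 / (2 - r ^ 2)) ^ 4) PhiS := by
  rw [PhiS_eq]
  have h2 : (0 : ℝ) ≤ 2 := by norm_num
  have h3 : (0 : ℝ) ≤ 3 := by norm_num
  have hA : Adm r (r ^ 2 + 2 * r + 2) (X^2 + C 2 * X + C 2 : ℝ⟦X⟧) :=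
    (((Adm_X hr).pow hr 2).add ((Adm_C h2).mul hr (Adm_X hr))).add (Adm_C h2)
  have hB : Adm r (r ^ 2 + 3 * r + 2) (X^2 + C 3 * X + C 2 : ℝ⟦X⟧) :=
    (((Adm_X hr).pow hr 2).add ((Adm_C h3).mul hr (Adm_X hr))).add (Adm_C h2)
  exact ((hA.pow hr 3).mul hr (hB.pow hr 5)).mul hr ((Adm_DD hr hr2).pow hr 4)

lemma coeff_mul_pow_le {r M : ℝ} {φ : ℝ⟦X⟧} (hr : 0 ≤ r) (h : Adm r M φ) (k : ℕ) :
    coeff k φ * r ^ k ≤ M := by
  refine le_trans ?_ (h.2 (k + 1))
  unfold PS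
  have hmem : k ∈ range (k + 1) := by simp
  exact Finset.single_le_sum (f := fun j => coeff j φ * r ^ j)
    (fun j _ => mul_nonneg (h.1 j) (pow_nonneg hr j)) hmem

/-! ### The upper bound -/

lemma exp_lower : (37811 : ℝ) ≤ Real.exp 10.5404 := by
  have h1 : (2.7182818283 : ℝ) < Real.exp 1 := Real.exp_one_gt_d9
  have h2 : Real.exp 10.5404 = Real.exp 1 ^ 10 * Real.exp 0.5404 := by
    rw [← Real.exp_nat_mul, ← Real.exp_add]
    norm_num
  have h3 : ∑ i ∈ range 8, (0.5404 : ℝ) ^ i / (i.factorial : ℝ) ≤ Real.exp 0.5404 :=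
    Real.sum_le_exp_of_nonneg (by norm_num) 8
  have h4 : (1.71665 : ℝ) ≤ Real.exp 0.5404 := by
    refine le_trans ?_ h3
    norm_num [Finset.sum_range_succ, Nat.factorial]
  have h5 : (2.7182818283 : ℝ) ^ 10 ≤ Real.exp 1 ^ 10 :=
    pow_le_pow_left₀ (by norm_num) h1.le 10
  rw [h2]
  calc (37811 : ℝ) ≤ 2.7182818283 ^ 10 * 1.71665 := by norm_num
    _ ≤ Real.exp 1 ^ 10 * Real.exp 0.5404 :=
      mul_le_mul h5 h4 (by norm_num) (by positivity)

theorem Qs_le (n : ℕ) : Qs n ≤ Real.exp (10.5404 * n) := by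
  have hr : (0 : ℝ) ≤ 3913 / 10000 := by norm_num
  have hr2 : ((3913 : ℝ) / 10000) ^ 2 < 2 := by norm_num
  have h := coeff_mul_pow_le hr ((Adm_PhiS hr hr2).pow hr n) (4 * n)
  have hrpos : (0 : ℝ) < (3913 / 10000) ^ 4 := by norm_num
  have hmain : (((3913 / 10000 : ℝ) ^ 2 + 2 * (3913 / 10000) + 2) ^ 3 *
      ((3913 / 10000 : ℝ) ^ 2 + 3 * (3913 / 10000) + 2) ^ 5 *
      (1 / (2 - (3913 / 10000 : ℝ) ^ 2)) ^ 4) ≤ 37811 * (3913 / 10000) ^ 4 := by
    norm_num
  have hexp : Real.exp (10.5404 * n) = Real.exp 10.5404 ^ n := by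
    rw [← Real.exp_nat_mul]
    congr 1
    ring
  rw [hexp]
  have hle : Qs n * ((3913 / 10000 : ℝ) ^ 4) ^ n ≤ (Real.exp 10.5404 * (3913 / 10000) ^ 4) ^ n := by
    calc Qs n * ((3913 / 10000 : ℝ) ^ 4) ^ n
        = coeff (4 * n) (PhiS ^ n) * (3913 / 10000 : ℝ) ^ (4 * n) := by
          rw [pow_mul]; rfl
      _ ≤ _ := h
      _ ≤ (Real.exp 10.5404 * (3913 / 10000) ^ 4) ^ n := by
          apply pow_le_pow_left₀
          · positivity
          · refine le_trans hmain ?_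
            exact mul_le_mul_of_nonneg_right exp_lower hrpos.le
  rw [mul_pow] at hle
  exact le_of_mul_le_mul_right hle (pow_pos hrpos n)

/-! ### Selecting one term of a power -/

lemma coeff_add_pow_ge {φ ψ : ℝ⟦X⟧} (hφ : NN φ) (hψ : NN ψ) {s m : ℕ} (hs : s ≤ m) (i j : ℕ) :
    (m.choose s : ℝ) * (coeff i (φ ^ s) * coeff j (ψ ^ (m - s))) ≤ coeff (i + j) ((φ + ψ) ^ m) := by
  rw [add_pow, map_sum]
  have hterm : ∀ t : ℕ, coeff (i + j) (φ ^ t * ψ ^ (m - t) * ((m.choose t : ℕ) : ℝ⟦X⟧)) =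
      coeff (i + j) (φ ^ t * ψ ^ (m - t)) * (m.choose t : ℝ) := by
    intro t
    have : ((m.choose t : ℕ) : ℝ⟦X⟧) = C ((m.choose t : ℕ) : ℝ) := (map_natCast C _).symm
    rw [this, coeff_mul_C]
  have hmem : s ∈ range (m + 1) := by simp; omega
  calc (m.choose s : ℝ) * (coeff i (φ ^ s) * coeff j (ψ ^ (m - s)))
      ≤ coeff (i + j) (φ ^ s * ψ ^ (m - s)) * (m.choose s : ℝ) := by
        rw [mul_comm]
        exact mul_le_mul_of_nonneg_right (coeff_mul_ge (hφ.pow s) (hψ.pow _) i j) (Nat.cast_nonneg _)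
    _ = coeff (i + j) (φ ^ s * ψ ^ (m - s) * ((m.choose s : ℕ) : ℝ⟦X⟧)) := (hterm s).symm
    _ ≤ _ := Finset.single_le_sum (f := fun t => coeff (i + j) (φ ^ t * ψ ^ (m - t) * ((m.choose t : ℕ) : ℝ⟦X⟧)))
        (fun t _ => by
          rw [hterm t]
          exact mul_nonneg (((hφ.pow t).mul (hψ.pow _)) _) (Nat.cast_nonneg _)) hmem

lemma coeff_C_pow_zero (c : ℝ) (t : ℕ) : coeff 0 ((C c : ℝ⟦X⟧) ^ t) = c ^ t := by
  rw [← map_pow, coeff_zero_C]

lemma coeff_Xd_add_C (d : ℕ) {c : ℝ} (hc : 0 ≤ c) {l m : ℕ} (hl : l ≤ m) :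
    (m.choose l : ℝ) * c ^ (m - l) ≤ coeff (d * l) ((X ^ d + C c) ^ m) := by
  have h := coeff_add_pow_ge (φ := X ^ d) (ψ := C c) (NN_X.pow d) (NN_C hc) hl (d * l) 0
  rw [add_zero] at h
  have h1 : coeff (d * l) (((X : ℝ⟦X⟧) ^ d) ^ l) = 1 := by
    rw [← pow_mul, coeff_X_pow_self]
  rw [h1, coeff_C_pow_zero, one_mul] at h
  exact h

lemma coeff_A_ge {s l m : ℕ} (hs : s ≤ m) (hl : l ≤ m - s) :
    (m.choose s : ℝ) * (2 ^ s * (((m - s).choose l : ℝ) * 2 ^ (m - s - l))) ≤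
      coeff (s + 2 * l) ((X ^ 2 + C 2 * X + C 2 : ℝ⟦X⟧) ^ m) := by
  have h2 : (0 : ℝ) ≤ 2 := by norm_num
  have hA : (X ^ 2 + C 2 * X + C 2 : ℝ⟦X⟧) = C 2 * X + (X ^ 2 + C 2) := by ring
  rw [hA]
  have h := coeff_add_pow_ge (φ := C 2 * X) (ψ := X ^ 2 + C 2) ((NN_C h2).mul NN_X)
    ((NN_X.pow 2).add (NN_C h2)) hs s (2 * l)
  refine le_trans ?_ h
  have h1 : coeff s ((C 2 * X : ℝ⟦X⟧) ^ s) = 2 ^ s := by
    rw [mul_pow, ← map_pow, coeff_C_mul, coeff_X_pow_self, mul_one]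
  rw [h1]
  apply mul_le_mul_of_nonneg_left _ (Nat.cast_nonneg _)
  apply mul_le_mul_of_nonneg_left _ (by positivity)
  exact coeff_Xd_add_C 2 h2 hl

lemma B_factor : (X ^ 2 + C 3 * X + C 2 : ℝ⟦X⟧) = (X ^ 1 + C 1) * (X ^ 1 + C 2) := by
  have h3 : (C 3 : ℝ⟦X⟧) = C 1 + C 2 := by rw [← map_add]; norm_num
  have h2 : (C 2 : ℝ⟦X⟧) = C 1 * C 2 := by rw [← map_mul]; norm_num
  rw [h3]
  nth_rewrite 2 [h2]
  ring

lemma PhiS_pow (n : ℕ) : PhiS ^ n = (X ^ 2 + C 2 * X + C 2 : ℝ⟦X⟧) ^ (3 * n) *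
    (X ^ 1 + C 1 : ℝ⟦X⟧) ^ (5 * n) * (X ^ 1 + C 2 : ℝ⟦X⟧) ^ (5 * n) * DD ^ (4 * n) := by
  rw [PhiS_eq, B_factor]
  simp only [mul_pow, ← pow_mul]
  ring_nf

lemma coeff_mul_ge' {φ ψ : ℝ⟦X⟧} (hφ : NN φ) (hψ : NN ψ) {x y : ℝ} {i j : ℕ}
    (hx0 : 0 ≤ x) (hy0 : 0 ≤ y) (hx : x ≤ coeff i φ) (hy : y ≤ coeff j ψ) :
    x * y ≤ coeff (i + j) (φ * ψ) :=
  le_trans (mul_le_mul hx hy hy0 (hφ _)) (coeff_mul_ge hφ hψ i j)

lemma Qs_term {n s l a b k : ℕ} (hn : 0 < n) (hs : s ≤ 3 * n) (hl : l ≤ 3 * n - s)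
    (ha : a ≤ 5 * n) (hb : b ≤ 5 * n) (hsum : s + 2 * l + a + b + 2 * k = 4 * n) :
    ((3 * n).choose s : ℝ) * (2 ^ s * (((3 * n - s).choose l : ℝ) * 2 ^ (3 * n - s - l))) *
      ((5 * n).choose a : ℝ) * (((5 * n).choose b : ℝ) * 2 ^ (5 * n - b)) *
      (((4 * n - 1 + k).choose (4 * n - 1) : ℝ) * (1 / 2) ^ (k + (4 * n - 1) + 1)) ≤ Qs n := by
  have h1 : (0 : ℝ) ≤ 1 := zero_le_one
  have h2 : (0 : ℝ) ≤ 2 := by norm_num
  have h3 : (0 : ℝ) ≤ 3 := by norm_num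
  have hA : NN (X ^ 2 + C 2 * X + C 2 : ℝ⟦X⟧) :=
    ((NN_X.pow 2).add ((NN_C h2).mul NN_X)).add (NN_C h2)
  have hB1 : NN (X ^ 1 + C 1 : ℝ⟦X⟧) := (NN_X.pow 1).add (NN_C h1)
  have hB2 : NN (X ^ 1 + C 2 : ℝ⟦X⟧) := (NN_X.pow 1).add (NN_C h2)
  have ca := coeff_A_ge hs hl
  have cb : ((5 * n).choose a : ℝ) ≤ coeff a ((X ^ 1 + C 1 : ℝ⟦X⟧) ^ (5 * n)) := by
    have := coeff_Xd_add_C 1 h1 ha
    rwa [one_pow, mul_one, one_mul] at this
  have cc : ((5 * n).choose b : ℝ) * 2 ^ (5 * n - b) ≤ coeff b ((X ^ 1 + C 2 : ℝ⟦X⟧) ^ (5 * n)) := by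
    have := coeff_Xd_add_C 1 h2 hb
    rwa [one_mul] at this
  have cd : coeff (2 * k) (DD ^ (4 * n)) =
      (((4 * n - 1 + k).choose (4 * n - 1) : ℕ) : ℝ) * (1 / 2) ^ (k + (4 * n - 1) + 1) := by
    have := coeff_DD_pow (4 * n - 1) k
    rwa [show 4 * n - 1 + 1 = 4 * n by omega] at this
  have key := coeff_mul_ge' ((((hA.pow _).mul (hB1.pow _))).mul (hB2.pow _)) (NN_DD.pow _)
    (x := _) (by positivity) (by positivity)
    (coeff_mul_ge' ((hA.pow _).mul (hB1.pow _)) (hB2.pow _)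
      (by positivity) (by positivity)
      (coeff_mul_ge' (hA.pow _) (hB1.pow _) (by positivity) (by positivity) ca cb) cc) cd.ge
  rw [hsum, ← PhiS_pow] at key
  exact key

/-! ### Supermultiplicativity -/

lemma Qs_add (a b : ℕ) : Qs a * Qs b ≤ Qs (a + b) := by
  unfold Qs
  rw [mul_add, pow_add]
  exact coeff_mul_ge (NN_PhiS.pow a) (NN_PhiS.pow b) _ _

lemma Qs_zero : Qs 0 = 1 := by
  unfold Qs
  simp

lemma Qs_one : 1 ≤ Qs 1 := by
  have h := Qs_term (n := 1) (s := 0) (l := 0) (a := 4) (b := 0) (k := 0) (by norm_num) (by norm_num)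
    (by norm_num) (by norm_num) (by norm_num) (by norm_num)
  refine le_trans ?_ h
  norm_num [Nat.choose]

lemma Qs_ge_one (r : ℕ) : 1 ≤ Qs r := by
  induction r with
  | zero => rw [Qs_zero]
  | succ r ih =>
    have := Qs_add r 1
    have h1 := Qs_one
    nlinarith

/-! ### Lower bounds for binomial coefficients -/

lemma choose_max_aux (k l : ℕ) :
    ∀ j ≤ k + l, k ^ j * l ^ (k + l - j) * (k + l).choose j ≤
      k ^ k * l ^ l * (k + l).choose k := by
  set m := k + l with hm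
  have hrec : ∀ j, ((m).choose (j + 1)) * (j + 1) = (m).choose j * (m - j) :=
    fun j => Nat.choose_succ_right_eq m j
  -- the sequence increases up to `k`
  have hup : ∀ j, j < k → k ^ j * l ^ (m - j) * m.choose j ≤
      k ^ (j + 1) * l ^ (m - (j + 1)) * m.choose (j + 1) := by
    intro j hj
    have h1 : m - j = (m - (j + 1)) + 1 := by omega
    have h2 : l * (j + 1) ≤ k * (m - j) := by
      calc l * (j + 1) = (j + 1) * l := Nat.mul_comm _ _
        _ ≤ k * (m - j) := Nat.mul_le_mul (by omega) (by omega)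
    have h3 : l * m.choose j ≤ k * m.choose (j + 1) := by
      have h4 : (l * m.choose j) * (j + 1) ≤ (k * m.choose (j + 1)) * (j + 1) := by
        calc (l * m.choose j) * (j + 1) = (l * (j + 1)) * m.choose j := by ring
          _ ≤ (k * (m - j)) * m.choose j := Nat.mul_le_mul_right _ h2
          _ = k * (m.choose j * (m - j)) := by ring
          _ = k * (m.choose (j + 1) * (j + 1)) := by rw [hrec]
          _ = (k * m.choose (j + 1)) * (j + 1) := by ring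
      exact Nat.le_of_mul_le_mul_right h4 (by omega)
    calc k ^ j * l ^ (m - j) * m.choose j
        = k ^ j * l ^ (m - (j + 1)) * (l * m.choose j) := by rw [h1, pow_succ]; ring_nf
      _ ≤ k ^ j * l ^ (m - (j + 1)) * (k * m.choose (j + 1)) := Nat.mul_le_mul_left _ h3
      _ = k ^ (j + 1) * l ^ (m - (j + 1)) * m.choose (j + 1) := by rw [pow_succ]; ring
  have hdown : ∀ j, k ≤ j → j < m → k ^ (j + 1) * l ^ (m - (j + 1)) * m.choose (j + 1) ≤
      k ^ j * l ^ (m - j) * m.choose j := by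
    intro j hj hjm
    have h1 : m - j = (m - (j + 1)) + 1 := by omega
    have h2 : k * (m - j) ≤ l * (j + 1) := by
      calc k * (m - j) ≤ (j + 1) * l := Nat.mul_le_mul (by omega) (by omega)
        _ = l * (j + 1) := Nat.mul_comm _ _
    have h3 : k * m.choose (j + 1) ≤ l * m.choose j := by
      have h4 : (k * m.choose (j + 1)) * (j + 1) ≤ (l * m.choose j) * (j + 1) := by
        calc (k * m.choose (j + 1)) * (j + 1) = k * (m.choose (j + 1) * (j + 1)) := by ring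
          _ = k * (m.choose j * (m - j)) := by rw [hrec]
          _ = (k * (m - j)) * m.choose j := by ring
          _ ≤ (l * (j + 1)) * m.choose j := Nat.mul_le_mul_right _ h2
          _ = (l * m.choose j) * (j + 1) := by ring
      exact Nat.le_of_mul_le_mul_right h4 (by omega)
    calc k ^ (j + 1) * l ^ (m - (j + 1)) * m.choose (j + 1)
        = k ^ j * l ^ (m - (j + 1)) * (k * m.choose (j + 1)) := by rw [pow_succ]; ring
      _ ≤ k ^ j * l ^ (m - (j + 1)) * (l * m.choose j) := Nat.mul_le_mul_left _ h3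
      _ = k ^ j * l ^ (m - j) * m.choose j := by rw [h1, pow_succ]; ring_nf
  have hkk : l = m - k := by omega
  intro j hj
  have hgoal : k ^ k * l ^ (m - k) * m.choose k = k ^ k * l ^ l * m.choose k := by rw [← hkk]
  rw [← hgoal]
  rcases le_total j k with hjk | hjk
  · have : ∀ i, j ≤ i → i ≤ k → k ^ j * l ^ (m - j) * m.choose j ≤ k ^ i * l ^ (m - i) * m.choose i := by
      intro i hi
      induction i, hi using Nat.le_induction with
      | base => intro _; exact le_rfl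
      | succ i hi ih =>
        intro hik
        exact le_trans (ih (by omega)) (hup i (by omega))
    exact this k hjk le_rfl
  · have : ∀ i, k ≤ i → i ≤ m → k ^ i * l ^ (m - i) * m.choose i ≤ k ^ k * l ^ (m - k) * m.choose k := by
      intro i hi
      induction i, hi using Nat.le_induction with
      | base => intro _; exact le_rfl
      | succ i hi ih =>
        intro him
        exact le_trans (hdown i hi (by omega)) (ih (by omega))
    exact this j hjk hj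

lemma choose_ge (k l : ℕ) :
    (k + l) ^ (k + l) ≤ (k + l + 1) * ((k + l).choose k * (k ^ k * l ^ l)) := by
  rw [add_pow]
  calc ∑ j ∈ range (k + l + 1), k ^ j * l ^ (k + l - j) * (k + l).choose j
      ≤ ∑ _j ∈ range (k + l + 1), k ^ k * l ^ l * (k + l).choose k := by
        apply Finset.sum_le_sum
        intro j hj
        exact choose_max_aux k l j (by simpa [Nat.lt_succ_iff] using hj)
    _ = (k + l + 1) * ((k + l).choose k * (k ^ k * l ^ l)) := by
        rw [Finset.sum_const, card_range, smul_eq_mul]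
        ring

lemma choose_scaled (p q K : ℕ) (hK : 0 < K) :
    ((p + q) ^ (p + q)) ^ K ≤ ((p + q) * K + 1) * (((p + q) * K).choose (p * K) * (p ^ p * q ^ q) ^ K) := by
  have h := choose_ge (p * K) (q * K)
  have e1 : p * K + q * K = (p + q) * K := by ring
  rw [e1] at h
  have hKpos : 0 < K ^ ((p + q) * K) := pow_pos hK _
  have e2 : ((p + q) * K) ^ ((p + q) * K) = ((p + q) ^ (p + q)) ^ K * K ^ ((p + q) * K) := by
    rw [mul_pow, pow_mul]
  have e3 : (p * K) ^ (p * K) * (q * K) ^ (q * K) = (p ^ p * q ^ q) ^ K * K ^ ((p + q) * K) := by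
    rw [mul_pow, mul_pow, add_mul, pow_add K, mul_pow, ← pow_mul p, ← pow_mul q]
    ring
  rw [e2, e3] at h
  have h' : ((p + q) ^ (p + q)) ^ K * K ^ ((p + q) * K) ≤
      (((p + q) * K + 1) * (((p + q) * K).choose (p * K) * (p ^ p * q ^ q) ^ K)) * K ^ ((p + q) * K) := by
    calc _ ≤ _ := h
      _ = _ := by ring
  exact Nat.le_of_mul_le_mul_right h' hKpos

/-- The growth rate of the binomial coefficient `C((p+q)K, pK)`. -/
noncomputable def beta (p q : ℕ) : ℝ := ((p + q : ℕ) : ℝ) ^ (p + q) / ((p : ℝ) ^ p * (q : ℝ) ^ q)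

lemma choose_lb (p q K : ℕ) (hp : 0 < p) (hq : 0 < q) (hK : 0 < K) :
    beta p q ^ K / (((p + q) * K + 1 : ℕ) : ℝ) ≤ (((p + q) * K).choose (p * K) : ℝ) := by
  have h := choose_scaled p q K hK
  have h' : (((((p + q : ℕ) : ℝ) ^ (p + q)) ^ K : ℝ)) ≤
      (((p + q) * K + 1 : ℕ) : ℝ) * ((((p + q) * K).choose (p * K) : ℝ) * ((p : ℝ) ^ p * (q : ℝ) ^ q) ^ K) := by
    exact_mod_cast h
  have hpos : (0 : ℝ) < (p : ℝ) ^ p * (q : ℝ) ^ q := by positivity
  have hD : (0 : ℝ) < (((p + q) * K + 1 : ℕ) : ℝ) := by positivity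
  rw [div_le_iff₀ hD, beta, div_pow, div_le_iff₀ (pow_pos hpos K)]
  linarith [h']

lemma choose_pred_eq (A B K : ℕ) (hB : 0 < B) (hK : 0 < K) (hA : 0 < A) :
    (((A * K - 1).choose (B * K - 1) : ℕ) : ℝ) * (A : ℝ) = ((A * K).choose (B * K) : ℝ) * (B : ℝ) := by
  have h := Nat.add_one_mul_choose_eq (A * K - 1) (B * K - 1)
  have h1 : A * K - 1 + 1 = A * K := Nat.sub_add_cancel (Nat.mul_pos hA hK)
  have h2 : B * K - 1 + 1 = B * K := Nat.sub_add_cancel (Nat.mul_pos hB hK)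
  rw [h1, h2] at h
  have h' : ((A * K : ℕ) : ℝ) * (((A * K - 1).choose (B * K - 1) : ℕ) : ℝ) =
      ((A * K).choose (B * K) : ℝ) * ((B * K : ℕ) : ℝ) := by
    exact_mod_cast h
  have hKr : (K : ℝ) ≠ 0 := by positivity
  push_cast at h'
  have : (K : ℝ) * (((((A * K - 1).choose (B * K - 1) : ℕ) : ℝ)) * (A : ℝ)) =
      (K : ℝ) * (((A * K).choose (B * K) : ℝ) * (B : ℝ)) := by
    linear_combination h'
  exact mul_left_cancel₀ hKr this

/-! ### The numerical rate -/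

/-- The exponential growth rate along the chosen ray. -/
noncomputable def Rr : ℝ :=
  beta 51 141 * beta 10 131 * beta 90 230 * beta 53 267 * beta 256 21 * 2 ^ 172

set_option exponentiation.threshold 1000 in
lemma exp_le_Rr : Real.exp 674.5664 ≤ Rr := by
  have h1 : Real.exp 1 < 2.7182818286 := Real.exp_one_lt_d9
  have h2 : Real.exp 674.5664 = Real.exp 1 ^ 674 * Real.exp 0.5664 := by
    rw [← Real.exp_nat_mul, ← Real.exp_add]
    norm_num
  have h3 := Real.exp_bound' (x := 0.5664) (by norm_num) (by norm_num) (n := 10) (by norm_num)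
  have h4 : Real.exp 0.5664 ≤ 1.763 := by
    refine le_trans h3 ?_
    norm_num [Finset.sum_range_succ, Nat.factorial]
  have h5 : Real.exp 1 ^ 674 ≤ (2.7182818286 : ℝ) ^ 674 :=
    pow_le_pow_left₀ (Real.exp_pos 1).le h1.le 674
  rw [h2]
  calc Real.exp 1 ^ 674 * Real.exp 0.5664 ≤ (2.7182818286 : ℝ) ^ 674 * 1.763 :=
        mul_le_mul h5 h4 (Real.exp_pos _).le (by positivity)
    _ ≤ Rr := by
        unfold Rr beta
        norm_num

lemma beta_pos (p q : ℕ) (hp : 0 < p) (hq : 0 < q) : 0 < beta p q := by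
  unfold beta
  positivity

lemma choose_lb' (p q K : ℕ) (hp : 0 < p) (hq : 0 < q) (hK : 0 < K) :
    beta p q ^ K / (((p + q + 1 : ℕ) : ℝ) * K) ≤ (((p + q) * K).choose (p * K) : ℝ) := by
  refine le_trans ?_ (choose_lb p q K hp hq hK)
  have hb : 0 ≤ beta p q ^ K := pow_nonneg (beta_pos p q hp hq).le K
  have hK' : (1 : ℝ) ≤ K := by exact_mod_cast hK
  apply div_le_div_of_nonneg_left hb (by positivity)
  push_cast
  nlinarith

lemma choose_lb_nonneg (p q K : ℕ) (hp : 0 < p) (hq : 0 < q) :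
    0 ≤ beta p q ^ K / (((p + q + 1 : ℕ) : ℝ) * K) :=
  div_nonneg (pow_nonneg (beta_pos p q hp hq).le K) (by positivity)

set_option exponentiation.threshold 1000 in
lemma Qs_ray (K : ℕ) (hK : 0 < K) :
    Rr ^ K * (256 / 277) / (193 * 142 * 321 * 321 * 278 * (K : ℝ) ^ 5) ≤ Qs (64 * K) := by
  have h := Qs_term (n := 64 * K) (s := 51 * K) (l := 10 * K) (a := 90 * K) (b := 53 * K) (k := 21 * K)
    (by omega) (by omega) (by omega) (by omega) (by omega) (by omega)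
  rw [show 3 * (64 * K) - 51 * K - 10 * K = 131 * K by omega,
    show 3 * (64 * K) - 51 * K = (10 + 131) * K by omega,
    show 3 * (64 * K) = (51 + 141) * K by omega,
    show 5 * (64 * K) - 53 * K = 267 * K by omega,
    show 4 * (64 * K) - 1 + 21 * K = 277 * K - 1 by omega,
    show 4 * (64 * K) - 1 = 256 * K - 1 by omega,
    show 21 * K + (256 * K - 1) + 1 = 277 * K by omega] at h
  have e3 : ((5 * (64 * K)).choose (90 * K) : ℝ) = (((90 + 230) * K).choose (90 * K) : ℝ) := by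
    rw [show 5 * (64 * K) = (90 + 230) * K by omega]
  have e4 : ((5 * (64 * K)).choose (53 * K) : ℝ) = (((53 + 267) * K).choose (53 * K) : ℝ) := by
    rw [show 5 * (64 * K) = (53 + 267) * K by omega]
  rw [e3, e4] at h
  have b1 := choose_lb' 51 141 K (by norm_num) (by norm_num) hK
  have b2 := choose_lb' 10 131 K (by norm_num) (by norm_num) hK
  have b3 := choose_lb' 90 230 K (by norm_num) (by norm_num) hK
  have b4 := choose_lb' 53 267 K (by norm_num) (by norm_num) hK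
  have b5 := choose_lb' 256 21 K (by norm_num) (by norm_num) hK
  have e5 := choose_pred_eq 277 256 K (by norm_num) hK (by norm_num)
  have e5' : (((277 * K - 1).choose (256 * K - 1) : ℕ) : ℝ) =
      (((256 + 21) * K).choose (256 * K) : ℝ) * (256 / 277) := by
    rw [show (256 + 21) * K = 277 * K by omega]
    push_cast at e5
    linarith
  rw [e5'] at h
  have hKr : (0 : ℝ) < K := by exact_mod_cast hK
  set c1 : ℝ := (((51 + 141) * K).choose (51 * K) : ℝ)
  set c2 : ℝ := (((10 + 131) * K).choose (10 * K) : ℝ)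
  set c3 : ℝ := (((90 + 230) * K).choose (90 * K) : ℝ)
  set c4 : ℝ := (((53 + 267) * K).choose (53 * K) : ℝ)
  set c5 : ℝ := (((256 + 21) * K).choose (256 * K) : ℝ)
  have hpow : (2 : ℝ) ^ (51 * K) * 2 ^ (131 * K) * 2 ^ (267 * K) * (1 / 2) ^ (277 * K) = (2 ^ 172) ^ K := by
    rw [pow_mul, pow_mul, pow_mul, pow_mul, ← mul_pow, ← mul_pow, ← mul_pow]
    have base : (2 : ℝ) ^ 51 * 2 ^ 131 * 2 ^ 267 * (1 / 2) ^ 277 = 2 ^ 172 := by norm_num
    rw [base]
  have hP : (0 : ℝ) < (2 ^ 172) ^ K := by positivity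
  have hprod : c1 * (2 ^ (51 * K) * (c2 * 2 ^ (131 * K))) * c3 * (c4 * 2 ^ (267 * K)) *
      (c5 * (256 / 277) * (1 / 2) ^ (277 * K)) =
      c1 * c2 * c3 * c4 * c5 * (256 / 277) * (2 ^ 172) ^ K := by
    rw [← hpow]
    ring
  rw [hprod] at h
  refine le_trans ?_ h
  have n1 := choose_lb_nonneg 51 141 K (by norm_num) (by norm_num)
  have n2 := choose_lb_nonneg 10 131 K (by norm_num) (by norm_num)
  have n3 := choose_lb_nonneg 90 230 K (by norm_num) (by norm_num)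
  have n4 := choose_lb_nonneg 53 267 K (by norm_num) (by norm_num)
  have n5 := choose_lb_nonneg 256 21 K (by norm_num) (by norm_num)
  have hmul : (beta 51 141 ^ K / (((51 + 141 + 1 : ℕ) : ℝ) * K)) *
      (beta 10 131 ^ K / (((10 + 131 + 1 : ℕ) : ℝ) * K)) *
      (beta 90 230 ^ K / (((90 + 230 + 1 : ℕ) : ℝ) * K)) *
      (beta 53 267 ^ K / (((53 + 267 + 1 : ℕ) : ℝ) * K)) *
      (beta 256 21 ^ K / (((256 + 21 + 1 : ℕ) : ℝ) * K)) ≤ c1 * c2 * c3 * c4 * c5 := by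
    have t1 := mul_le_mul b1 b2 n2 (le_trans n1 b1)
    have t2 := mul_le_mul t1 b3 n3 (le_trans (mul_nonneg n1 n2) t1)
    have t3 := mul_le_mul t2 b4 n4 (le_trans (mul_nonneg (mul_nonneg n1 n2) n3) t2)
    exact mul_le_mul t3 b5 n5 (le_trans (mul_nonneg (mul_nonneg (mul_nonneg n1 n2) n3) n4) t3)
  have heq : Rr ^ K * (256 / 277) / (193 * 142 * 321 * 321 * 278 * (K : ℝ) ^ 5) =
      (beta 51 141 ^ K / (((51 + 141 + 1 : ℕ) : ℝ) * K)) *
      (beta 10 131 ^ K / (((10 + 131 + 1 : ℕ) : ℝ) * K)) *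
      (beta 90 230 ^ K / (((90 + 230 + 1 : ℕ) : ℝ) * K)) *
      (beta 53 267 ^ K / (((53 + 267 + 1 : ℕ) : ℝ) * K)) *
      (beta 256 21 ^ K / (((256 + 21 + 1 : ℕ) : ℝ) * K)) * (256 / 277) * (2 ^ 172) ^ K := by
    unfold Rr
    rw [mul_pow, mul_pow, mul_pow, mul_pow, mul_pow]
    push_cast
    field_simp
    try ring
  rw [heq]
  exact mul_le_mul_of_nonneg_right (mul_le_mul_of_nonneg_right hmul (by norm_num)) hP.le

theorem Qs_ge : ∃ n0 : ℕ, ∀ n ≥ n0, Real.exp (10.54 * n) ≤ Qs n := by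
  set c : ℝ := 193 * 142 * 321 * 321 * 278 * (277 / 256) with hc
  have hcpos : 0 < c := by rw [hc]; norm_num
  set ε : ℝ := 0.0064 / 6 with hε
  have hεpos : 0 < ε := by rw [hε]; norm_num
  set W : ℝ := Real.exp 674.56 * c / ε ^ 6 with hW
  refine ⟨64 * (⌈W⌉₊ + 1), fun n hn => ?_⟩
  have hsplit : 64 * (n / 64) + n % 64 = n := Nat.div_add_mod n 64
  set K := n / 64 with hKdef
  have hr : n % 64 < 64 := Nat.mod_lt _ (by norm_num)
  set r := n % 64 with hrdef
  have hK1 : ⌈W⌉₊ + 1 ≤ K := by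
    rw [hKdef, Nat.le_div_iff_mul_le (by norm_num)]
    linarith
  have hKpos : 0 < K := by omega
  have hKr : (0 : ℝ) < K := by exact_mod_cast hKpos
  have hWK : W ≤ K := by
    have h1 : W ≤ (⌈W⌉₊ : ℝ) := Nat.le_ceil W
    have h2 : ((⌈W⌉₊ : ℕ) : ℝ) ≤ (K : ℝ) := by
      exact_mod_cast (by omega : ⌈W⌉₊ ≤ K)
    linarith
  have hray := Qs_ray K hKpos
  have hQ : Qs (64 * K) ≤ Qs n := by
    rw [← hsplit]
    have h1 := Qs_add (64 * K) r
    have h2 := Qs_ge_one r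
    have h3 := Qs_ge_one (64 * K)
    nlinarith
  have hn' : (n : ℝ) ≤ 64 * K + 64 := by
    have : n ≤ 64 * K + 64 := by omega
    exact_mod_cast this
  have hexp1 : Real.exp (10.54 * n) ≤ Real.exp (674.56 * K) * Real.exp 674.56 := by
    rw [← Real.exp_add]
    apply Real.exp_le_exp.2
    nlinarith
  have hRr : Real.exp (674.5664 * K) ≤ Rr ^ K := by
    have : Real.exp (674.5664 * K) = Real.exp 674.5664 ^ K := by
      rw [← Real.exp_nat_mul]
      congr 1
      ring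
    rw [this]
    exact pow_le_pow_left₀ (Real.exp_pos _).le exp_le_Rr K
  have hsmall : Real.exp 674.56 * (c * (K : ℝ) ^ 5) ≤ Real.exp (0.0064 * K) := by
    have h1 : Real.exp (0.0064 * K) = Real.exp (ε * K) ^ 6 := by
      rw [← Real.exp_nat_mul]
      congr 1
      rw [hε]
      push_cast
      ring
    have h2 : ε * K ≤ Real.exp (ε * K) := by
      have := Real.add_one_le_exp (ε * K)
      linarith
    have h3 : (ε * K) ^ 6 ≤ Real.exp (ε * K) ^ 6 :=
      pow_le_pow_left₀ (by positivity) h2 6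
    rw [h1]
    refine le_trans ?_ h3
    have h4 : Real.exp 674.56 * c = W * ε ^ 6 := by
      rw [hW]
      field_simp
    calc Real.exp 674.56 * (c * (K : ℝ) ^ 5) = (W * ε ^ 6) * (K : ℝ) ^ 5 := by rw [← h4]; ring
      _ ≤ ((K : ℝ) * ε ^ 6) * (K : ℝ) ^ 5 := by
          apply mul_le_mul_of_nonneg_right _ (by positivity)
          exact mul_le_mul_of_nonneg_right hWK (by positivity)
      _ = (ε * K) ^ 6 := by ring
  have hsplitexp : Real.exp (674.5664 * K) = Real.exp (674.56 * K) * Real.exp (0.0064 * K) := by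
    rw [← Real.exp_add]
    congr 1
    ring
  refine le_trans hexp1 (le_trans ?_ hQ)
  refine le_trans ?_ hray
  rw [le_div_iff₀ (by positivity)]
  have hE := Real.exp_pos (674.56 * K)
  have hA : Real.exp (674.56 * K) * Real.exp 674.56 * (c * (K : ℝ) ^ 5) ≤ Rr ^ K := by
    calc Real.exp (674.56 * K) * Real.exp 674.56 * (c * (K : ℝ) ^ 5)
        = Real.exp (674.56 * K) * (Real.exp 674.56 * (c * (K : ℝ) ^ 5)) := by ring
      _ ≤ Real.exp (674.56 * K) * Real.exp (0.0064 * K) :=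
          mul_le_mul_of_nonneg_left hsmall hE.le
      _ = Real.exp (674.5664 * K) := hsplitexp.symm
      _ ≤ Rr ^ K := hRr
  have hfin : Real.exp (674.56 * K) * Real.exp 674.56 * (193 * 142 * 321 * 321 * 278 * (K : ℝ) ^ 5) =
      (Real.exp (674.56 * K) * Real.exp 674.56 * (c * (K : ℝ) ^ 5)) * (256 / 277) := by
    rw [hc]
    ring
  rw [hfin]
  exact mul_le_mul_of_nonneg_right hA (by norm_num)

end Vale.Agent.Lib.P021
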