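import Vale.Agent.Lib.P021.Assembly
import Vale.Agent.Lib.P021.Path
import Vale.Agent.Lib.P021.QBounds

/-! Instantiation of the inputs. -/

namespace Vale.Agent.Lib.P021

lemma hQu' (n : ℕ) : PowerSeries.coeff (4 * n) (PhiE ^ n) ≤ Real.exp (10.5404 * n) := Qs_le n

lemma hQl' : ∃ n₀ : ℕ, ∀ n ≥ n₀, Real.exp (10.54 * n) ≤ PowerSeries.coeff (4 * n) (PhiE ^ n) :=
  Qs_ge

lemma hpath' : ∃ (K : ℕ) (v : ℕ → ℂ), v 0 = 1 ∧ v K = 1 + Complex.I ∧ ∀ i < K,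
    ∀ x ∈ segment ℝ (v i) (v (i + 1)), 1 ≤ x.re ∧ x ^ 2 ≠ 2 ∧ ‖BB x‖ ≤ Real.exp (-6.5295) :=
  path_exists

/-- The bound with `27 / 4`, from the upper half of the prime number theorem. -/
theorem main_no_gain (hpsi : ∀ ε > 0, ∃ X : ℝ, ∀ x ≥ X, Chebyshev.psi x ≤ (1 + ε) * x) :
    ∃ Q : ℝ, 1 ≤ Q ∧ ∀ p q : ℤ, Q ≤ q →
      1 / (q : ℝ) ^ (27 / 4 : ℝ) < |Real.pi - p / q| :=
  main_of_inputs hpsi hQu' hQl' hpath'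

end Vale.Agent.Lib.P021
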