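import Mathlib

/-! Divisibility of coefficients by a prime for which the exponents reduce to a small degree. -/

namespace Vale.Agent.Lib.P021

noncomputable section

/-- `2 X ^ 2 - 2 X + 1`. -/
def Aq : Polynomial ℤ :=
  Polynomial.C 2 * Polynomial.X ^ 2 - Polynomial.C 2 * Polynomial.X + 1

/-- `2 X ^ 2 - 3 X + 1`. -/
def Bq : Polynomial ℤ :=
  Polynomial.C 2 * Polynomial.X ^ 2 - Polynomial.C 3 * Polynomial.X + 1

/-- `1 - 2 X ^ 2`. -/
def Uq : Polynomial ℤ := 1 - Polynomial.C 2 * Polynomial.X ^ 2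

lemma natDegree_Aq : Aq.natDegree ≤ 2 := by unfold Aq; compute_degree
lemma natDegree_Bq : Bq.natDegree ≤ 2 := by unfold Bq; compute_degree
lemma natDegree_Uq : Uq.natDegree ≤ 2 := by unfold Uq; compute_degree

lemma recip_A (y : ℝ) (hy : y ≠ 0) :
    2 * y ^ 2 * (Polynomial.map (Int.castRingHom ℝ) Aq).eval (1 / (2 * y)) =
      (Polynomial.map (Int.castRingHom ℝ) Aq).eval y := by
  simp [Aq]
  field_simp
  ring

lemma recip_B (y : ℝ) (hy : y ≠ 0) :
    2 * y ^ 2 * (Polynomial.map (Int.castRingHom ℝ) Bq).eval (1 / (2 * y)) =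
      (Polynomial.map (Int.castRingHom ℝ) Bq).eval y := by
  simp [Bq]
  field_simp
  ring

lemma recip_U (y : ℝ) (hy : y ≠ 0) :
    2 * y ^ 2 * (Polynomial.map (Int.castRingHom ℝ) Uq).eval (1 / (2 * y)) =
      -(Polynomial.map (Int.castRingHom ℝ) Uq).eval y := by
  simp [Uq]
  field_simp

/-- The middle coefficient of an antisymmetric product vanishes. -/
lemma mid_coeff_zero (r3 r5 ru : ℕ) (hodd : Odd ru) :
    (Aq ^ r3 * Bq ^ r5 * Uq ^ ru).coeff (r3 + r5 + ru) = 0 := by
  set V : Polynomial ℤ := Aq ^ r3 * Bq ^ r5 * Uq ^ ru with hV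
  set r := r3 + r5 + ru with hr
  have hdeg : V.natDegree < 2 * r + 1 := by
    have h1 : (Aq ^ r3).natDegree ≤ r3 * 2 := Polynomial.natDegree_pow_le_of_le _ natDegree_Aq
    have h2 : (Bq ^ r5).natDegree ≤ r5 * 2 := Polynomial.natDegree_pow_le_of_le _ natDegree_Bq
    have h3 : (Uq ^ ru).natDegree ≤ ru * 2 := Polynomial.natDegree_pow_le_of_le _ natDegree_Uq
    have h4 : V.natDegree ≤ (Aq ^ r3).natDegree + (Bq ^ r5).natDegree + (Uq ^ ru).natDegree := by
      refine Polynomial.natDegree_mul_le.trans ?_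
      have := Polynomial.natDegree_mul_le (p := Aq ^ r3) (q := Bq ^ r5)
      omega
    omega
  set Vr : Polynomial ℝ := V.map (Int.castRingHom ℝ) with hVr
  -- the reciprocal polynomial
  set Vt : Polynomial ℝ := ∑ l ∈ Finset.range (2 * r + 1),
    Polynomial.C ((V.coeff l : ℝ) * (2 : ℝ) ^ ((r : ℤ) - l)) * Polynomial.X ^ (2 * r - l) with hVt
  have hpoly : Vt = -Vr := by
    apply Polynomial.eq_of_infinite_eval_eq
    refine Set.Infinite.mono (s := {y : ℝ | y ≠ 0}) ?_
      (Set.Finite.infinite_compl (Set.finite_singleton 0))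
    intro y hy
    have hy' : y ≠ 0 := hy
    have h1 : (2 * y ^ 2) ^ r * Vr.eval (1 / (2 * y)) = -Vr.eval y := by
      have e1 : Vr = (Polynomial.map (Int.castRingHom ℝ) Aq) ^ r3 *
          (Polynomial.map (Int.castRingHom ℝ) Bq) ^ r5 *
          (Polynomial.map (Int.castRingHom ℝ) Uq) ^ ru := by
        simp [hVr, hV, Polynomial.map_mul, Polynomial.map_pow]
      rw [e1]
      simp only [Polynomial.eval_mul, Polynomial.eval_pow]
      have e2 : (2 * y ^ 2) ^ r = (2 * y ^ 2) ^ r3 * (2 * y ^ 2) ^ r5 * (2 * y ^ 2) ^ ru := by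
        rw [hr, pow_add, pow_add]
      rw [e2]
      calc _ = (2 * y ^ 2 * (Polynomial.map (Int.castRingHom ℝ) Aq).eval (1 / (2 * y))) ^ r3 *
            (2 * y ^ 2 * (Polynomial.map (Int.castRingHom ℝ) Bq).eval (1 / (2 * y))) ^ r5 *
            (2 * y ^ 2 * (Polynomial.map (Int.castRingHom ℝ) Uq).eval (1 / (2 * y))) ^ ru := by
              simp only [mul_pow]; ring
        _ = _ := by
          rw [recip_A y hy', recip_B y hy', recip_U y hy', hodd.neg_pow]
          ring
    have h2 : Vt.eval y = (2 * y ^ 2) ^ r * Vr.eval (1 / (2 * y)) := by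
      have hd : Vr.natDegree < 2 * r + 1 := lt_of_le_of_lt Polynomial.natDegree_map_le hdeg
      rw [Polynomial.eval_eq_sum_range' hd, Finset.mul_sum, hVt, Polynomial.eval_finsetSum]
      refine Finset.sum_congr rfl fun l hl => ?_
      have hl' : l ≤ 2 * r := by simpa [Nat.lt_succ_iff] using hl
      simp only [Polynomial.eval_mul, Polynomial.eval_C, Polynomial.eval_pow, Polynomial.eval_X]
      simp only [hVr, Polynomial.coeff_map, eq_intCast]
      have e3 : y ^ (2 * r - l) = (y ^ 2) ^ r * (y ^ l)⁻¹ := by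
        rw [← pow_mul, pow_sub₀ y hy' hl']
      have e4 : (2 : ℝ) ^ ((r : ℤ) - l) = 2 ^ r * (2 ^ l)⁻¹ := by
        rw [zpow_sub₀ (by norm_num), zpow_natCast, zpow_natCast]; rfl
      rw [e3, e4, mul_pow, one_div, inv_pow, mul_pow, mul_inv]
      ring
    show Vt.eval y = (-Vr).eval y
    rw [h2, h1, Polynomial.eval_neg]
  have h3 := congrArg (fun f : Polynomial ℝ => f.coeff r) hpoly
  simp only [Polynomial.coeff_neg, hVr, Polynomial.coeff_map, eq_intCast] at h3
  have h4 : Vt.coeff r = (V.coeff r : ℝ) := by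
    rw [hVt, Polynomial.finsetSum_coeff, Finset.sum_eq_single r]
    · rw [Polynomial.coeff_C_mul_X_pow, if_pos (by omega)]
      simp
    · intro l hl hlr
      rw [Polynomial.coeff_C_mul_X_pow, if_neg]
      have hl' : l ≤ 2 * r := by simpa [Nat.lt_succ_iff] using hl
      omega
    · intro h
      exact absurd (Finset.mem_range.mpr (by omega)) h
  rw [h4] at h3
  have h5 : ((V.coeff r : ℤ) : ℝ) = 0 := by linarith
  exact_mod_cast h5

/-- The inverse of `1 - 2 X ^ 2` as an integer power series. -/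
def Yq : PowerSeries ℤ := PowerSeries.invOfUnit (Uq : PowerSeries ℤ) 1

lemma Uq_mul_Yq : (Uq : PowerSeries ℤ) * Yq = 1 := by
  unfold Yq
  apply PowerSeries.mul_invOfUnit
  rw [← PowerSeries.coeff_zero_eq_constantCoeff_apply, Polynomial.coeff_coe]
  simp [Uq]

/-- The `n`-th power of the base series, with integer coefficients. -/
def Xin (n : ℕ) : PowerSeries ℤ :=
  (Aq : PowerSeries ℤ) ^ (3 * n) * (Bq : PowerSeries ℤ) ^ (5 * n) * Yq ^ (4 * n)

/-- Series in `X ^ p`. -/
def IsP (p : ℕ) (f : PowerSeries (ZMod p)) : Prop := ∀ i, ¬ p ∣ i → PowerSeries.coeff i f = 0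

lemma IsP.mul {p : ℕ} {f g : PowerSeries (ZMod p)} (hf : IsP p f) (hg : IsP p g) :
    IsP p (f * g) := by
  intro i hi
  rw [PowerSeries.coeff_mul]
  refine Finset.sum_eq_zero fun x hx => ?_
  rw [Finset.HasAntidiagonal.mem_antidiagonal] at hx
  by_cases h : p ∣ x.1
  · have h2 : ¬ p ∣ x.2 := by
      intro h3
      exact hi (hx ▸ dvd_add h h3)
    rw [hg _ h2, mul_zero]
  · rw [hf _ h, zero_mul]

lemma IsP.one {p : ℕ} (hp : 2 ≤ p) : IsP p (1 : PowerSeries (ZMod p)) := by
  intro i hi
  rw [PowerSeries.coeff_one, if_neg]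
  rintro rfl
  exact hi (dvd_zero p)

lemma IsP.pow {p : ℕ} (hp : 2 ≤ p) {f : PowerSeries (ZMod p)} (hf : IsP p f) (n : ℕ) :
    IsP p (f ^ n) := by
  induction n with
  | zero => simpa using IsP.one hp
  | succ n ih => rw [pow_succ]; exact ih.mul hf

lemma IsP.of_mul_eq_one {p : ℕ} {f g : PowerSeries (ZMod p)} (hf : IsP p f)
    (h0 : PowerSeries.coeff 0 f = 1) (h : f * g = 1) : IsP p g := by
  intro i
  induction i using Nat.strong_induction_on with
  | _ i ih =>
    intro hi
    have hi0 : i ≠ 0 := by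
      rintro rfl
      exact hi (dvd_zero p)
    have h1 : PowerSeries.coeff i (f * g) = 0 := by
      rw [h, PowerSeries.coeff_one, if_neg hi0]
    rw [PowerSeries.coeff_mul] at h1
    have hmem : (⟨0, i⟩ : ℕ × ℕ) ∈ Finset.HasAntidiagonal.antidiagonal i := by simp
    rw [← Finset.add_sum_erase _ _ hmem] at h1
    simp only [h0, one_mul] at h1
    rw [Finset.sum_eq_zero, add_zero] at h1
    · exact h1
    · intro x hx
      rw [Finset.mem_erase, Finset.HasAntidiagonal.mem_antidiagonal] at hx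
      obtain ⟨hx1, hx2⟩ := hx
      by_cases hd : p ∣ x.1
      · have h2 : ¬ p ∣ x.2 := by
          intro h3
          exact hi (hx2 ▸ dvd_add hd h3)
        have hlt : x.2 < i := by
          rcases x with ⟨a, b⟩
          simp only [ne_eq, Prod.mk.injEq, not_and] at hx1
          simp only at hx2 ⊢
          by_contra hge
          have ha : a = 0 := by omega
          have hb : b = i := by omega
          exact hx1 ha hb
        rw [ih _ hlt h2, mul_zero]
      · rw [hf _ hd, zero_mul]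

/-- The `p`-th power of the reduction of an integer polynomial is a series in `X ^ p`. -/
lemma IsP_pow_poly (p : ℕ) [Fact p.Prime] (f : Polynomial (ZMod p)) :
    IsP p ((f : PowerSeries (ZMod p)) ^ p) := by
  intro i hi
  rw [← Polynomial.coe_pow, Polynomial.coeff_coe, ← ZMod.expand_card,
    Polynomial.coeff_expand (Fact.out : p.Prime).pos, if_neg hi]

lemma map_coe_poly (p : ℕ) (f : Polynomial ℤ) :
    PowerSeries.map (Int.castRingHom (ZMod p)) (f : PowerSeries ℤ) =
      ((f.map (Int.castRingHom (ZMod p)) : Polynomial (ZMod p)) : PowerSeries (ZMod p)) := by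
  ext i
  simp [Polynomial.coeff_coe]

/-- Divisibility of the coefficients in residue class of `4 n` modulo `p`. -/
theorem gain_coeff_dvd (n p : ℕ) [Fact p.Prime] (hp2 : p ≠ 2)
    (h1 : 3 * n / p + 5 * n / p = 2 * (4 * n / p) + 1) (h2 : Even (4 * n / p))
    (h3 : ¬ p ∣ 4 * n) (i : ℕ) (hi : i % p = (4 * n) % p) :
    (p : ℤ) ∣ PowerSeries.coeff i (Xin n) := by
  have hpp : p.Prime := Fact.out
  have hp3 : 2 ≤ p := hpp.two_le
  have hppos : 0 < p := hpp.pos
  set a3 := 3 * n / p with ha3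
  set a5 := 5 * n / p with ha5
  set c4 := 4 * n / p with hc4
  set r3 := 3 * n % p with hr3
  set r5 := 5 * n % p with hr5
  set rc := 4 * n % p with hrc
  have e3 : 3 * n = p * a3 + r3 := (Nat.div_add_mod _ _).symm
  have e5 : 5 * n = p * a5 + r5 := (Nat.div_add_mod _ _).symm
  have e4 : 4 * n = p * c4 + rc := (Nat.div_add_mod _ _).symm
  have hrclt : rc < p := Nat.mod_lt _ hppos
  have hrcpos : 0 < rc := by
    rcases Nat.eq_zero_or_pos rc with h | h
    · exact absurd (Nat.dvd_of_mod_eq_zero h) h3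
    · exact h
  set ru := p - rc with hru
  have hsum : r3 + r5 + ru = rc := by
    have h5 : p * a3 + p * a5 = 2 * (p * c4) + p := by
      calc p * a3 + p * a5 = p * (a3 + a5) := by ring
        _ = p * (2 * c4 + 1) := by rw [h1]
        _ = _ := by ring
    have h6 : p * a3 + r3 + (p * a5 + r5) = 2 * (p * c4 + rc) := by
      rw [← e3, ← e5, ← e4]; ring
    omega
  have hodd : Odd ru := by
    have hpodd : Odd p := hpp.odd_of_ne_two hp2
    have hrceven : Even rc := by
      have h7 : Even (4 * n) := ⟨2 * n, by ring⟩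
      have h8 : Even (p * c4) := h2.mul_left p
      rw [e4] at h7
      exact (Nat.even_add.mp h7).mp h8
    have hle : rc ≤ p := hrclt.le
    rw [hru]
    exact Nat.Odd.sub_even hle hpodd hrceven
  -- the small polynomial
  set V : Polynomial ℤ := Aq ^ r3 * Bq ^ r5 * Uq ^ ru with hV
  have hVdeg : V.natDegree ≤ 2 * rc := by
    have h1 : (Aq ^ r3).natDegree ≤ r3 * 2 := Polynomial.natDegree_pow_le_of_le _ natDegree_Aq
    have h2 : (Bq ^ r5).natDegree ≤ r5 * 2 := Polynomial.natDegree_pow_le_of_le _ natDegree_Bq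
    have h3 : (Uq ^ ru).natDegree ≤ ru * 2 := Polynomial.natDegree_pow_le_of_le _ natDegree_Uq
    have h4 : V.natDegree ≤ (Aq ^ r3).natDegree + (Bq ^ r5).natDegree + (Uq ^ ru).natDegree := by
      refine Polynomial.natDegree_mul_le.trans ?_
      have := Polynomial.natDegree_mul_le (p := Aq ^ r3) (q := Bq ^ r5)
      omega
    omega
  have hVzero : ∀ t, t % p = rc → V.coeff t = 0 := by
    intro t ht
    by_cases hle : t ≤ 2 * rc
    · have ht2 : t = rc := by
        have h9 := Nat.div_add_mod t p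
        rw [ht] at h9
        rcases Nat.eq_zero_or_pos (t / p) with h0 | h0
        · rw [h0] at h9; omega
        · have : p ≤ p * (t / p) := Nat.le_mul_of_pos_right p h0
          omega
      rw [ht2]
      have := mid_coeff_zero r3 r5 ru hodd
      rwa [hsum] at this
    · exact Polynomial.coeff_eq_zero_of_natDegree_lt (by omega)
  -- reduction modulo p
  set φ := PowerSeries.map (Int.castRingHom (ZMod p)) with hφ
  set A' : PowerSeries (ZMod p) := φ (Aq : PowerSeries ℤ) with hA'
  set B' : PowerSeries (ZMod p) := φ (Bq : PowerSeries ℤ) with hB'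
  set U' : PowerSeries (ZMod p) := φ (Uq : PowerSeries ℤ) with hU'
  set Y' : PowerSeries (ZMod p) := φ Yq with hY'
  have hUY : U' * Y' = 1 := by
    rw [hU', hY', ← map_mul, Uq_mul_Yq, map_one]
  have hAp : IsP p (A' ^ p) := by
    rw [hA', hφ, map_coe_poly]; exact IsP_pow_poly p _
  have hBp : IsP p (B' ^ p) := by
    rw [hB', hφ, map_coe_poly]; exact IsP_pow_poly p _
  have hUp : IsP p (U' ^ p) := by
    rw [hU', hφ, map_coe_poly]; exact IsP_pow_poly p _
  have hU0 : PowerSeries.coeff 0 (U' ^ p) = 1 := by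
    have h10 : PowerSeries.constantCoeff U' = 1 := by
      rw [hU', hφ, map_coe_poly, ← PowerSeries.coeff_zero_eq_constantCoeff_apply,
        Polynomial.coeff_coe]
      simp [Uq]
    rw [PowerSeries.coeff_zero_eq_constantCoeff_apply, map_pow, h10, one_pow]
  have hYp : IsP p (Y' ^ p) := by
    refine IsP.of_mul_eq_one hUp hU0 ?_
    rw [← mul_pow, hUY, one_pow]
  have hmain : φ (Xin n) = ((A' ^ p) ^ a3 * (B' ^ p) ^ a5 * (Y' ^ p) ^ (c4 + 1)) *
      (A' ^ r3 * B' ^ r5 * U' ^ ru) := by
    have h11 : Y' ^ (4 * n) = (Y' ^ p) ^ (c4 + 1) * U' ^ ru := by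
      have h12 : p * (c4 + 1) = 4 * n + ru := by
        rw [e4, hru]
        have : p * (c4 + 1) = p * c4 + p := by ring
        omega
      calc Y' ^ (4 * n) = Y' ^ (4 * n) * (U' * Y') ^ ru := by rw [hUY, one_pow, mul_one]
        _ = Y' ^ (4 * n + ru) * U' ^ ru := by rw [mul_pow, pow_add]; ring
        _ = _ := by rw [← h12, pow_mul]
    unfold Xin
    rw [map_mul, map_mul, map_pow, map_pow, map_pow, ← hA', ← hB', ← hY', h11, e3, e5, pow_add,
      pow_add, pow_mul, pow_mul]
    ring
  have hVmap : A' ^ r3 * B' ^ r5 * U' ^ ru = φ (V : PowerSeries ℤ) := by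
    rw [hV, Polynomial.coe_mul, Polynomial.coe_mul, Polynomial.coe_pow, Polynomial.coe_pow,
      Polynomial.coe_pow, map_mul, map_mul, map_pow, map_pow, map_pow]
  have hW : IsP p ((A' ^ p) ^ a3 * (B' ^ p) ^ a5 * (Y' ^ p) ^ (c4 + 1)) :=
    ((hAp.pow hp3 _).mul (hBp.pow hp3 _)).mul (hYp.pow hp3 _)
  have hcoef : PowerSeries.coeff i (φ (Xin n)) = 0 := by
    rw [hmain, hVmap, PowerSeries.coeff_mul]
    refine Finset.sum_eq_zero fun x hx => ?_
    rw [Finset.HasAntidiagonal.mem_antidiagonal] at hx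
    by_cases hd : p ∣ x.1
    · have hx2 : x.2 % p = rc := by
        rw [← hi, ← hx, Nat.add_mod, Nat.mod_eq_zero_of_dvd hd]
        simp
      have h13 : PowerSeries.coeff x.2 (φ (V : PowerSeries ℤ)) = 0 := by
        rw [hφ, PowerSeries.coeff_map, Polynomial.coeff_coe, hVzero _ hx2]
        simp
      rw [h13, mul_zero]
    · rw [hW _ hd, zero_mul]
  rw [hφ, PowerSeries.coeff_map] at hcoef
  exact (ZMod.intCast_zmod_eq_zero_iff_dvd _ p).mp (by simpa using hcoef)

end

end Vale.Agent.Lib.P021
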