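import Vale.Agent.Lib.P021.Assembly
import Vale.Agent.Lib.P021.GainCoeff

/-! Integrality at a prime of the rational part when the coefficients in the residue class of the
pole order are divisible by the prime. -/

namespace Vale.Agent.Lib.P021

open Complex Finset

noncomputable section

/-- Functions of `x` which are a polynomial of bounded degree over `(x u) ^ K`. -/
def InX (K D : ℕ) (f : ℂ → ℂ) : Prop :=
  ∃ N : Polynomial ℂ, N.natDegree ≤ D ∧ ∀ x, x ≠ 0 → uf x ≠ 0 →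
    f x = N.eval x / (x ^ K * uf x ^ K)

lemma InX.add {K D : ℕ} {f g : ℂ → ℂ} (hf : InX K D f) (hg : InX K D g) :
    InX K D (fun z => f z + g z) := by
  obtain ⟨N, hN, h1⟩ := hf
  obtain ⟨N', hN', h2⟩ := hg
  refine ⟨N + N', (Polynomial.natDegree_add_le _ _).trans (max_le hN hN'), fun z h3 h4 => ?_⟩
  show f z + g z = _
  rw [h1 z h3 h4, h2 z h3 h4, Polynomial.eval_add, add_div]

lemma InX.const_mul {K D : ℕ} {f : ℂ → ℂ} (hf : InX K D f) (c : ℂ) :
    InX K D (fun z => c * f z) := by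
  obtain ⟨N, hN, h1⟩ := hf
  refine ⟨Polynomial.C c * N, (Polynomial.natDegree_C_mul_le _ _).trans hN, fun z h3 h4 => ?_⟩
  show c * f z = _
  rw [h1 z h3 h4, Polynomial.eval_mul, Polynomial.eval_C, mul_div_assoc]

lemma InX.zero (K D : ℕ) : InX K D (fun _ => 0) :=
  ⟨0, by simp, fun z _ _ => by simp⟩

lemma InX.sum {K D : ℕ} {ι : Type*} (s : Finset ι) (f : ι → ℂ → ℂ) (h : ∀ i ∈ s, InX K D (f i)) :
    InX K D (fun z => ∑ i ∈ s, f i z) := by
  classical
  induction s using Finset.induction_on with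
  | empty => simpa using InX.zero K D
  | insert a s ha ih =>
    have h1 := h a (mem_insert_self a s)
    have h2 := ih (fun i hi => h i (mem_insert_of_mem hi))
    have := h1.add h2
    simpa [sum_insert ha] using this

/-- The polynomial `x ^ 2 - 2`. -/
def Up : Polynomial ℂ := Polynomial.X ^ 2 - Polynomial.C 2

lemma eval_Up (x : ℂ) : Up.eval x = uf x := by simp [Up, uf]

lemma natDegree_Up : Up.natDegree ≤ 2 := by unfold Up; compute_degree

lemma InX.mono {K : ℕ} {f : ℂ → ℂ} (c : ℂ) (a b : ℤ) (ha1 : -(K : ℤ) ≤ a) (ha2 : a ≤ K)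
    (hb1 : -(K : ℤ) ≤ b) (hb2 : b ≤ K)
    (hf : ∀ x, x ≠ 0 → uf x ≠ 0 → f x = c * (x ^ a * uf x ^ b)) : InX K (6 * K) f := by
  obtain ⟨a', ha'⟩ : ∃ a' : ℕ, (a' : ℤ) = a + K := ⟨(a + K).toNat, by omega⟩
  obtain ⟨b', hb'⟩ : ∃ b' : ℕ, (b' : ℤ) = b + K := ⟨(b + K).toNat, by omega⟩
  refine ⟨Polynomial.C c * (Polynomial.X ^ a' * Up ^ b'), ?_, fun z h3 h4 => ?_⟩
  · refine (Polynomial.natDegree_C_mul_le _ _).trans ?_
    refine Polynomial.natDegree_mul_le.trans ?_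
    have h5 : ((Polynomial.X : Polynomial ℂ) ^ a').natDegree ≤ a' := by simp
    have h6 : (Up ^ b').natDegree ≤ b' * 2 := Polynomial.natDegree_pow_le_of_le _ natDegree_Up
    omega
  · rw [hf z h3 h4]
    simp only [Polynomial.eval_mul, Polynomial.eval_C, Polynomial.eval_pow, Polynomial.eval_X,
      eval_Up]
    have e1 : a = (a' : ℤ) - K := by omega
    have e2 : b = (b' : ℤ) - K := by omega
    rw [e1, e2, zpow_sub₀ h3, zpow_sub₀ h4, zpow_natCast, zpow_natCast, zpow_natCast, zpow_natCast]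
    field_simp

lemma Apos_InX {K j : ℕ} (hj : 2 * j ≤ K) : InX K (6 * K) (Apos j) := by
  have h : Apos j = fun x => ∑ k ∈ range (2 * j + 1), ((Nat.choose (2 * j) k : ℂ) * (-2) ^ k) *
    (x ^ ((2 * j : ℤ) - 2 * k) / ((2 * j : ℂ) - 2 * k)) := by
    funext x; rfl
  rw [h]
  refine InX.sum _ _ fun k hk => ?_
  have hk' : k ≤ 2 * j := by simpa [Nat.lt_succ_iff] using hk
  refine InX.mono (((Nat.choose (2 * j) k : ℂ) * (-2) ^ k) * (1 /
    ((2 * j : ℂ) - 2 * k))) ((2 * j : ℤ) - 2 * k) 0 (by omega) (by omega) (by omega) (by omega) ?_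
  intro z _ _
  simp only [zpow_zero, mul_one]
  ring

lemma Aneg_InX {K l : ℕ} (hl : 2 * l ≤ K) : InX K (6 * K) (Aneg l) := by
  have h : Aneg l = fun x => ∑ s ∈ range l, (1 / 2) * ((Nat.choose (l - 1) s : ℂ) * 2 ^ (l - 1 - s)) *
    (uf x ^ ((s : ℤ) - 2 * l + 1) / ((s : ℂ) - 2 * l + 1)) := by
    funext x; rfl
  rw [h]
  refine InX.sum _ _ fun s hs => ?_
  have hs' : s < l := by simpa using hs
  refine InX.mono ((1 / 2) * ((Nat.choose (l - 1) s : ℂ) * 2 ^ (l - 1 - s)) *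
    (1 / ((s : ℂ) - 2 * l + 1))) 0 ((s : ℤ) - 2 * l + 1)
    (by omega) (by omega) (by omega) (by omega) ?_
  intro z _ _
  simp only [zpow_zero, one_mul]
  ring

lemma Wb_InX {K : ℕ} {j : ℤ} (hj : (2 * j + 1).natAbs ≤ K) :
    InX K (6 * K) (Wb j) := by
  have h : Wb j = fun x => wf x ^ (2 * j + 1) / ((2 * (j : ℂ)) + 1) := by
    funext x; rfl
  rw [h]
  refine InX.mono (1 / (2 * (j : ℂ) + 1)) (-(2 * j + 1)) (2 * j + 1)
    (by omega) (by omega) (by omega) (by omega) ?_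
  intro z h1 _
  rw [wf_eq z h1, div_zpow, zpow_neg]
  ring

lemma Gt_InX (E O : ℕ → ℤ) (m d : ℕ) {K : ℕ} (hN1 : 2 * m ≤ K) (hN2 : 2 * (d - m) + 1 ≤ K) :
    InX K (6 * K) (Gt E O m d) := by
  have h : Gt E O m d = fun x => ∑ t ∈ range (d + 1),
      ((E t : ℂ) * Ab t m x + (O t : ℂ) * Wb ((t : ℤ) - m) x) := by
    funext x; rfl
  rw [h]
  refine InX.sum _ _ fun t ht => ?_
  have ht' : t ≤ d := by simpa [Nat.lt_succ_iff] using ht
  have h1 : InX K (6 * K) (Ab t m) := by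
    by_cases h : m ≤ t
    · have : Ab t m = Apos (t - m) := by funext x; simp [Ab, h]
      rw [this]
      exact Apos_InX (by omega)
    · have : Ab t m = Aneg (m - t) := by funext x; simp [Ab, h]
      rw [this]
      exact Aneg_InX (by omega)
  have h2 : InX K (6 * K) (Wb ((t : ℤ) - m)) := Wb_InX (by omega)
  exact (h1.const_mul _).add (h2.const_mul _)

/-! ### The ring of numbers integral at `p` -/

/-- Gaussian numbers with denominator prime to `p`. -/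
def Sp (p : ℕ) : Subring ℂ :=
  Subring.closure ({I} ∪ {z | ∃ l : ℕ, ¬ p ∣ l ∧ z = 1 / (l : ℂ)})

lemma I_mem_Sp (p : ℕ) : I ∈ Sp p := Subring.subset_closure (Or.inl rfl)

lemma inv_mem_Sp {p l : ℕ} (h : ¬ p ∣ l) : 1 / (l : ℂ) ∈ Sp p :=
  Subring.subset_closure (Or.inr ⟨l, h, rfl⟩)

lemma Sp_eq {p : ℕ} (hp : p.Prime) {z : ℂ} (hz : z ∈ Sp p) :
    ∃ (d : ℕ) (a b : ℤ), ¬ p ∣ d ∧ (d : ℂ) * z = a + b * I := by
  unfold Sp at hz
  induction hz using Subring.closure_induction with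
  | mem x hx =>
    rcases hx with hx | ⟨l, hl, rfl⟩
    · rw [Set.mem_singleton_iff] at hx
      exact ⟨1, 0, 1, hp.one_lt.not_ge ∘ Nat.le_of_dvd one_pos, by simp [hx]⟩
    · refine ⟨l, 1, 0, hl, ?_⟩
      have : (l : ℂ) ≠ 0 := by
        intro h0
        have : l = 0 := by exact_mod_cast h0
        exact hl (this ▸ dvd_zero p)
      field_simp
      simp
  | zero => exact ⟨1, 0, 0, hp.one_lt.not_ge ∘ Nat.le_of_dvd one_pos, by simp⟩
  | one => exact ⟨1, 1, 0, hp.one_lt.not_ge ∘ Nat.le_of_dvd one_pos, by simp⟩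
  | add x y _ _ hx hy =>
    obtain ⟨d, a, b, hd, h1⟩ := hx
    obtain ⟨d', c, e, hd', h2⟩ := hy
    refine ⟨d * d', d' * a + d * c, d' * b + d * e, ?_, ?_⟩
    · intro h
      rcases (Nat.Prime.dvd_mul hp).mp h with h | h
      · exact hd h
      · exact hd' h
    · push_cast
      rw [mul_add]
      linear_combination (d' : ℂ) * h1 + (d : ℂ) * h2
  | neg x _ hx =>
    obtain ⟨d, a, b, hd, h1⟩ := hx
    refine ⟨d, -a, -b, hd, ?_⟩
    push_cast
    linear_combination -h1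
  | mul x y _ _ hx hy =>
    obtain ⟨d, a, b, hd, h1⟩ := hx
    obtain ⟨d', c, e, hd', h2⟩ := hy
    refine ⟨d * d', a * c - b * e, a * e + b * c, ?_, ?_⟩
    · intro h
      rcases (Nat.Prime.dvd_mul hp).mp h with h | h
      · exact hd h
      · exact hd' h
    · push_cast
      have h3 : ((d : ℂ) * d') * (x * y) = ((d : ℂ) * x) * ((d' : ℂ) * y) := by ring
      rw [h3, h1, h2]
      have : (I : ℂ) * I = -1 := I_mul_I
      linear_combination (b * e : ℂ) * this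

lemma Lam_le_Sp {p : ℕ} (hp : p.Prime) (hp2 : p ≠ 2) : Lam ≤ Sp p := by
  unfold Lam
  rw [Subring.closure_le]
  intro z hz
  rcases hz with rfl | hz
  · exact I_mem_Sp p
  · rw [Set.mem_singleton_iff] at hz
    rw [hz]
    have : ¬ p ∣ 2 := fun h => hp2 ((Nat.prime_dvd_prime_iff_eq hp Nat.prime_two).mp h)
    simpa using inv_mem_Sp this


/-! ### The numerator and the series -/

open PowerSeries in
/-- The series of the numerator over the pole at `u = 0`. -/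
def PsiC (n : ℕ) : ℂ⟦X⟧ :=
  rescale (1 / 2 : ℂ) (C ((2 : ℂ) ^ (4 * n)) * map (Int.castRingHom ℂ) (Xin n))

/-- The numerator polynomial. -/
def Tp (n : ℕ) : Polynomial ℂ :=
  (Polynomial.X ^ 2 - Polynomial.C 2 * Polynomial.X + Polynomial.C 2) ^ (3 * n) *
    (Polynomial.X ^ 2 - Polynomial.C 3 * Polynomial.X + Polynomial.C 2) ^ (5 * n)

lemma BB_pow_eq (n : ℕ) {x : ℂ} (hx : x ≠ 0) (hu : uf x ≠ 0) :
    BB x ^ n = (Tp n).eval x / (x ^ (4 * n) * uf x ^ (4 * n)) := by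
  have h1 : x ^ 2 - 2 ≠ 0 := hu
  unfold BB Tp uf
  simp only [Polynomial.eval_mul, Polynomial.eval_pow, Polynomial.eval_add, Polynomial.eval_sub,
    Polynomial.eval_X, Polynomial.eval_C]
  rw [div_pow, mul_pow, mul_pow, ← pow_mul, ← pow_mul, ← pow_mul, ← pow_mul]

open PowerSeries in
lemma coeff_PsiC (n i : ℕ) :
    coeff i (PsiC n) = (1 / 2 : ℂ) ^ i * ((2 : ℂ) ^ (4 * n) * ((coeff i (Xin n) : ℤ) : ℂ)) := by
  unfold PsiC
  rw [coeff_rescale, coeff_C_mul, coeff_map]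
  simp

open PowerSeries in
lemma PsiC_mul (n : ℕ) :
    PsiC n * ((Up : Polynomial ℂ) : ℂ⟦X⟧) ^ (4 * n) = ((Tp n : Polynomial ℂ) : ℂ⟦X⟧) := by
  set ρ := rescale (1 / 2 : ℂ) with hρ
  set φ := map (Int.castRingHom ℂ) with hφ
  have hρX : ρ X = C (1 / 2 : ℂ) * X := rescale_X _
  have hC : ∀ c : ℂ, ρ (C c) = C c := fun c => by
    ext i
    rw [hρ, coeff_rescale, coeff_C]
    split_ifs with h
    · simp [h]
    · simp
  set t : ℂ⟦X⟧ := C (1 / 2 : ℂ) with ht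
  set two : ℂ⟦X⟧ := C (2 : ℂ) with htwo
  have h2 : two * t = 1 := by
    rw [htwo, ht, ← map_mul]
    norm_num
  have eA : φ (Aq : PowerSeries ℤ) = two * X ^ 2 - two * X + 1 := by
    unfold Aq
    simp only [Polynomial.coe_add, Polynomial.coe_sub, Polynomial.coe_mul,
      Polynomial.coe_pow, Polynomial.coe_C, Polynomial.coe_X, Polynomial.coe_one,
      hφ, map_add, map_sub, map_mul, map_pow, map_C, map_X, map_one, htwo]
    simp
  have eB : φ (Bq : PowerSeries ℤ) = two * X ^ 2 - C 3 * X + 1 := by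
    unfold Bq
    simp only [Polynomial.coe_add, Polynomial.coe_sub, Polynomial.coe_mul,
      Polynomial.coe_pow, Polynomial.coe_C, Polynomial.coe_X, Polynomial.coe_one,
      hφ, map_add, map_sub, map_mul, map_pow, map_C, map_X, map_one, htwo]
    simp
  have eU : φ (Uq : PowerSeries ℤ) = 1 - two * X ^ 2 := by
    unfold Uq
    simp only [Polynomial.coe_sub, Polynomial.coe_mul,
      Polynomial.coe_pow, Polynomial.coe_C, Polynomial.coe_X, Polynomial.coe_one,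
      hφ, map_sub, map_mul, map_pow, map_C, map_X, map_one, htwo]
    simp
  have hρ2 : ρ two = two := hC 2
  have hρ3 : ρ (C 3) = C 3 := hC 3
  have hA : two * ρ (φ (Aq : PowerSeries ℤ)) = X ^ 2 - two * X + two := by
    rw [eA]
    simp only [map_add, map_sub, map_mul, map_pow, hρX, hρ2, map_one]
    linear_combination (X ^ 2 * (two * t + 1) - two * X) * h2
  have hB : two * ρ (φ (Bq : PowerSeries ℤ)) = X ^ 2 - C 3 * X + two := by
    rw [eB]
    simp only [map_add, map_sub, map_mul, map_pow, hρX, hρ2, hρ3, map_one]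
    linear_combination (X ^ 2 * (two * t + 1) - C 3 * X) * h2
  have hU : ((Up : Polynomial ℂ) : ℂ⟦X⟧) = -two * ρ (φ (Uq : PowerSeries ℤ)) := by
    rw [eU]
    simp only [map_sub, map_mul, map_pow, hρX, hρ2, map_one]
    unfold Up
    rw [Polynomial.coe_sub, Polynomial.coe_pow, Polynomial.coe_X, Polynomial.coe_C, ← htwo]
    linear_combination (-X ^ 2 * (two * t + 1)) * h2
  have hUY : ρ (φ (Uq : PowerSeries ℤ)) * ρ (φ Yq) = 1 := by
    rw [← map_mul, ← map_mul, Uq_mul_Yq, map_one, map_one]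
  have hT : ((Tp n : Polynomial ℂ) : ℂ⟦X⟧) =
      (X ^ 2 - two * X + two) ^ (3 * n) * (X ^ 2 - C 3 * X + two) ^ (5 * n) := by
    unfold Tp
    simp only [Polynomial.coe_mul, Polynomial.coe_pow, Polynomial.coe_add, Polynomial.coe_sub,
      Polynomial.coe_X, Polynomial.coe_C, ← htwo]
  unfold PsiC
  rw [hT, ← hA, ← hB, hU, ← hρ, ← hφ]
  unfold Xin
  simp only [map_mul, map_pow, hC]
  rw [← htwo, mul_pow (-two), mul_pow two, mul_pow two]
  have hneg : (-two) ^ (4 * n) = two ^ (4 * n) := by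
    exact Even.neg_pow ⟨2 * n, by ring⟩ two
  rw [hneg]
  have hpw : ρ (φ Yq) ^ (4 * n) * ρ (φ (Uq : PowerSeries ℤ)) ^ (4 * n) = 1 := by
    rw [← mul_pow, mul_comm, hUY, one_pow]
  have e8 : two ^ (3 * n) * two ^ (5 * n) = two ^ (4 * n) * two ^ (4 * n) := by
    rw [← pow_add, ← pow_add]; congr 1; ring
  calc _ = (two ^ (4 * n) * two ^ (4 * n)) * (ρ (φ (Aq : PowerSeries ℤ)) ^ (3 * n) *
        ρ (φ (Bq : PowerSeries ℤ)) ^ (5 * n)) *
        (ρ (φ Yq) ^ (4 * n) * ρ (φ (Uq : PowerSeries ℤ)) ^ (4 * n)) := by ring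
    _ = _ := by rw [hpw, mul_one, ← e8]; ring

/-- The coefficients of the series are integral at `p`. -/
lemma two_mem_Sp {p : ℕ} (hp : p.Prime) (hp2 : p ≠ 2) : (2 : ℂ) ∈ Sp p := by
  exact_mod_cast natCast_mem (Sp p) 2

lemma half_mem_Sp {p : ℕ} (hp : p.Prime) (hp2 : p ≠ 2) : (1 / 2 : ℂ) ∈ Sp p :=
  Lam_le_Sp hp hp2 half_mem_Lam

open PowerSeries in
lemma PsiC_mem {p : ℕ} (hp : p.Prime) (hp2 : p ≠ 2) (n i : ℕ) : coeff i (PsiC n) ∈ Sp p := by
  rw [coeff_PsiC]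
  exact (Sp p).mul_mem ((Sp p).pow_mem (half_mem_Sp hp hp2) _)
    ((Sp p).mul_mem ((Sp p).pow_mem (two_mem_Sp hp hp2) _) (intCast_mem _ _))

open PowerSeries in
lemma PsiC_dvd {p : ℕ} (hp : p.Prime) (hp2 : p ≠ 2) (n i : ℕ)
    (h : (p : ℤ) ∣ coeff i (Xin n)) : ∃ w ∈ Sp p, coeff i (PsiC n) = (p : ℂ) * w := by
  obtain ⟨c, hc⟩ := h
  refine ⟨(1 / 2 : ℂ) ^ i * ((2 : ℂ) ^ (4 * n) * (c : ℂ)), ?_, ?_⟩
  · exact (Sp p).mul_mem ((Sp p).pow_mem (half_mem_Sp hp hp2) _)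
      ((Sp p).mul_mem ((Sp p).pow_mem (two_mem_Sp hp hp2) _) (intCast_mem _ _))
  · rw [coeff_PsiC, hc]
    push_cast
    ring

open PowerSeries in
/-- The relation between the series of the numerator and the rational part. -/
lemma series_rel (n K' : ℕ) (N₁ Uu : Polynomial ℂ) (M₁ : ℂ⟦X⟧) (q : ℂ)
    (hU0 : Uu ≠ 0) (hUp : Up ≠ 0)
    (hM : (Uu : ℂ⟦X⟧) * M₁ = (N₁ : ℂ⟦X⟧))
    (hid : (Polynomial.derivative N₁ * (Polynomial.X ^ (K' + 1) * Uu) -
        N₁ * Polynomial.derivative (Polynomial.X ^ (K' + 1) * Uu)) *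
        (Polynomial.X ^ (4 * n + 1) * Up ^ (4 * n)) =
        (Polynomial.X ^ (K' + 1) * Uu) ^ 2 *
        (Tp n - Polynomial.C q * (Polynomial.X ^ (4 * n) * Up ^ (4 * n)))) :
    X ^ (4 * n) * (X * d⁄dX ℂ M₁ - C ((K' + 1 : ℕ) : ℂ) * M₁) =
      X ^ (K' + 1) * (PsiC n - C q * X ^ (4 * n)) := by
  set U : ℂ⟦X⟧ := (Uu : ℂ⟦X⟧) with hUdef
  set V : ℂ⟦X⟧ := ((Up : Polynomial ℂ) : ℂ⟦X⟧) ^ (4 * n) with hV
  have hUne : U ≠ 0 := by
    rw [hUdef]; exact_mod_cast hU0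
  have hVne : V ≠ 0 := by
    rw [hV]
    apply pow_ne_zero
    exact_mod_cast hUp
  have hX : (X : ℂ⟦X⟧) ≠ 0 := X_ne_zero
  have h1 := congrArg (Polynomial.coeToPowerSeries.ringHom (R := ℂ)) hid
  simp only [map_mul, map_sub, map_pow, Polynomial.coeToPowerSeries.ringHom_apply,
    Polynomial.coe_X, Polynomial.coe_C, ← derivative_coe] at h1
  have hP : (d⁄dX ℂ) ((Polynomial.X ^ (K' + 1) * Uu : Polynomial ℂ) : ℂ⟦X⟧) =
      (((K' + 1 : ℕ) : ℂ⟦X⟧) * X ^ K') * U + X ^ (K' + 1) * (d⁄dX ℂ) U := by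
    rw [Polynomial.coe_mul, Polynomial.coe_pow, Polynomial.coe_X, Derivation.leibniz, smul_eq_mul,
      smul_eq_mul, Derivation.leibniz_pow]
    simp [hUdef]
    ring
  have hN : (d⁄dX ℂ) (N₁ : ℂ⟦X⟧) = (d⁄dX ℂ) U * M₁ + U * (d⁄dX ℂ) M₁ := by
    rw [← hM, Derivation.leibniz, smul_eq_mul, smul_eq_mul]
    ring
  have hCK : (C ((K' + 1 : ℕ) : ℂ) : ℂ⟦X⟧) = ((K' + 1 : ℕ) : ℂ⟦X⟧) := map_natCast C _
  have eT : ((Tp n : Polynomial ℂ) : ℂ⟦X⟧) = PsiC n * V := (PsiC_mul n).symm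
  rw [hP, hN, eT, ← hM] at h1
  have hne : U ^ 2 * V * X ^ (K' + 1) ≠ 0 :=
    mul_ne_zero (mul_ne_zero (pow_ne_zero _ hUne) hVne) (pow_ne_zero _ hX)
  apply mul_left_cancel₀ hne
  rw [hCK]
  rw [show ((Up : Polynomial ℂ) : ℂ⟦X⟧) ^ (4 * n) = V from rfl] at h1
  linear_combination h1

lemma Gam_le_Sp (p : ℕ) : Gam ≤ Sp p := by
  unfold Gam
  rw [Subring.closure_le]
  intro z hz
  rw [Set.mem_singleton_iff] at hz
  rw [hz]
  exact I_mem_Sp p

/-- Dividing by a number with at most one factor `p`. -/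
lemma div_mem_Sp {p : ℕ} (hp : p.Prime) {e : ℤ} (he : e ≠ 0) (he2 : e.natAbs < p ^ 2) {M Ψ : ℂ}
    (h : (e : ℂ) * M = Ψ) (hΨ : Ψ ∈ Sp p) (hΨ2 : (p : ℤ) ∣ e → ∃ w ∈ Sp p, Ψ = (p : ℂ) * w) :
    M ∈ Sp p := by
  have hsign : ∀ a : ℕ, ((a : ℤ) = e ∨ (a : ℤ) = -e) → (a : ℂ) ≠ 0 →
      (∃ s : ℂ, (s = 1 ∨ s = -1) ∧ (e : ℂ) = s * a) := by
    intro a ha _
    rcases ha with ha | ha
    · exact ⟨1, Or.inl rfl, by rw [← ha]; simp⟩
    · refine ⟨-1, Or.inr rfl, ?_⟩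
      have : e = -(a : ℤ) := by omega
      rw [this]; simp
  set a := e.natAbs with ha
  have ha0 : a ≠ 0 := Int.natAbs_ne_zero.mpr he
  have haC : (a : ℂ) ≠ 0 := by exact_mod_cast ha0
  obtain ⟨s, hs, hes⟩ := hsign a (by omega) haC
  have hsm : s ∈ Sp p := by
    rcases hs with rfl | rfl
    · exact (Sp p).one_mem
    · exact (Sp p).neg_mem (Sp p).one_mem
  have hss : s * s = 1 := by
    rcases hs with rfl | rfl <;> norm_num
  by_cases hd : p ∣ a
  · obtain ⟨l, hl⟩ := hd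
    have hpd : (p : ℤ) ∣ e := by
      have h7 : p ∣ e.natAbs := ⟨l, hl⟩
      exact Int.natCast_dvd.mpr h7
    obtain ⟨w, hw, hΨw⟩ := hΨ2 hpd
    have hl' : ¬ p ∣ l := by
      rintro ⟨l', rfl⟩
      have : p ^ 2 ≤ a := by
        rw [hl]
        have hl0 : 0 < l' := by
          rcases Nat.eq_zero_or_pos l' with h0 | h0
          · rw [h0] at hl; simp at hl; exact absurd hl ha0
          · exact h0
        nlinarith
      omega
    have hp0 : (p : ℂ) ≠ 0 := by exact_mod_cast hp.ne_zero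
    have hl0 : (l : ℂ) ≠ 0 := by
      intro h0
      have : l = 0 := by exact_mod_cast h0
      rw [this] at hl
      simp at hl
      exact ha0 hl
    have hM : M = s * ((1 / (l : ℂ)) * w) := by
      have h4 : (a : ℂ) = p * l := by rw [hl]; push_cast; ring
      rw [hes, h4, hΨw] at h
      have h5 : s * ((l : ℂ) * M) = w := by
        apply mul_left_cancel₀ hp0
        linear_combination h
      have h6 : (l : ℂ) * M = s * w := by
        linear_combination s * h5 - (l : ℂ) * M * hss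
      field_simp
      linear_combination h6
    rw [hM]
    exact (Sp p).mul_mem hsm ((Sp p).mul_mem (inv_mem_Sp hl') hw)
  · have hM : M = s * ((1 / (a : ℂ)) * Ψ) := by
      rw [← h, hes]
      field_simp
      linear_combination (-M) * hss
    rw [hM]
    exact (Sp p).mul_mem hsm ((Sp p).mul_mem (inv_mem_Sp hd) hΨ)

lemma x1_inv_mem : (1 - I : ℂ)⁻¹ ∈ Lam := by
  have h : (1 - I : ℂ)⁻¹ = (1 + I) * (1 / 2) := by
    apply inv_eq_of_mul_eq_one_right
    have : (I : ℂ) * I = -1 := I_mul_I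
    linear_combination (-1 / 2 : ℂ) * this
  rw [h]
  exact Lam.mul_mem x0_mem half_mem_Lam

lemma x1_mem : (1 - I : ℂ) ∈ Lam := Lam.sub_mem Lam.one_mem I_mem_Lam

lemma uf_x1 : uf (1 - I) = -2 * I - 2 := by
  unfold uf
  have : (I : ℂ) * I = -1 := I_mul_I
  linear_combination this

lemma uf_x1_inv_mem : (uf (1 - I))⁻¹ ∈ Lam := by
  have h : (uf (1 - I))⁻¹ = -((1 - I) * (1 / 2) * (1 / 2)) := by
    rw [uf_x1]
    apply inv_eq_of_mul_eq_one_right
    have : (I : ℂ) * I = -1 := I_mul_I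
    linear_combination (-1 / 2 : ℂ) * this
  rw [h]
  exact Lam.neg_mem (Lam.mul_mem (Lam.mul_mem x1_mem half_mem_Lam) half_mem_Lam)

lemma x0_ne : (1 + I : ℂ) ≠ 0 := by
  intro h
  have := congrArg Complex.re h
  simp at this

lemma x1_ne : (1 - I : ℂ) ≠ 0 := by
  intro h
  have := congrArg Complex.re h
  simp at this

lemma uf_x0_ne : uf (1 + I) ≠ 0 := by
  intro h
  have h1 := uf_x0_inv_mem
  have h2 : uf (1 + I) * (uf (1 + I))⁻¹ = 0 := by rw [h]; simp
  rw [uf_x0] at h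
  have := congrArg Complex.re h
  simp at this

lemma uf_x1_ne : uf (1 - I) ≠ 0 := by
  intro h
  rw [uf_x1] at h
  have := congrArg Complex.re h
  simp at this

lemma GamPoly_Up : GamPoly Up := by
  unfold Up
  exact (GamPoly.X.pow 2).sub (GamPoly.C two_mem_Gam)

lemma Up_ne : Up ≠ 0 := by
  intro h
  have h1 : Up.coeff 0 = 0 := by rw [h]; simp
  simp [Up] at h1

/-- The polynomial identity from the derivative. -/
lemma poly_id (n K : ℕ) (N₁ : Polynomial ℂ) (f : ℂ → ℂ) (q : ℂ)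
    (hf : ∀ x, x ≠ 0 → uf x ≠ 0 → f x = N₁.eval x / (x ^ K * uf x ^ K))
    (hd : ∀ x, x ≠ 0 → uf x ≠ 0 → HasDerivAt f ((BB x ^ n - q) / x) x) :
    (Polynomial.derivative N₁ * (Polynomial.X ^ K * Up ^ K) -
        N₁ * Polynomial.derivative (Polynomial.X ^ K * Up ^ K)) *
        (Polynomial.X ^ (4 * n + 1) * Up ^ (4 * n)) =
        (Polynomial.X ^ K * Up ^ K) ^ 2 *
        (Tp n - Polynomial.C q * (Polynomial.X ^ (4 * n) * Up ^ (4 * n))) := by
  set P : Polynomial ℂ := Polynomial.X ^ K * Up ^ K with hP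
  have hPev : ∀ x, P.eval x = x ^ K * uf x ^ K := by
    intro x; simp [hP, eval_Up]
  set W : Polynomial ℂ := Polynomial.X * Up with hW
  have hW0 : W ≠ 0 := mul_ne_zero Polynomial.X_ne_zero Up_ne
  apply Polynomial.eq_of_infinite_eval_eq
  have hfin : Set.Finite {z | Polynomial.IsRoot W z} := Polynomial.finite_setOfPred_isRoot hW0
  refine (hfin.infinite_compl).mono ?_
  intro z hz
  have hz' : W.eval z ≠ 0 := hz
  rw [hW, Polynomial.eval_mul, Polynomial.eval_X, eval_Up] at hz'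
  have h1 : z ≠ 0 := fun h => hz' (by rw [h]; simp)
  have h2 : uf z ≠ 0 := fun h => hz' (by rw [h]; simp)
  have hPne : P.eval z ≠ 0 := by
    rw [hPev]; exact mul_ne_zero (pow_ne_zero _ h1) (pow_ne_zero _ h2)
  have hd2 : HasDerivAt (fun w => N₁.eval w / P.eval w)
      (((Polynomial.derivative N₁).eval z * P.eval z -
        N₁.eval z * (Polynomial.derivative P).eval z) / (P.eval z) ^ 2) z :=
    (N₁.hasDerivAt z).div (P.hasDerivAt z) hPne
  have hev : f =ᶠ[nhds z] fun w => N₁.eval w / P.eval w := by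
    have hc1 : ContinuousAt (fun w : ℂ => w) z := continuousAt_id
    have hc2 : ContinuousAt uf z := by
      have : uf = fun w => Up.eval w := by funext w; rw [eval_Up]
      rw [this]; exact Up.continuousAt
    filter_upwards [hc1.eventually_ne h1, hc2.eventually_ne h2] with w hw1 hw2
    rw [hf w hw1 hw2, hPev]
  have hd3 := hd2.congr_of_eventuallyEq hev
  have huniq := (hd z h1 h2).unique hd3
  rw [BB_pow_eq n h1 h2] at huniq
  simp only [Set.mem_ofPred_eq, Polynomial.eval_mul, Polynomial.eval_sub, Polynomial.eval_pow,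
    Polynomial.eval_C, Polynomial.eval_X, eval_Up]
  have hu4 : uf z ^ (4 * n) ≠ 0 := pow_ne_zero _ h2
  have hz4 : z ^ (4 * n) ≠ 0 := pow_ne_zero _ h1
  set A := (Polynomial.derivative N₁).eval z * P.eval z -
        N₁.eval z * (Polynomial.derivative P).eval z with hA
  have hPne2 : (P.eval z) ^ 2 ≠ 0 := pow_ne_zero _ hPne
  have e1 : A = ((Tp n).eval z / (z ^ (4 * n) * uf z ^ (4 * n)) - q) / z * (P.eval z) ^ 2 := by
    rw [huniq]; field_simp
  rw [e1]
  rw [hPev]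
  field_simp
  ring


open PowerSeries in
/-- The difference of the rational part at the end points is integral at `p`. -/
theorem Gn_diff_mem (n p : ℕ) [Fact p.Prime] (hp2 : p ≠ 2)
    (h1 : 3 * n / p + 5 * n / p = 2 * (4 * n / p) + 1) (h2 : Even (4 * n / p))
    (h3 : ¬ p ∣ 4 * n) (hp3 : 6 * (4 * n + 1) < p ^ 2) :
    Gn n (1 + I) - Gn n (1 - I) ∈ Sp p := by
  have hpp : p.Prime := Fact.out
  set K := 4 * n + 1 with hK
  obtain ⟨N, hNdeg, hNf⟩ := Gt_InX (En n) (On n) (2 * n) (4 * n) (K := K) (by omega) (by omega)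
  set Uu : Polynomial ℂ := Up ^ K with hUu
  have hUu0 : Uu ≠ 0 := pow_ne_zero _ Up_ne
  have hUp0 : Up.coeff 0 ≠ 0 := by simp [Up]
  have hconst : constantCoeff (Uu : ℂ⟦X⟧) ≠ 0 := by
    have e1 : constantCoeff (Uu : ℂ⟦X⟧) = Uu.coeff 0 := by
      rw [← coeff_zero_eq_constantCoeff_apply, Polynomial.coeff_coe]
    rw [e1, hUu, Polynomial.coeff_zero_eq_eval_zero, Polynomial.eval_pow,
      ← Polynomial.coeff_zero_eq_eval_zero]
    exact pow_ne_zero _ hUp0
  set Minv : ℂ⟦X⟧ := (Uu : ℂ⟦X⟧)⁻¹ with hMinv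
  have hinv : (Uu : ℂ⟦X⟧) * Minv = 1 := PowerSeries.mul_inv_cancel _ hconst
  set h₀ : ℂ := coeff K ((N : ℂ⟦X⟧) * Minv) with hh₀
  set P : Polynomial ℂ := Polynomial.X ^ K * Uu with hP
  set N₁ : Polynomial ℂ := N - Polynomial.C h₀ * P with hN₁
  set M₁ : ℂ⟦X⟧ := (N : ℂ⟦X⟧) * Minv - C h₀ * X ^ K with hM₁
  have hM : (Uu : ℂ⟦X⟧) * M₁ = (N₁ : ℂ⟦X⟧) := by
    rw [hM₁, hN₁, hP]
    simp only [Polynomial.coe_sub, Polynomial.coe_mul, Polynomial.coe_C, Polynomial.coe_pow,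
      Polynomial.coe_X]
    linear_combination (N : ℂ⟦X⟧) * hinv
  have hMK : coeff K M₁ = 0 := by
    rw [hM₁, map_sub, coeff_C_mul, coeff_X_pow_self]
    simp [← hh₀]
  set q : ℂ := (qn n : ℂ) with hq
  set f : ℂ → ℂ := fun x => Gn n x - h₀ with hf
  have hPev : ∀ x, P.eval x = x ^ K * uf x ^ K := by
    intro x; simp [hP, hUu, eval_Up]
  have hfN : ∀ x, x ≠ 0 → uf x ≠ 0 → f x = N₁.eval x / (x ^ K * uf x ^ K) := by
    intro x hx hu
    have hne : x ^ K * uf x ^ K ≠ 0 := mul_ne_zero (pow_ne_zero _ hx) (pow_ne_zero _ hu)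
    simp only [hf, hN₁, Polynomial.eval_sub, Polynomial.eval_mul, Polynomial.eval_C, hPev]
    unfold Gn
    rw [hNf x hx hu]
    field_simp
  have hfd : ∀ x, x ≠ 0 → uf x ≠ 0 → HasDerivAt f ((BB x ^ n - q) / x) x := by
    intro x hx hu
    have h4 := (hasDerivAt_Gt (En n) (On n) (2 * n) (4 * n) hx hu).sub_const h₀
    rw [Bf_spec n hx hu] at h4
    exact h4
  have hid := poly_id n K N₁ f q hfN hfd
  have hrel := series_rel n (4 * n) N₁ Uu M₁ q hUu0 Up_ne hM hid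
  -- the coefficient relation
  have hc0 : coeff 0 M₁ = 0 := by
    have h4 := congrArg (coeff (0 + 4 * n)) hrel
    rw [coeff_X_pow_mul, coeff_X_pow_mul'] at h4
    rw [if_neg (by omega)] at h4
    simp only [map_sub, coeff_C_mul, coeff_zero_X_mul] at h4
    have hK0 : ((4 * n + 1 : ℕ) : ℂ) ≠ 0 := by exact_mod_cast (by omega : 4 * n + 1 ≠ 0)
    have h5 : ((4 * n + 1 : ℕ) : ℂ) * coeff 0 M₁ = 0 := by linear_combination -h4
    exact (mul_eq_zero.mp h5).resolve_left hK0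
  have hcs : ∀ i, i ≠ 4 * n →
      (((i + 1 : ℤ) - K : ℤ) : ℂ) * coeff (i + 1) M₁ = coeff i (PsiC n) := by
    intro i hi
    have h4 := congrArg (coeff (i + 1 + 4 * n)) hrel
    rw [coeff_X_pow_mul, coeff_X_pow_mul'] at h4
    rw [if_pos (by omega)] at h4
    have e : i + 1 + 4 * n - (4 * n + 1) = i := by omega
    rw [e] at h4
    simp only [map_sub, coeff_C_mul, coeff_succ_X_mul, coeff_derivative, coeff_X_pow,
      if_neg hi, mul_zero, sub_zero] at h4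
    rw [← h4, hK]
    push_cast
    ring
  have hMmem : ∀ j, j ≤ 6 * K → coeff j M₁ ∈ Sp p := by
    intro j hj
    rcases Nat.eq_zero_or_pos j with rfl | hj0
    · rw [hc0]; exact (Sp p).zero_mem
    obtain ⟨i, rfl⟩ : ∃ i, j = i + 1 := ⟨j - 1, by omega⟩
    by_cases hi : i = 4 * n
    · have : i + 1 = K := by omega
      rw [this, hMK]
      exact (Sp p).zero_mem
    have he : ((i + 1 : ℤ) - K : ℤ) ≠ 0 := by omega
    have he2 : ((i + 1 : ℤ) - K : ℤ).natAbs < p ^ 2 := by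
      have : ((i + 1 : ℤ) - K : ℤ).natAbs ≤ 6 * K := by omega
      omega
    refine div_mem_Sp hpp he he2 (hcs i hi) (PsiC_mem hpp hp2 n i) fun hd => ?_
    refine PsiC_dvd hpp hp2 n i (gain_coeff_dvd n p hp2 h1 h2 h3 i ?_)
    have h5 : (p : ℤ) ∣ ((4 * n : ℕ) : ℤ) - (i : ℤ) := by
      have e : ((4 * n : ℕ) : ℤ) - (i : ℤ) = -((i + 1 : ℤ) - K) := by
        rw [hK]; push_cast; ring
      rw [e]
      exact (dvd_neg).mpr hd
    exact (Nat.modEq_iff_dvd).mpr h5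
  have hUmem : ∀ k, Uu.coeff k ∈ Sp p := fun k => Gam_le_Sp p ((GamPoly_Up.pow K) k)
  have hN₁mem : ∀ j, j ≤ 6 * K → N₁.coeff j ∈ Sp p := by
    intro j hj
    have h4 : N₁.coeff j = coeff j (N₁ : ℂ⟦X⟧) := (Polynomial.coeff_coe _ _).symm
    rw [h4, ← hM, coeff_mul]
    refine (Sp p).sum_mem fun x hx => ?_
    have hx' := mem_antidiagonal.mp hx
    rw [Polynomial.coeff_coe]
    exact (Sp p).mul_mem (hUmem _) (hMmem _ (by omega))
  have hN₁deg : N₁.natDegree ≤ 6 * K := by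
    have h4 : (Polynomial.C h₀ * P).natDegree ≤ 6 * K := by
      refine (Polynomial.natDegree_C_mul_le _ _).trans ?_
      refine Polynomial.natDegree_mul_le.trans ?_
      have h5 : ((Polynomial.X : Polynomial ℂ) ^ K).natDegree ≤ K := by simp
      have h6 : Uu.natDegree ≤ K * 2 := Polynomial.natDegree_pow_le_of_le _ natDegree_Up
      omega
    exact (Polynomial.natDegree_sub_le _ _).trans (max_le hNdeg h4)
  have hev : ∀ z ∈ Sp p, N₁.eval z ∈ Sp p := by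
    intro z hz
    rw [Polynomial.eval_eq_sum_range]
    refine (Sp p).sum_mem fun j hj => ?_
    have hj' : j ≤ N₁.natDegree := by simpa [Nat.lt_succ_iff] using hj
    exact (Sp p).mul_mem (hN₁mem j (hj'.trans hN₁deg)) ((Sp p).pow_mem hz _)
  have hLS := Lam_le_Sp hpp hp2
  have hval : ∀ x : ℂ, x ∈ Sp p → x⁻¹ ∈ Sp p → (uf x)⁻¹ ∈ Sp p → x ≠ 0 → uf x ≠ 0 →
      f x ∈ Sp p := by
    intro x hx1 hx2 hx3 hx0 hu
    rw [hfN x hx0 hu, div_eq_mul_inv, mul_inv, ← inv_pow, ← inv_pow]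
    exact (Sp p).mul_mem (hev x hx1) ((Sp p).mul_mem ((Sp p).pow_mem hx2 _) ((Sp p).pow_mem hx3 _))
  have h5 := hval (1 + I) (hLS x0_mem) (hLS x0_inv_mem) (hLS uf_x0_inv_mem) x0_ne uf_x0_ne
  have h6 := hval (1 - I) (hLS x1_mem) (hLS x1_inv_mem) (hLS uf_x1_inv_mem) x1_ne uf_x1_ne
  have h7 := (Sp p).sub_mem h5 h6
  simp only [hf] at h7
  have e : Gn n (1 + I) - h₀ - (Gn n (1 - I) - h₀) = Gn n (1 + I) - Gn n (1 - I) := by ring
  rwa [e] at h7

/-- The value `y_n` has denominator prime to `p`. -/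
theorem yn_p_int (n p : ℕ) [Fact p.Prime] (hp2 : p ≠ 2)
    (h1 : 3 * n / p + 5 * n / p = 2 * (4 * n / p) + 1) (h2 : Even (4 * n / p))
    (h3 : ¬ p ∣ 4 * n) (hp3 : 6 * (4 * n + 1) < p ^ 2) :
    ∃ (d : ℕ) (b : ℤ), ¬ p ∣ d ∧ (d : ℝ) * yn n = b := by
  have hpp : p.Prime := Fact.out
  have h4 := Gn_diff_mem n p hp2 h1 h2 h3 hp3
  unfold Gn at h4
  rw [Gt_diff] at h4
  obtain ⟨d, a, b, hd, hab⟩ := Sp_eq hpp h4
  refine ⟨d * 2, b, ?_, ?_⟩
  · intro h
    rcases (Nat.Prime.dvd_mul hpp).mp h with h | h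
    · exact hd h
    · exact hp2 ((Nat.prime_dvd_prime_iff_eq hpp Nat.prime_two).mp h)
  · have h5 : (d : ℂ) * (2 * I * ((Gt (En n) (On n) (2 * n) (4 * n) (1 + I)).im : ℂ)) =
        ((((d * 2 : ℕ) : ℝ) * yn n : ℝ) : ℂ) * I := by
      unfold yn Gn; push_cast; ring
    rw [h5] at hab
    have := congrArg Complex.im hab
    simpa using this


end

end Vale.Agent.Lib.P021
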