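import Vale.Agent.Lib.P021.WIMain

/-! The special primes and the size of their product. -/

namespace Vale.Agent.Lib.P021

open Finset

noncomputable section

/-- First type of blocks: `n / p` in `[j + 2 / 3, j + 3 / 4)`. -/
def T1 (j n : ℕ) : Finset ℕ :=
  (range (4 * n + 2)).filter fun p => p.Prime ∧ (3 * j + 2) * p ≤ 3 * n ∧ 4 * n < (4 * j + 3) * p

/-- Second type of blocks: `n / p` in `[j + 6 / 5, j + 5 / 4)`. -/
def T2 (j n : ℕ) : Finset ℕ :=
  (range (4 * n + 2)).filter fun p => p.Prime ∧ (5 * j + 6) * p ≤ 5 * n ∧ 4 * n < (4 * j + 5) * p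

/-- The set of special primes with blocks below `J`. -/
def gainSet (J n : ℕ) : Finset ℕ := (range J).biUnion fun j => T1 j n ∪ T2 j n

lemma mem_T1 {j n p : ℕ} : p ∈ T1 j n ↔
    p.Prime ∧ (3 * j + 2) * p ≤ 3 * n ∧ 4 * n < (4 * j + 3) * p := by
  unfold T1
  rw [mem_filter, mem_range]
  constructor
  · exact fun h => h.2
  · intro h
    refine ⟨?_, h⟩
    have h1 : 2 * p ≤ (3 * j + 2) * p := Nat.mul_le_mul_right _ (by omega)
    omega

lemma mem_T2 {j n p : ℕ} : p ∈ T2 j n ↔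
    p.Prime ∧ (5 * j + 6) * p ≤ 5 * n ∧ 4 * n < (4 * j + 5) * p := by
  unfold T2
  rw [mem_filter, mem_range]
  constructor
  · exact fun h => h.2
  · intro h
    refine ⟨?_, h⟩
    have h1 : 6 * p ≤ (5 * j + 6) * p := Nat.mul_le_mul_right _ (by omega)
    omega

/-- The floors for primes of the first type. -/
lemma floors_T1 {j n p : ℕ} (hp : 0 < p) (h1 : (3 * j + 2) * p ≤ 3 * n)
    (h2 : 4 * n < (4 * j + 3) * p) :
    3 * n / p = 3 * j + 2 ∧ 5 * n / p = 5 * j + 3 ∧ 4 * n / p = 4 * j + 2 ∧ ¬ p ∣ 4 * n := by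
  have e3 : 3 * n / p = 3 * j + 2 := by
    apply Nat.div_eq_of_lt_le
    · exact h1
    · nlinarith
  have e5 : 5 * n / p = 5 * j + 3 := by
    apply Nat.div_eq_of_lt_le
    · nlinarith
    · nlinarith
  have e4 : 4 * n / p = 4 * j + 2 := by
    apply Nat.div_eq_of_lt_le
    · nlinarith
    · nlinarith
  refine ⟨e3, e5, e4, ?_⟩
  rintro ⟨c, hc⟩
  have h3 : p * c = 4 * n := hc.symm
  have h4 : (4 * j + 2) * p < p * c := by nlinarith
  have h5 : p * c < (4 * j + 3) * p := by omega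
  have h6 : 4 * j + 2 < c := by
    by_contra h
    push Not at h
    nlinarith
  have h7 : c < 4 * j + 3 := by
    by_contra h
    push Not at h
    nlinarith
  omega

/-- The floors for primes of the second type. -/
lemma floors_T2 {j n p : ℕ} (hp : 0 < p) (h1 : (5 * j + 6) * p ≤ 5 * n)
    (h2 : 4 * n < (4 * j + 5) * p) :
    3 * n / p = 3 * j + 3 ∧ 5 * n / p = 5 * j + 6 ∧ 4 * n / p = 4 * j + 4 ∧ ¬ p ∣ 4 * n := by
  have e3 : 3 * n / p = 3 * j + 3 := by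
    apply Nat.div_eq_of_lt_le
    · nlinarith
    · nlinarith
  have e5 : 5 * n / p = 5 * j + 6 := by
    apply Nat.div_eq_of_lt_le
    · exact h1
    · nlinarith
  have e4 : 4 * n / p = 4 * j + 4 := by
    apply Nat.div_eq_of_lt_le
    · nlinarith
    · nlinarith
  refine ⟨e3, e5, e4, ?_⟩
  rintro ⟨c, hc⟩
  have h3 : p * c = 4 * n := hc.symm
  have h4 : (4 * j + 4) * p < p * c := by nlinarith
  have h5 : p * c < (4 * j + 5) * p := by omega
  have h6 : 4 * j + 4 < c := by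
    by_contra h
    push Not at h
    nlinarith
  have h7 : c < 4 * j + 5 := by
    by_contra h
    push Not at h
    nlinarith
  omega

/-- The properties of the special primes. -/
theorem gainSet_spec (J n p : ℕ) (hp : p ∈ gainSet J n) :
    p.Prime ∧ p ≤ 4 * n + 1 ∧ 3 * n / p + 5 * n / p = 2 * (4 * n / p) + 1 ∧
      Even (4 * n / p) ∧ ¬ p ∣ 4 * n ∧ 4 * n < (4 * J + 5) * p := by
  unfold gainSet at hp
  rw [mem_biUnion] at hp
  obtain ⟨j, hj, hp⟩ := hp
  have hj' : j < J := mem_range.mp hj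
  rw [mem_union] at hp
  rcases hp with hp | hp
  · have h0 := mem_T1.mp hp
    obtain ⟨hpp, h1, h2⟩ := h0
    obtain ⟨e3, e5, e4, hd⟩ := floors_T1 hpp.pos h1 h2
    refine ⟨hpp, ?_, by omega, by rw [e4]; exact ⟨2 * j + 1, by ring⟩, hd, ?_⟩
    · have := (mem_range.mp (mem_filter.mp hp).1)
      omega
    · have : (4 * j + 3) * p ≤ (4 * J + 5) * p := Nat.mul_le_mul_right _ (by omega)
      omega
  · have h0 := mem_T2.mp hp
    obtain ⟨hpp, h1, h2⟩ := h0
    obtain ⟨e3, e5, e4, hd⟩ := floors_T2 hpp.pos h1 h2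
    refine ⟨hpp, ?_, by omega, by rw [e4]; exact ⟨2 * j + 2, by ring⟩, hd, ?_⟩
    · have := (mem_range.mp (mem_filter.mp hp).1)
      omega
    · have : (4 * j + 5) * p ≤ (4 * J + 5) * p := Nat.mul_le_mul_right _ (by omega)
      omega

/-- The sum of logarithms over primes in an interval. -/
lemma sum_log_block {a b : ℝ} (hab : a ≤ b) (S : Finset ℕ)
    (hS : ∀ p : ℕ, p ∈ S ↔ p.Prime ∧ a < p ∧ (p : ℝ) ≤ b) :
    ∑ p ∈ S, Real.log p = Chebyshev.theta b - Chebyshev.theta a := by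
  unfold Chebyshev.theta
  have hsub : (Ioc 0 ⌊a⌋₊).filter Nat.Prime ⊆ (Ioc 0 ⌊b⌋₊).filter Nat.Prime := by
    intro p hp
    rw [mem_filter, mem_Ioc] at hp ⊢
    exact ⟨⟨hp.1.1, hp.1.2.trans (Nat.floor_mono hab)⟩, hp.2⟩
  rw [← sum_sdiff hsub, add_sub_cancel_right]
  refine sum_congr ?_ fun _ _ => rfl
  ext p
  rw [hS, mem_sdiff, mem_filter, mem_filter, mem_Ioc, mem_Ioc]
  constructor
  · rintro ⟨hp, h1, h2⟩
    have hp0 := hp.pos
    have hb0 : 0 ≤ b := le_trans (by positivity) h2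
    refine ⟨⟨⟨hp0, (Nat.le_floor_iff hb0).mpr h2⟩, hp⟩, ?_⟩
    rintro ⟨⟨_, h3⟩, _⟩
    by_cases ha0 : 0 ≤ a
    · have := (Nat.le_floor_iff ha0).mp h3
      linarith
    · have : ⌊a⌋₊ = 0 := Nat.floor_of_nonpos (le_of_lt (not_le.mp ha0))
      omega
  · rintro ⟨⟨⟨h1, h2⟩, hp⟩, h3⟩
    have hb0 : 0 ≤ b := by
      by_contra h
      have : ⌊b⌋₊ = 0 := Nat.floor_of_nonpos (le_of_lt (not_le.mp h))
      omega
    refine ⟨hp, ?_, (Nat.le_floor_iff hb0).mp h2⟩
    by_contra h4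
    apply h3
    have ha0 : (p : ℝ) ≤ a := not_lt.mp h4
    have ha1 : 0 ≤ a := le_trans (by positivity) ha0
    exact ⟨⟨h1, (Nat.le_floor_iff ha1).mpr ha0⟩, hp⟩

/-- Two-sided bounds for the sum of logarithms of primes. -/
lemma theta_bounds {ε : ℝ} (hε : 0 < ε) :
    ∃ X : ℝ, ∀ x ≥ X, (1 - ε) * x ≤ Chebyshev.theta x ∧ Chebyshev.theta x ≤ (1 + ε) * x := by
  obtain ⟨X₁, h1⟩ := WI.psi_upper ε hε
  obtain ⟨X₂, h2⟩ := WI.psi_lower (ε / 2) (by positivity)
  obtain ⟨C, hC⟩ := Chebyshev.psi_sub_theta_le_mul_sqrt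
  set C' := max C 1 with hC'
  have hC'pos : 0 < C' := lt_of_lt_of_le one_pos (le_max_right _ _)
  refine ⟨max (max X₁ X₂) ((2 * C' / ε) ^ 2), fun x hx => ?_⟩
  have hx1 : X₁ ≤ x := ((le_max_left _ _).trans (le_max_left _ _)).trans hx
  have hx2 : X₂ ≤ x := ((le_max_right _ _).trans (le_max_left _ _)).trans hx
  have hx3 : (2 * C' / ε) ^ 2 ≤ x := (le_max_right _ _).trans hx
  have hx0 : 0 ≤ x := le_trans (sq_nonneg _) hx3
  constructor
  · have h3 := h2 x hx2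
    have h4 := hC x
    have h5 : C * Real.sqrt x ≤ C' * Real.sqrt x := by
      gcongr
      exact le_max_left _ _
    have h6 : 2 * C' / ε ≤ Real.sqrt x := Real.le_sqrt_of_sq_le hx3
    have h7 : 2 * C' ≤ ε * Real.sqrt x := by
      rw [div_le_iff₀ hε] at h6
      linarith
    have h8 : C' * Real.sqrt x ≤ ε / 2 * x := by
      have h9 : Real.sqrt x * Real.sqrt x = x := Real.mul_self_sqrt hx0
      have h10 : 0 ≤ Real.sqrt x := Real.sqrt_nonneg x
      nlinarith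
    linarith
  · exact (Chebyshev.theta_le_psi x).trans (h1 x hx1)

/-- The main term of a block, as a rational number. -/
def termQ (j : ℕ) : ℚ :=
  (1 - 1 / 100000) * (3 / (3 * j + 2) + 5 / (5 * j + 6)) -
    (1 + 1 / 100000) * (4 / (4 * j + 3) + 4 / (4 * j + 5))

/-- The sum of the main terms, as a rational number. -/
def sumQ : ℕ → ℚ
  | 0 => 0
  | j + 1 => sumQ j + termQ j

lemma sumQ_200 : (293 / 1000 : ℚ) ≤ sumQ 200 := by
  decide +kernel

lemma sumQ_cast (J : ℕ) : ((sumQ J : ℚ) : ℝ) = ∑ j ∈ range J,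
    ((1 - 1 / 100000) * (3 / (3 * (j : ℝ) + 2) + 5 / (5 * (j : ℝ) + 6)) -
      (1 + 1 / 100000) * (4 / (4 * (j : ℝ) + 3) + 4 / (4 * (j : ℝ) + 5))) := by
  induction J with
  | zero => simp [sumQ]
  | succ J ih =>
    rw [sum_range_succ, ← ih]
    simp only [sumQ, termQ]
    push_cast
    ring

lemma sum_T1 (j n : ℕ) : ∑ p ∈ T1 j n, Real.log p =
    Chebyshev.theta (3 * (n : ℝ) / (3 * j + 2)) - Chebyshev.theta (4 * (n : ℝ) / (4 * j + 3)) := by
  have h1 : (0 : ℝ) < 3 * j + 2 := by positivity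
  have h2 : (0 : ℝ) < 4 * j + 3 := by positivity
  refine sum_log_block ?_ _ fun p => ?_
  · rw [div_le_div_iff₀ h2 h1]
    have : (0 : ℝ) ≤ n := Nat.cast_nonneg n
    nlinarith
  · rw [mem_T1, div_lt_iff₀ h2, le_div_iff₀ h1]
    constructor
    · rintro ⟨h3, h4, h5⟩
      refine ⟨h3, ?_, ?_⟩
      · have : ((4 * n : ℕ) : ℝ) < (((4 * j + 3) * p : ℕ) : ℝ) := by exact_mod_cast h5
        push_cast at this
        linarith
      · have : (((3 * j + 2) * p : ℕ) : ℝ) ≤ ((3 * n : ℕ) : ℝ) := by exact_mod_cast h4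
        push_cast at this
        linarith
    · rintro ⟨h3, h4, h5⟩
      refine ⟨h3, ?_, ?_⟩
      · have : (((3 * j + 2) * p : ℕ) : ℝ) ≤ ((3 * n : ℕ) : ℝ) := by
          push_cast
          linarith
        exact_mod_cast this
      · have : ((4 * n : ℕ) : ℝ) < (((4 * j + 3) * p : ℕ) : ℝ) := by
          push_cast
          linarith
        exact_mod_cast this

lemma sum_T2 (j n : ℕ) : ∑ p ∈ T2 j n, Real.log p =
    Chebyshev.theta (5 * (n : ℝ) / (5 * j + 6)) - Chebyshev.theta (4 * (n : ℝ) / (4 * j + 5)) := by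
  have h1 : (0 : ℝ) < 5 * j + 6 := by positivity
  have h2 : (0 : ℝ) < 4 * j + 5 := by positivity
  refine sum_log_block ?_ _ fun p => ?_
  · rw [div_le_div_iff₀ h2 h1]
    have : (0 : ℝ) ≤ n := Nat.cast_nonneg n
    nlinarith
  · rw [mem_T2, div_lt_iff₀ h2, le_div_iff₀ h1]
    constructor
    · rintro ⟨h3, h4, h5⟩
      refine ⟨h3, ?_, ?_⟩
      · have : ((4 * n : ℕ) : ℝ) < (((4 * j + 5) * p : ℕ) : ℝ) := by exact_mod_cast h5
        push_cast at this
        linarith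
      · have : (((5 * j + 6) * p : ℕ) : ℝ) ≤ ((5 * n : ℕ) : ℝ) := by exact_mod_cast h4
        push_cast at this
        linarith
    · rintro ⟨h3, h4, h5⟩
      refine ⟨h3, ?_, ?_⟩
      · have : (((5 * j + 6) * p : ℕ) : ℝ) ≤ ((5 * n : ℕ) : ℝ) := by
          push_cast
          linarith
        exact_mod_cast this
      · have : ((4 * n : ℕ) : ℝ) < (((4 * j + 5) * p : ℕ) : ℝ) := by
          push_cast
          linarith
        exact_mod_cast this

/-- The index of a special prime is determined by the quotient of `4 n` by it. -/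
lemma quot_of_mem (j n p : ℕ) (hp : p ∈ T1 j n ∪ T2 j n) :
    4 * n / p = 4 * j + 2 ∧ p ∈ T1 j n ∨ 4 * n / p = 4 * j + 4 ∧ p ∈ T2 j n := by
  rw [mem_union] at hp
  rcases hp with hp | hp
  · left
    obtain ⟨hpp, h1, h2⟩ := mem_T1.mp hp
    exact ⟨(floors_T1 hpp.pos h1 h2).2.2.1, hp⟩
  · right
    obtain ⟨hpp, h1, h2⟩ := mem_T2.mp hp
    exact ⟨(floors_T2 hpp.pos h1 h2).2.2.1, hp⟩

lemma sum_gainSet (J n : ℕ) : ∑ p ∈ gainSet J n, Real.log p =
    ∑ j ∈ range J, ((∑ p ∈ T1 j n, Real.log p) + ∑ p ∈ T2 j n, Real.log p) := by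
  unfold gainSet
  rw [sum_biUnion]
  · refine sum_congr rfl fun j _ => ?_
    rw [sum_union]
    rw [disjoint_left]
    intro p h1 h2
    obtain ⟨hpp, h3, h4⟩ := mem_T1.mp h1
    obtain ⟨_, h5, h6⟩ := mem_T2.mp h2
    have e1 := (floors_T1 hpp.pos h3 h4).2.2.1
    have e2 := (floors_T2 hpp.pos h5 h6).2.2.1
    omega
  · intro j _ j' _ hne
    simp only [Function.onFun]
    rw [disjoint_left]
    intro p h1 h2
    rcases quot_of_mem _ _ _ h1 with ⟨e1, _⟩ | ⟨e1, _⟩ <;>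
    rcases quot_of_mem _ _ _ h2 with ⟨e2, _⟩ | ⟨e2, _⟩ <;> omega

/-- The size of the product of the special primes. -/
theorem gain_sum : ∃ n₀ : ℕ, ∀ n ≥ n₀, 0.293 * (n : ℝ) ≤ ∑ p ∈ gainSet 200 n, Real.log p := by
  obtain ⟨X, hX⟩ := theta_bounds (ε := 1 / 100000) (by norm_num)
  obtain ⟨n₀, hn₀⟩ := exists_nat_ge (1000 * |X|)
  refine ⟨n₀, fun n hn => ?_⟩
  have hnn : (n₀ : ℝ) ≤ n := by exact_mod_cast hn
  have hn1 : 1000 * |X| ≤ n := hn₀.trans hnn
  have hn0 : (0 : ℝ) ≤ n := Nat.cast_nonneg n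
  -- arguments are large
  have harg : ∀ (c d : ℝ) , 0 < d → d ≤ 1000 * c → X ≤ c * n / d := by
    intro c d hd hc
    rw [le_div_iff₀ hd]
    have hc0 : 0 < c := by linarith
    have h1 : X ≤ |X| := le_abs_self X
    have h2 : 0 ≤ |X| := abs_nonneg X
    calc X * d ≤ |X| * (1000 * c) := by
          calc X * d ≤ |X| * d := by gcongr
            _ ≤ |X| * (1000 * c) := by gcongr
      _ = c * (1000 * |X|) := by ring
      _ ≤ c * n := by gcongr
  have hterm : ∀ j ∈ range 200, ((1 - 1 / 100000) * (3 / (3 * (j : ℝ) + 2) + 5 / (5 * (j : ℝ) + 6)) -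
      (1 + 1 / 100000) * (4 / (4 * (j : ℝ) + 3) + 4 / (4 * (j : ℝ) + 5))) * n ≤
      (∑ p ∈ T1 j n, Real.log p) + ∑ p ∈ T2 j n, Real.log p := by
    intro j hj
    have hj' : j < 200 := mem_range.mp hj
    have hj'' : (j : ℝ) ≤ 199 := by
      have : j ≤ 199 := by omega
      exact_mod_cast this
    have hj0 : (0 : ℝ) ≤ j := Nat.cast_nonneg j
    rw [sum_T1, sum_T2]
    have h1 := (hX _ (harg 3 (3 * j + 2) (by positivity) (by linarith))).1
    have h2 := (hX _ (harg 4 (4 * j + 3) (by positivity) (by linarith))).2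
    have h3 := (hX _ (harg 5 (5 * j + 6) (by positivity) (by linarith))).1
    have h4 := (hX _ (harg 4 (4 * j + 5) (by positivity) (by linarith))).2
    have e : ((1 - 1 / 100000) * (3 / (3 * (j : ℝ) + 2) + 5 / (5 * (j : ℝ) + 6)) -
        (1 + 1 / 100000) * (4 / (4 * (j : ℝ) + 3) + 4 / (4 * (j : ℝ) + 5))) * n =
        (1 - 1 / 100000) * (3 * n / (3 * (j : ℝ) + 2)) +
        (1 - 1 / 100000) * (5 * n / (5 * (j : ℝ) + 6)) -
        (1 + 1 / 100000) * (4 * n / (4 * (j : ℝ) + 3)) -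
        (1 + 1 / 100000) * (4 * n / (4 * (j : ℝ) + 5)) := by ring
    rw [e]
    linarith
  rw [sum_gainSet]
  refine le_trans ?_ (sum_le_sum hterm)
  rw [← sum_mul, ← sumQ_cast]
  have h5 : ((293 / 1000 : ℚ) : ℝ) ≤ ((sumQ 200 : ℚ) : ℝ) := by exact_mod_cast sumQ_200
  have h6 : ((293 / 1000 : ℚ) : ℝ) = 0.293 := by norm_num
  rw [h6] at h5
  gcongr


lemma gainSet_spec' (J : ℕ) (hJ : 4 * J + 5 = 805) (n p : ℕ) (hp : p ∈ gainSet J n) :
    p.Prime ∧ p ≤ 4 * n + 1 ∧ 3 * n / p + 5 * n / p = 2 * (4 * n / p) + 1 ∧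
      Even (4 * n / p) ∧ ¬ p ∣ 4 * n ∧ 4 * n < 805 * p := by
  obtain ⟨h0, h1, h2, h3, h4, h5⟩ := gainSet_spec J n p hp
  rw [hJ] at h5
  exact ⟨h0, h1, h2, h3, h4, h5⟩

lemma gain_sum' (J : ℕ) (hJ : J = 200) :
    ∃ n₀ : ℕ, ∀ n ≥ n₀, 0.293 * (n : ℝ) ≤ ∑ p ∈ gainSet J n, Real.log p := by
  subst hJ
  exact gain_sum


end

end Vale.Agent.Lib.P021
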