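import Vale.Agent.Lib.P021.GainInt
import Vale.Agent.Lib.P021.Final
import Vale.Agent.Lib.P021.GainSet

/-! The bound with the gain at the special primes. -/

namespace Vale.Agent.Lib.P021

open Complex Finset

noncomputable section

/-- The common denominator of the rational part, with the information that it is a multiple of
the least common multiple. -/
theorem exists_D' (n : ℕ) : ∃ (D : ℕ) (b : ℤ), 1 ≤ D ∧
    D ≤ 2 * (6 * (4 * n + 1)) * Nat.lcmUpto (4 * n + 1) ∧ Nat.lcmUpto (4 * n + 1) ∣ D ∧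
    (D : ℝ) * yn n = b := by
  set N := 4 * n + 1 with hN
  set L' := Nat.lcmUpto N with hL'
  set L := Nat.lcmUpto (6 * N) with hL
  have hL'pos : 0 < L' := Nat.lcmUpto_pos N
  have hLpos : 0 < L := Nat.lcmUpto_pos _
  -- first integrality
  have h1 := Gt_x0_mem (En n) (On n) (2 * n) (4 * n) (L := L') (N := N)
    (fun k hk1 hk2 => dvd_lcmUpto hk1 hk2) (by omega) (by omega)
  obtain ⟨M, a, b, hab⟩ := Lam_eq h1
  have hy1 : ((2 ^ M * L' : ℕ) : ℝ) * yn n = b := by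
    have h3 : ((2 : ℂ) ^ M * ((L' : ℂ) * Gt (En n) (On n) (2 * n) (4 * n) (1 + I))) =
        (((2 ^ M * L' : ℕ) : ℝ) : ℂ) * Gn n (1 + I) := by
      unfold Gn; push_cast; ring
    rw [h3] at hab
    have := congrArg Complex.im hab
    rw [Complex.im_ofReal_mul] at this
    unfold yn
    simpa using this
  -- second integrality
  have h2 := ratpart_mem (En n) (On n) (2 * n) (4 * n) N L (NumP n) (DenP n) (by omega) (by omega)
    (fun k hk1 hk2 => dvd_lcmUpto hk1 hk2) (GamPoly_NumP n) (GamPoly_DenP n) (DenP_coeff n)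
    (fun z h3 h4 => BB_Xz_pow n z h3 h4)
  rw [Gt_diff] at h2
  obtain ⟨a', b', hab'⟩ := Gam_eq h2
  have hy2 : ((2 * L : ℕ) : ℝ) * yn n = b' := by
    have h3 : (L : ℂ) * (2 * I * ((Gt (En n) (On n) (2 * n) (4 * n) (1 + I)).im : ℂ)) =
        ((((2 * L : ℕ) : ℝ) * yn n : ℝ) : ℂ) * I := by
      unfold yn Gn; push_cast; ring
    rw [h3] at hab'
    have := congrArg Complex.im hab'
    simpa using this
  -- Bezout
  set D := Nat.gcd (2 * L) (2 ^ M * L') with hD
  have hDpos : 1 ≤ D := Nat.gcd_pos_of_pos_left _ (by omega)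
  have hbez := Nat.gcd_eq_gcd_ab (2 * L) (2 ^ M * L')
  have hdvd : L' ∣ L := lcmUpto_dvd_of_le (by omega)
  refine ⟨D, Nat.gcdA (2 * L) (2 ^ M * L') * b' + Nat.gcdB (2 * L) (2 ^ M * L') * b, hDpos, ?_,
    ?_, ?_⟩
  · exact gcd_bound (by omega) hdvd hL'pos (fun a ha => two_pow_dvd_lcmUpto_le (by omega) ha)
  · exact Nat.dvd_gcd (Dvd.dvd.mul_left hdvd 2) (Dvd.intro_left _ rfl)
  · have h4 : (D : ℝ) = ((2 * L : ℕ) : ℝ) * (Nat.gcdA (2 * L) (2 ^ M * L') : ℝ) +
        ((2 ^ M * L' : ℕ) : ℝ) * (Nat.gcdB (2 * L) (2 ^ M * L') : ℝ) := by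
      have := congrArg (fun z : ℤ => (z : ℝ)) hbez
      simpa using this
    rw [h4]
    push_cast
    push_cast at hy1 hy2
    rw [← hy1, ← hy2]
    ring

/-- The denominator, with a saving for a set of primes not dividing it. -/
theorem exists_den_gain (n : ℕ) (G : Finset ℕ)
    (hG : ∀ p ∈ G, p.Prime ∧ p ≤ 4 * n + 1 ∧ ∃ (d : ℕ) (b : ℤ), ¬ p ∣ d ∧ (d : ℝ) * yn n = b) :
    ∃ (D : ℕ) (b : ℤ), 1 ≤ D ∧
      D * ∏ p ∈ G, p ≤ 2 * (6 * (4 * n + 1)) * Nat.lcmUpto (4 * n + 1) ∧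
      (D : ℝ) * yn n = b := by
  obtain ⟨D₀, b₀, hD1, hD2, hD3, hD4⟩ := exists_D' n
  set r : ℚ := (b₀ : ℚ) / ((D₀ : ℤ) : ℚ) with hr
  have hD0ne : (D₀ : ℝ) ≠ 0 := by
    have : D₀ ≠ 0 := by omega
    exact_mod_cast this
  have hry : (r : ℝ) = yn n := by
    rw [hr]
    push_cast
    field_simp
    linarith
  have hden : (r.den : ℤ) ∣ (D₀ : ℤ) := by
    rw [hr, ← Rat.divInt_eq_div]
    exact Rat.den_dvd _ _
  have hden' : r.den ∣ D₀ := by exact_mod_cast hden
  have hnum : (r.den : ℝ) * yn n = r.num := by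
    rw [← hry]
    have := Rat.den_mul_eq_num r
    exact_mod_cast this
  have hndvd : ∀ p ∈ G, ¬ p ∣ r.den := by
    intro p hp hdvd
    obtain ⟨_, _, d, b, hd, hdb⟩ := hG p hp
    apply hd
    have hd0 : d ≠ 0 := by
      rintro rfl
      exact hd (dvd_zero p)
    have hdq : ((d : ℤ) : ℚ) ≠ 0 := by exact_mod_cast hd0
    have hr2 : r = (b : ℚ) / ((d : ℤ) : ℚ) := by
      field_simp
      have : ((d : ℝ) * (r : ℝ)) = b := by rw [hry]; exact hdb
      have h5 : ((r * d : ℚ) : ℝ) = ((b : ℚ) : ℝ) := by push_cast; linarith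
      have h6 : r * d = b := by exact_mod_cast h5
      push_cast
      linarith
    have h7 : (r.den : ℤ) ∣ (d : ℤ) := by
      rw [hr2, ← Rat.divInt_eq_div]
      exact Rat.den_dvd _ _
    have h8 : r.den ∣ d := by exact_mod_cast h7
    exact hdvd.trans h8
  have hprod_dvd : ∏ p ∈ G, p ∣ Nat.lcmUpto (4 * n + 1) := by
    refine Finset.prod_primes_dvd _ (fun p hp => (hG p hp).1.prime) fun p hp => ?_
    obtain ⟨h1, h2, _⟩ := hG p hp
    exact dvd_lcmUpto h1.one_lt.le h2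
  have hcop : Nat.Coprime r.den (∏ p ∈ G, p) := by
    refine Nat.Coprime.prod_right fun p hp => ?_
    exact ((Nat.Prime.coprime_iff_not_dvd (hG p hp).1).mpr (hndvd p hp)).symm
  have hdvd2 : r.den * ∏ p ∈ G, p ∣ D₀ :=
    Nat.Coprime.mul_dvd_of_dvd_of_dvd hcop hden' (hprod_dvd.trans hD3)
  refine ⟨r.den, r.num, r.den_pos, ?_, hnum⟩
  exact (Nat.le_of_dvd (by omega) hdvd2).trans hD2

/-- The properties of the special primes give the integrality. -/
lemma yn_int_of_props {n p : ℕ} (hn : 1000000 ≤ n) (h0 : p.Prime)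
    (h1 : 3 * n / p + 5 * n / p = 2 * (4 * n / p) + 1) (h2 : Even (4 * n / p))
    (h3 : ¬ p ∣ 4 * n) (h4 : 4 * n < 805 * p) :
    ∃ (d : ℕ) (b : ℤ), ¬ p ∣ d ∧ (d : ℝ) * yn n = b := by
  haveI : Fact p.Prime := ⟨h0⟩
  have hp2 : p ≠ 2 := by
    rintro rfl
    omega
  refine yn_p_int n p hp2 h1 h2 h3 ?_
  have h5 : (4 * n) ^ 2 < (805 * p) ^ 2 := Nat.pow_lt_pow_left h4 (by norm_num)
  have h6 : 16 * n ^ 2 < 648025 * p ^ 2 := by nlinarith
  by_contra h7
  push_neg at h7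
  have h8 : 648025 * p ^ 2 ≤ 648025 * (6 * (4 * n + 1)) := Nat.mul_le_mul_left _ h7
  nlinarith

/-- The main theorem with the gain. -/
theorem main_gain
    (hpsi : ∀ ε > 0, ∃ X : ℝ, ∀ x ≥ X, Chebyshev.psi x ≤ (1 + ε) * x)
    (G : ℕ → Finset ℕ)
    (hG : ∀ n, ∀ p ∈ G n, p.Prime ∧ p ≤ 4 * n + 1 ∧ 3 * n / p + 5 * n / p = 2 * (4 * n / p) + 1 ∧
      Even (4 * n / p) ∧ ¬ p ∣ 4 * n ∧ 4 * n < 805 * p)
    (hsum : ∃ n₀ : ℕ, ∀ n ≥ n₀, 0.293 * (n : ℝ) ≤ ∑ p ∈ G n, Real.log p) :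
    ∃ Q : ℝ, 1 ≤ Q ∧ ∀ p q : ℤ, Q ≤ q →
      1 / (q : ℝ) ^ (121 / 20 : ℝ) < |Real.pi - p / q| := by
  obtain ⟨K, v, hv0, hvK, hv⟩ := hpath'
  obtain ⟨n₁, hQl⟩ := hQl'
  have hQu := hQu'
  obtain ⟨n₅, hsum⟩ := hsum
  set C : ℝ := ∑ i ∈ range K, ‖v (i + 1) - v i‖ with hC
  have hCnn : 0 ≤ C := sum_nonneg fun _ _ => norm_nonneg _
  -- the path bound
  have hH : ∀ n : ℕ, |yn n + (qn n : ℝ) * (Real.pi / 4)| ≤ C * Real.exp (-6.5295 * n) := by
    intro n
    have h1 := polygon_bound n (Real.exp (-6.5295)) (Real.exp_pos _).le K v hv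
    rw [hv0, hvK] at h1
    rw [← im_Fn]
    have h2 : Real.exp (-6.5295) ^ n = Real.exp (-6.5295 * n) := by
      rw [← Real.exp_nat_mul]; congr 1; ring
    rw [← h2]
    exact le_trans (Complex.abs_im_le_norm _) h1
  -- the coefficient
  have hq : ∀ n : ℕ, ((qn n : ℤ) : ℝ) = PowerSeries.coeff (4 * n) (PhiE ^ n) := qv_eq_coeff
  -- the denominators
  have hex : ∀ n : ℕ, ∃ (D : ℕ) (b : ℤ), 1 ≤ D ∧ (D : ℝ) * yn n = b ∧
      (1000000 ≤ n → ((D * ∏ p ∈ G n, p : ℕ) : ℝ) ≤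
        2 * (6 * (4 * n + 1)) * (Nat.lcmUpto (4 * n + 1) : ℝ)) := by
    intro n
    by_cases hn : 1000000 ≤ n
    · obtain ⟨D, b, h1, h2, h3⟩ := exists_den_gain n (G n) (fun p hp => by
        obtain ⟨h0, h1, h2, h3, h4, h5⟩ := hG n p hp
        exact ⟨h0, h1, yn_int_of_props hn h0 h2 h3 h4 h5⟩)
      refine ⟨D, b, h1, h3, fun _ => ?_⟩
      exact_mod_cast h2
    · obtain ⟨D, b, h1, _, h3⟩ := exists_D n
      exact ⟨D, b, h1, h3, fun h => absurd h hn⟩
  choose D b hD1 hD3 hD2 using hex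
  obtain ⟨X, hX⟩ := hpsi (1 / 100000) (by norm_num)
  obtain ⟨n₂, hn₂⟩ := linear_le_exp (c := 1 / 100000) (A := 48) (by norm_num) (by norm_num)
  obtain ⟨n₃, hn₃⟩ := linear_le_exp (c := 1 / 10000) (A := 4 * C) (by norm_num) (by positivity)
  obtain ⟨n₄, hn₄⟩ := exists_nat_gt (max X 1000000)
  have hn₄1 : X < n₄ := lt_of_le_of_lt (le_max_left _ _) hn₄
  have hn₄2 : (1000000 : ℝ) < n₄ := lt_of_le_of_lt (le_max_right _ _) hn₄
  have hn₄3 : 1000000 < n₄ := by exact_mod_cast hn₄2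
  have hDbd : ∀ n ≥ n₂ + n₄ + n₅, (D n : ℝ) ≤ Real.exp (3.7071 * n) := by
    intro n hn
    have hnn : (n₄ : ℝ) ≤ n := by exact_mod_cast (by omega : n₄ ≤ n)
    have hx : ((4 * n + 1 : ℕ) : ℝ) ≥ X := by
      push_cast
      linarith
    have h1 := hX _ hx
    rw [Chebyshev.psi_eq_log_lcmUpto] at h1
    have hpos : (0 : ℝ) < Nat.lcmUpto (4 * n + 1) := by exact_mod_cast Nat.lcmUpto_pos _
    have h2 : (Nat.lcmUpto (4 * n + 1) : ℝ) ≤ Real.exp ((1 + 1 / 100000) * ((4 * n + 1 : ℕ) : ℝ)) := by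
      rw [← Real.log_le_iff_le_exp hpos]
      exact h1
    have h3 := hD2 n (by omega)
    have h4 : (2 * (6 * (4 * (n : ℝ) + 1))) ≤ 48 * ((n : ℝ) + 1) := by
      nlinarith
    have h5 := hn₂ n (by omega)
    have h6 := hsum n (by omega)
    -- the product of the primes
    have h7 : Real.exp (0.293 * (n : ℝ)) ≤ ((∏ p ∈ G n, p : ℕ) : ℝ) := by
      have e : ((∏ p ∈ G n, p : ℕ) : ℝ) = Real.exp (∑ p ∈ G n, Real.log p) := by
        rw [Real.exp_sum]
        push_cast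
        refine Finset.prod_congr rfl fun p hp => ?_
        rw [Real.exp_log]
        exact_mod_cast (hG n p hp).1.pos
      rw [e]
      exact Real.exp_le_exp.mpr h6
    have h8 : (D n : ℝ) * Real.exp (0.293 * (n : ℝ)) ≤
        Real.exp (1 / 100000 * n) * Real.exp ((1 + 1 / 100000) * ((4 * n + 1 : ℕ) : ℝ)) := by
      calc (D n : ℝ) * Real.exp (0.293 * (n : ℝ)) ≤ (D n : ℝ) * ((∏ p ∈ G n, p : ℕ) : ℝ) := by
            gcongr
        _ = ((D n * ∏ p ∈ G n, p : ℕ) : ℝ) := by push_cast; ring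
        _ ≤ _ := h3
        _ ≤ _ := by
            gcongr
            linarith
    rw [← Real.exp_add] at h8
    have h9 : (D n : ℝ) ≤ Real.exp (1 / 100000 * n + (1 + 1 / 100000) * ((4 * n + 1 : ℕ) : ℝ)) /
        Real.exp (0.293 * (n : ℝ)) := by
      rw [le_div_iff₀ (Real.exp_pos _)]
      exact h8
    rw [← Real.exp_sub] at h9
    refine h9.trans (Real.exp_le_exp.mpr ?_)
    push_cast
    norm_num
    nlinarith
  have hDpos : ∀ n, (1 : ℝ) ≤ D n := fun n => by exact_mod_cast hD1 n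
  -- the forms
  set a : ℕ → ℤ := fun n => (D n : ℤ) * qn n with ha
  set b' : ℕ → ℤ := fun n => 4 * b n with hb'
  have hform : ∀ n, (a n : ℝ) * Real.pi + b' n =
      4 * (D n : ℝ) * (yn n + (qn n : ℝ) * (Real.pi / 4)) := by
    intro n
    simp only [ha, hb']
    push_cast
    rw [← hD3 n]
    ring
  set n₀ := n₁ + n₂ + n₃ + n₄ + n₅ with hn₀
  have hqpos : ∀ n ≥ n₀, Real.exp (10.54 * n) ≤ (qn n : ℝ) := by
    intro n hn
    rw [hq]
    exact hQl n (by omega)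
  have hremainder : ∀ n ≥ n₀, 4 * (C * Real.exp (-6.5295 * n)) ≤ Real.exp (-6.5294 * n) := by
    intro n hn
    have h1 := hn₃ n (by omega)
    have h2 : 4 * C ≤ Real.exp (1 / 10000 * n) := by
      refine le_trans ?_ h1
      have : (0 : ℝ) ≤ n := by positivity
      nlinarith
    have h3 : Real.exp (-6.5294 * n) = Real.exp (1 / 10000 * n) * Real.exp (-6.5295 * n) := by
      rw [← Real.exp_add]; congr 1; ring
    rw [h3]
    calc 4 * (C * Real.exp (-6.5295 * n)) = (4 * C) * Real.exp (-6.5295 * n) := by ring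
      _ ≤ _ := by gcongr
  have hres := dioph_main Real.pi a b' 14.2475 2.8223 17.0694 (by norm_num) (by norm_num)
    (by norm_num) n₀ ?_ ?_ ?_ (121 / 20) ?_
  · obtain ⟨Q, hQ1, hQ⟩ := hres
    refine ⟨Q, hQ1, fun p q hq1 => hQ p q hq1 ?_⟩
    have hq0 : q ≠ 0 := by
      intro h
      rw [h] at hq1
      simp at hq1
      linarith
    exact (irrational_iff_ne_rational _).mp irrational_pi p q hq0
  · -- size of a
    intro n hn
    simp only [ha]
    push_cast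
    rw [abs_mul, abs_of_pos (by linarith [hDpos n] : (0 : ℝ) < D n),
      abs_of_pos (lt_of_lt_of_le (Real.exp_pos _) (hqpos n hn))]
    have h1 := hDbd n (by omega)
    have h2 : (qn n : ℝ) ≤ Real.exp (10.5404 * n) := by
      rw [hq]; exact hQu n
    have h3 : Real.exp (14.2475 * n) = Real.exp (3.7071 * n) * Real.exp (10.5404 * n) := by
      rw [← Real.exp_add]; congr 1; ring
    rw [h3]
    have h4 : (0 : ℝ) ≤ qn n := (Real.exp_pos _).le.trans (hqpos n hn)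
    gcongr
  · -- size of the remainder
    intro n hn
    rw [hform, abs_mul, abs_of_pos (by linarith [hDpos n] : (0 : ℝ) < 4 * D n)]
    have h1 := hDbd n (by omega)
    have h2 := hH n
    have h3 := hremainder n hn
    have h4 : Real.exp (-2.8223 * n) = Real.exp (3.7071 * n) * Real.exp (-6.5294 * n) := by
      rw [← Real.exp_add]; congr 1; ring
    rw [h4]
    calc 4 * (D n : ℝ) * |yn n + (qn n : ℝ) * (Real.pi / 4)|
        ≤ 4 * (D n : ℝ) * (C * Real.exp (-6.5295 * n)) := by gcongr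
      _ = (D n : ℝ) * (4 * (C * Real.exp (-6.5295 * n))) := by ring
      _ ≤ _ := by gcongr
  · -- ratio
    intro n hn
    have hqp := hqpos n hn
    have hq0 : (0 : ℝ) < qn n := lt_of_lt_of_le (Real.exp_pos _) hqp
    constructor
    · simp only [ha]
      have h1 : (D n : ℤ) ≠ 0 := by
        have := hD1 n
        omega
      have h2 : qn n ≠ 0 := by
        intro h
        rw [h] at hq0
        simp at hq0
      exact mul_ne_zero h1 h2
    · rw [hform, abs_mul, abs_of_pos (by linarith [hDpos n] : (0 : ℝ) < 4 * D n)]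
      simp only [ha]
      push_cast
      rw [abs_mul, abs_of_pos (by linarith [hDpos n] : (0 : ℝ) < D n), abs_of_pos hq0]
      have h2 := hH n
      have h3 := hremainder n hn
      have h4 : Real.exp (-6.5294 * n) = Real.exp (10.54 * n) * Real.exp (-17.0694 * n) := by
        rw [← Real.exp_add]; congr 1; ring
      have h5 : 4 * |yn n + (qn n : ℝ) * (Real.pi / 4)| ≤ (qn n : ℝ) * Real.exp (-17.0694 * n) := by
        calc 4 * |yn n + (qn n : ℝ) * (Real.pi / 4)| ≤ 4 * (C * Real.exp (-6.5295 * n)) := by gcongr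
          _ ≤ Real.exp (-6.5294 * n) := h3
          _ = Real.exp (10.54 * n) * Real.exp (-17.0694 * n) := h4
          _ ≤ _ := by gcongr
      calc 4 * (D n : ℝ) * |yn n + (qn n : ℝ) * (Real.pi / 4)|
          = (D n : ℝ) * (4 * |yn n + (qn n : ℝ) * (Real.pi / 4)|) := by ring
        _ ≤ (D n : ℝ) * ((qn n : ℝ) * Real.exp (-17.0694 * n)) := by gcongr
        _ = _ := by ring
  · -- the numerical exponent
    rw [min_eq_right (by norm_num)]
    norm_num


/-- The final form, with a variable for the number of blocks. -/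
theorem main_gain_final (J : ℕ) (hJ : J = 200) : ∃ Q : ℝ, 1 ≤ Q ∧ ∀ p q : ℤ, Q ≤ q →
    1 / (q : ℝ) ^ (121 / 20 : ℝ) < |Real.pi - p / q| :=
  main_gain WI.psi_upper (gainSet J) (gainSet_spec' J (by omega)) (gain_sum' J hJ)


end

end Vale.Agent.Lib.P021
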