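import Mathlib

/-! Integrality of a rational function from integrality of its derivative. -/

namespace Vale.Agent.Lib.P021

open PowerSeries

/-- If `N / P` has derivative `E₂ / E₁` with all of `P, E₁, E₂` having coefficients in a subring
`S`, constant terms of `P, E₁` equal to one and `N (0) = 0`, then the coefficients of `N` are in
`S` up to a common multiple of `1, ..., deg N`. -/
theorem taylor_integrality (S : Subring ℂ) (N P E₁ E₂ : Polynomial ℂ) (D L : ℕ)
    (hL : ∀ k, 1 ≤ k → k ≤ D → k ∣ L)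
    (hdeg : N.natDegree ≤ D)
    (hP : ∀ k, P.coeff k ∈ S) (hP0 : P.coeff 0 = 1)
    (hE1 : ∀ k, E₁.coeff k ∈ S) (hE10 : E₁.coeff 0 = 1)
    (hE2 : ∀ k, E₂.coeff k ∈ S)
    (hN0 : N.coeff 0 = 0)
    (hid : (Polynomial.derivative N * P - N * Polynomial.derivative P) * E₁ = P ^ 2 * E₂) :
    ∀ j, (L : ℂ) * N.coeff j ∈ S := by
  set Pp : ℂ⟦X⟧ := (P : ℂ⟦X⟧) with hPp
  set Np : ℂ⟦X⟧ := (N : ℂ⟦X⟧) with hNp
  set E₁p : ℂ⟦X⟧ := (E₁ : ℂ⟦X⟧) with hE₁p
  set E₂p : ℂ⟦X⟧ := (E₂ : ℂ⟦X⟧) with hE₂p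
  have hPconst : constantCoeff Pp ≠ 0 := by
    have : constantCoeff Pp = P.coeff 0 := by
      rw [← coeff_zero_eq_constantCoeff_apply, hPp, Polynomial.coeff_coe]
    rw [this, hP0]; exact one_ne_zero
  set h : ℂ⟦X⟧ := Np * Pp⁻¹ with hh
  have hhP : h * Pp = Np := by
    rw [hh, mul_assoc, mul_comm Pp⁻¹, PowerSeries.mul_inv_cancel _ hPconst, mul_one]
  have hPne : Pp ≠ 0 := by
    intro h0; rw [h0] at hPconst; simp at hPconst
  -- the derivative of h
  have hderiv : d⁄dX ℂ h * E₁p = E₂p := by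
    have h1 : d⁄dX ℂ h * Pp + h * d⁄dX ℂ Pp = d⁄dX ℂ Np := by
      have := congrArg (d⁄dX ℂ) hhP
      rw [Derivation.leibniz] at this
      simpa [smul_eq_mul, mul_comm, add_comm] using this
    have h2 : (d⁄dX ℂ Np * Pp - Np * d⁄dX ℂ Pp) * E₁p = Pp ^ 2 * E₂p := by
      have := congrArg (fun f : Polynomial ℂ => (f : ℂ⟦X⟧)) hid
      simp only [Polynomial.coe_mul, Polynomial.coe_sub, Polynomial.coe_pow] at this
      rw [hNp, hPp, derivative_coe, derivative_coe]
      exact this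
    have h3 : d⁄dX ℂ Np * Pp - Np * d⁄dX ℂ Pp = d⁄dX ℂ h * Pp ^ 2 := by
      rw [← h1, ← hhP]; ring
    rw [h3] at h2
    have h4 : Pp ^ 2 * (d⁄dX ℂ h * E₁p) = Pp ^ 2 * E₂p := by
      rw [← h2]; ring
    exact mul_left_cancel₀ (pow_ne_zero 2 hPne) h4
  -- coefficients of the derivative are in S
  have hdS : ∀ k, coeff k (d⁄dX ℂ h) ∈ S := by
    intro k
    induction k using Nat.strong_induction_on with
    | _ k ih =>
      have h5 : coeff k (d⁄dX ℂ h * E₁p) = coeff k E₂p := by rw [hderiv]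
      rw [coeff_mul] at h5
      have h6 : (⟨k, 0⟩ : ℕ × ℕ) ∈ Finset.HasAntidiagonal.antidiagonal k := by simp
      rw [← Finset.add_sum_erase _ _ h6] at h5
      have h7 : coeff 0 E₁p = 1 := by rw [hE₁p, Polynomial.coeff_coe, hE10]
      simp only [h7, mul_one] at h5
      have h8 : coeff k (d⁄dX ℂ h) = coeff k E₂p -
          ∑ x ∈ (Finset.HasAntidiagonal.antidiagonal k).erase ⟨k, 0⟩, coeff x.1 (d⁄dX ℂ h) * coeff x.2 E₁p := by
        rw [← h5]; ring
      rw [h8]
      refine S.sub_mem ?_ (S.sum_mem ?_)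
      · rw [hE₂p, Polynomial.coeff_coe]; exact hE2 k
      · intro x hx
        rw [Finset.mem_erase, Finset.HasAntidiagonal.mem_antidiagonal] at hx
        obtain ⟨hx1, hx2⟩ := hx
        have hlt : x.1 < k := by
          rcases x with ⟨a, b⟩
          simp only [ne_eq, Prod.mk.injEq, not_and] at hx1
          simp only at hx2 ⊢
          by_contra hge
          have hb : b = 0 := by omega
          have ha : a = k := by omega
          exact hx1 ha hb
        refine S.mul_mem (ih _ hlt) ?_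
        rw [hE₁p, Polynomial.coeff_coe]; exact hE1 _
  -- coefficients of h
  have hc0 : coeff 0 h = 0 := by
    have h9 : coeff 0 (h * Pp) = coeff 0 Np := by rw [hhP]
    have h10 : coeff 0 Pp = 1 := by rw [hPp, Polynomial.coeff_coe, hP0]
    have h11 : coeff 0 Np = 0 := by rw [hNp, Polynomial.coeff_coe, hN0]
    rw [coeff_mul] at h9
    simpa [h10, h11] using h9
  have hck : ∀ k, k ≤ D → (L : ℂ) * coeff k h ∈ S := by
    intro k hk
    rcases Nat.eq_zero_or_pos k with rfl | hpos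
    · rw [hc0, mul_zero]; exact S.zero_mem
    · obtain ⟨m, rfl⟩ : ∃ m, k = m + 1 := ⟨k - 1, by omega⟩
      have h12 := hdS m
      rw [coeff_derivative] at h12
      obtain ⟨e, he⟩ := hL (m + 1) (by omega) hk
      have h13 : (L : ℂ) * coeff (m + 1) h = (e : ℂ) * (coeff (m + 1) h * ((m : ℂ) + 1)) := by
        rw [he]; push_cast; ring
      rw [h13]
      refine S.mul_mem ?_ h12
      exact natCast_mem S e
  intro j
  by_cases hj : j ≤ D
  · have h14 : N.coeff j = coeff j (h * Pp) := by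
      rw [hhP, hNp, Polynomial.coeff_coe]
    rw [h14, coeff_mul, Finset.mul_sum]
    refine S.sum_mem ?_
    intro x hx
    rw [Finset.HasAntidiagonal.mem_antidiagonal] at hx
    have h15 : x.1 ≤ D := by omega
    rw [← mul_assoc]
    refine S.mul_mem (hck _ h15) ?_
    rw [hPp, Polynomial.coeff_coe]; exact hP _
  · have : N.coeff j = 0 := Polynomial.coeff_eq_zero_of_natDegree_lt (by omega)
    rw [this, mul_zero]; exact S.zero_mem

end Vale.Agent.Lib.P021
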