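import Vale.Agent.Lib.P021.Blocks
import Vale.Agent.Lib.P021.Taylor

/-! The rational antiderivative of the integrand and its integrality properties. -/

namespace Vale.Agent.Lib.P021

open Complex Finset

noncomputable section

/-- Selection of the block. -/
def Ab (t m : ℕ) (x : ℂ) : ℂ := if m ≤ t then Apos (t - m) x else Aneg (m - t) x

/-- Logarithmic coefficient of a block. -/
def cbt (t m : ℕ) : ℤ := if m ≤ t then cb (t - m) else 0

/-- The rational part of the antiderivative. -/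
def Gt (E O : ℕ → ℤ) (m d : ℕ) (x : ℂ) : ℂ :=
  ∑ t ∈ range (d + 1), ((E t : ℂ) * Ab t m x + (O t : ℂ) * Wb ((t : ℤ) - m) x)

/-- The coefficient of the logarithm. -/
def qv (E : ℕ → ℤ) (m d : ℕ) : ℤ := ∑ t ∈ range (d + 1), E t * cbt t m

/-- The integrand, expanded in powers of `w`. -/
def Bf (E O : ℕ → ℤ) (m d : ℕ) (x : ℂ) : ℂ :=
  ∑ t ∈ range (d + 1), ((E t : ℂ) + (O t : ℂ) * gf x) * wf x ^ (2 * ((t : ℤ) - m))

lemma hasDerivAt_Ab (t m : ℕ) {x : ℂ} (hx : x ≠ 0) (hu : uf x ≠ 0) :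
    HasDerivAt (Ab t m) ((wf x ^ (2 * ((t : ℤ) - m)) - (cbt t m : ℂ)) / x) x := by
  unfold Ab cbt
  by_cases h : m ≤ t
  · simp only [h, if_true]
    have h1 := hasDerivAt_Apos (t - m) hx
    have e : (2 * ((t : ℤ) - m)) = ((2 * (t - m) : ℕ) : ℤ) := by
      push_cast [Nat.cast_sub h]; ring
    rw [e, zpow_natCast]
    exact h1
  · simp only [h, if_false]
    have hl : 1 ≤ m - t := by omega
    have h1 := hasDerivAt_Aneg hl hx hu
    have e : (2 * ((t : ℤ) - m)) = -(2 * ((m - t : ℕ) : ℤ)) := by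
      push_cast [Nat.cast_sub (le_of_not_ge h)]; ring
    rw [e]
    simpa using h1

lemma hasDerivAt_Gt (E O : ℕ → ℤ) (m d : ℕ) {x : ℂ} (hx : x ≠ 0) (hu : uf x ≠ 0) :
    HasDerivAt (Gt E O m d) ((Bf E O m d x - (qv E m d : ℂ)) / x) x := by
  have hterm : ∀ t ∈ range (d + 1), HasDerivAt
      (fun y : ℂ => (E t : ℂ) * Ab t m y + (O t : ℂ) * Wb ((t : ℤ) - m) y)
      ((((E t : ℂ) + (O t : ℂ) * gf x) * wf x ^ (2 * ((t : ℤ) - m)) - (E t : ℂ) * (cbt t m : ℂ)) / x)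
      x := by
    intro t _
    have h1 := (hasDerivAt_Ab t m hx hu).const_mul (E t : ℂ)
    have h2 := (hasDerivAt_Wb ((t : ℤ) - m) hx hu).const_mul (O t : ℂ)
    refine (h1.add h2).congr_deriv ?_
    field_simp
    ring
  have hsum := HasDerivAt.fun_sum hterm
  have hfun : (fun y : ℂ => ∑ t ∈ range (d + 1),
      ((E t : ℂ) * Ab t m y + (O t : ℂ) * Wb ((t : ℤ) - m) y)) = Gt E O m d := by
    funext y; rfl
  rw [hfun] at hsum
  refine hsum.congr_deriv ?_
  unfold Bf qv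
  rw [← sum_div]
  push_cast
  rw [sum_sub_distrib]

/-! ### Subrings -/

/-- The Gaussian integers, as a subring of the complex numbers. -/
def Gam : Subring ℂ := Subring.closure {I}

/-- The Gaussian rationals with denominator a power of two. -/
def Lam : Subring ℂ := Subring.closure {I, 1 / 2}

lemma I_mem_Gam : I ∈ Gam := Subring.subset_closure (by simp)
lemma I_mem_Lam : I ∈ Lam := Subring.subset_closure (by simp)
lemma half_mem_Lam : (1 / 2 : ℂ) ∈ Lam := Subring.subset_closure (by simp)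

lemma Gam_eq {z : ℂ} (hz : z ∈ Gam) : ∃ a b : ℤ, z = a + b * I := by
  unfold Gam at hz
  induction hz using Subring.closure_induction with
  | mem x hx =>
    rw [Set.mem_singleton_iff] at hx
    exact ⟨0, 1, by simp [hx]⟩
  | zero => exact ⟨0, 0, by simp⟩
  | one => exact ⟨1, 0, by simp⟩
  | add x y _ _ hx hy =>
    obtain ⟨a, b, rfl⟩ := hx
    obtain ⟨c, d, rfl⟩ := hy
    exact ⟨a + c, b + d, by push_cast; ring⟩
  | neg x _ hx =>
    obtain ⟨a, b, rfl⟩ := hx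
    exact ⟨-a, -b, by push_cast; ring⟩
  | mul x y _ _ hx hy =>
    obtain ⟨a, b, rfl⟩ := hx
    obtain ⟨c, d, rfl⟩ := hy
    refine ⟨a * c - b * d, a * d + b * c, ?_⟩
    push_cast
    have : (I : ℂ) * I = -1 := I_mul_I
    linear_combination (b * d : ℂ) * this

lemma Lam_eq {z : ℂ} (hz : z ∈ Lam) : ∃ (M : ℕ) (a b : ℤ), (2 : ℂ) ^ M * z = a + b * I := by
  unfold Lam at hz
  induction hz using Subring.closure_induction with
  | mem x hx =>
    rcases hx with rfl | hx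
    · exact ⟨0, 0, 1, by simp⟩
    · rw [Set.mem_singleton_iff] at hx
      exact ⟨1, 1, 0, by simp [hx]⟩
  | zero => exact ⟨0, 0, 0, by simp⟩
  | one => exact ⟨0, 1, 0, by simp⟩
  | add x y _ _ hx hy =>
    obtain ⟨M, a, b, h1⟩ := hx
    obtain ⟨M', c, d, h2⟩ := hy
    refine ⟨M + M', 2 ^ M' * a + 2 ^ M * c, 2 ^ M' * b + 2 ^ M * d, ?_⟩
    push_cast
    rw [mul_add, pow_add]
    linear_combination (2 : ℂ) ^ M' * h1 + (2 : ℂ) ^ M * h2
  | neg x _ hx =>
    obtain ⟨M, a, b, h1⟩ := hx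
    refine ⟨M, -a, -b, ?_⟩
    push_cast
    linear_combination -h1
  | mul x y _ _ hx hy =>
    obtain ⟨M, a, b, h1⟩ := hx
    obtain ⟨M', c, d, h2⟩ := hy
    refine ⟨M + M', a * c - b * d, a * d + b * c, ?_⟩
    push_cast
    have h3 : (2 : ℂ) ^ (M + M') * (x * y) = ((2 : ℂ) ^ M * x) * ((2 : ℂ) ^ M' * y) := by
      rw [pow_add]; ring
    rw [h3, h1, h2]
    have : (I : ℂ) * I = -1 := I_mul_I
    linear_combination (b * d : ℂ) * this

lemma zpow_mem_of {S : Subring ℂ} {a : ℂ} (h1 : a ∈ S) (h2 : a⁻¹ ∈ S) (e : ℤ) : a ^ e ∈ S := by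
  cases e with
  | ofNat n => simpa using S.pow_mem h1 n
  | negSucc n =>
    rw [zpow_negSucc, ← inv_pow]
    exact S.pow_mem h2 _

/-- Dividing by an integer dividing `L`. -/
lemma mul_div_int_mem {S : Subring ℂ} {L : ℕ} {c : ℂ} {e : ℤ}
    (hc : c ∈ S) (hd : e ≠ 0 → e.natAbs ∣ L) : (L : ℂ) * (c / (e : ℂ)) ∈ S := by
  by_cases he : e = 0
  · simp [he, S.zero_mem]
  · have hdvd : e ∣ (L : ℤ) := by
      rw [← Int.natAbs_dvd_natAbs]; simpa using hd he
    obtain ⟨f, hf⟩ := hdvd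
    have he' : (e : ℂ) ≠ 0 := by exact_mod_cast he
    have hL : (L : ℂ) = (e : ℂ) * (f : ℂ) := by
      have : ((L : ℤ) : ℂ) = ((e * f : ℤ) : ℂ) := by rw [hf]
      simpa using this
    have : (L : ℂ) * (c / (e : ℂ)) = (f : ℂ) * c := by
      rw [hL]; field_simp
    rw [this]
    exact S.mul_mem (intCast_mem S _) hc


/-! ### Values at `1 + i` -/

lemma x0_mem : (1 + I : ℂ) ∈ Lam := Lam.add_mem Lam.one_mem I_mem_Lam

lemma x0_inv_mem : (1 + I : ℂ)⁻¹ ∈ Lam := by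
  have h : (1 + I : ℂ)⁻¹ = (1 - I) * (1 / 2) := by
    apply inv_eq_of_mul_eq_one_right
    have : (I : ℂ) * I = -1 := I_mul_I
    linear_combination (-1 / 2 : ℂ) * this
  rw [h]
  exact Lam.mul_mem (Lam.sub_mem Lam.one_mem I_mem_Lam) half_mem_Lam

lemma uf_x0 : uf (1 + I) = 2 * I - 2 := by
  unfold uf
  have : (I : ℂ) * I = -1 := I_mul_I
  linear_combination this

lemma uf_x0_mem : uf (1 + I) ∈ Lam := by
  rw [uf_x0]
  exact Lam.sub_mem (Lam.mul_mem (by exact_mod_cast natCast_mem Lam 2) I_mem_Lam)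
    (by exact_mod_cast natCast_mem Lam 2)

lemma uf_x0_inv_mem : (uf (1 + I))⁻¹ ∈ Lam := by
  have h : (uf (1 + I))⁻¹ = -((1 + I) * (1 / 2) * (1 / 2)) := by
    rw [uf_x0]
    apply inv_eq_of_mul_eq_one_right
    have : (I : ℂ) * I = -1 := I_mul_I
    linear_combination (-1 / 2 : ℂ) * this
  rw [h]
  exact Lam.neg_mem (Lam.mul_mem (Lam.mul_mem x0_mem half_mem_Lam) half_mem_Lam)

lemma wf_x0 : wf (1 + I) = 2 * I := by
  have h0 : (1 + I : ℂ) ≠ 0 := by
    intro h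
    have := congrArg Complex.re h
    simp at this
  unfold wf
  have : (I : ℂ) * I = -1 := I_mul_I
  field_simp
  linear_combination (-1 : ℂ) * this

lemma wf_x0_mem : wf (1 + I) ∈ Lam := by
  rw [wf_x0]
  exact Lam.mul_mem (by exact_mod_cast natCast_mem Lam 2) I_mem_Lam

lemma wf_x0_inv_mem : (wf (1 + I))⁻¹ ∈ Lam := by
  have h : (wf (1 + I))⁻¹ = -(I * (1 / 2)) := by
    rw [wf_x0]
    apply inv_eq_of_mul_eq_one_right
    have : (I : ℂ) * I = -1 := I_mul_I
    linear_combination (-1 : ℂ) * this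
  rw [h]
  exact Lam.neg_mem (Lam.mul_mem I_mem_Lam half_mem_Lam)

lemma two_pow_mem_Lam (k : ℕ) : ((-2 : ℂ)) ^ k ∈ Lam :=
  Lam.pow_mem (Lam.neg_mem (by exact_mod_cast natCast_mem Lam 2)) k

lemma Apos_x0_mem {L N : ℕ} (hL : ∀ k, 1 ≤ k → k ≤ N → k ∣ L) {j : ℕ} (hj : 2 * j ≤ N) :
    (L : ℂ) * Apos j (1 + I) ∈ Lam := by
  unfold Apos
  rw [mul_sum]
  refine Lam.sum_mem fun k hk => ?_
  have hk' : k ≤ 2 * j := by simpa [Nat.lt_succ_iff] using hk
  set e : ℤ := (2 * j : ℤ) - 2 * k with he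
  have hec : ((2 * j : ℂ) - 2 * k) = (e : ℂ) := by rw [he]; push_cast; ring
  rw [hec]
  have h1 : (L : ℂ) * ((1 + I) ^ e / (e : ℂ)) ∈ Lam := by
    refine mul_div_int_mem (zpow_mem_of x0_mem x0_inv_mem e) fun he0 => hL _ ?_ ?_
    · exact Int.natAbs_pos.mpr he0
    · rw [he]; omega
  have h2 : (L : ℂ) * (((Nat.choose (2 * j) k : ℂ) * (-2) ^ k) * ((1 + I) ^ e / (e : ℂ))) =
      ((Nat.choose (2 * j) k : ℂ) * (-2) ^ k) * ((L : ℂ) * ((1 + I) ^ e / (e : ℂ))) := by ring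
  rw [h2]
  exact Lam.mul_mem (Lam.mul_mem (natCast_mem Lam _) (two_pow_mem_Lam k)) h1

lemma Aneg_x0_mem {L N : ℕ} (hL : ∀ k, 1 ≤ k → k ≤ N → k ∣ L) {l : ℕ} (hl : 2 * l ≤ N) :
    (L : ℂ) * Aneg l (1 + I) ∈ Lam := by
  unfold Aneg
  rw [mul_sum]
  refine Lam.sum_mem fun s hs => ?_
  have hs' : s < l := by simpa using hs
  set e : ℤ := (s : ℤ) - 2 * l + 1 with he
  have hec : ((s : ℂ) - 2 * l + 1) = (e : ℂ) := by rw [he]; push_cast; ring
  rw [hec]
  have h1 : (L : ℂ) * (uf (1 + I) ^ e / (e : ℂ)) ∈ Lam := by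
    refine mul_div_int_mem (zpow_mem_of uf_x0_mem uf_x0_inv_mem e) fun he0 => hL _ ?_ ?_
    · exact Int.natAbs_pos.mpr he0
    · rw [he]; omega
  have h2 : (L : ℂ) * ((1 / 2) * ((Nat.choose (l - 1) s : ℂ) * 2 ^ (l - 1 - s)) *
      (uf (1 + I) ^ e / (e : ℂ))) = ((1 / 2) * ((Nat.choose (l - 1) s : ℂ) * 2 ^ (l - 1 - s))) *
      ((L : ℂ) * (uf (1 + I) ^ e / (e : ℂ))) := by ring
  rw [h2]
  refine Lam.mul_mem (Lam.mul_mem half_mem_Lam (Lam.mul_mem (natCast_mem Lam _) ?_)) h1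
  exact Lam.pow_mem (by exact_mod_cast natCast_mem Lam 2) _

lemma Wb_x0_mem {L N : ℕ} (hL : ∀ k, 1 ≤ k → k ≤ N → k ∣ L) {j : ℤ} (hj : (2 * j + 1).natAbs ≤ N) :
    (L : ℂ) * Wb j (1 + I) ∈ Lam := by
  unfold Wb
  have hec : (2 * (j : ℂ) + 1) = ((2 * j + 1 : ℤ) : ℂ) := by push_cast; ring
  rw [hec]
  refine mul_div_int_mem (zpow_mem_of wf_x0_mem wf_x0_inv_mem _) fun he0 => hL _ ?_ hj
  exact Int.natAbs_pos.mpr he0

/-- First integrality statement: up to powers of two the value at `1 + i` has denominator the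
least common multiple. -/
lemma Gt_x0_mem (E O : ℕ → ℤ) (m d : ℕ) {L N : ℕ} (hL : ∀ k, 1 ≤ k → k ≤ N → k ∣ L)
    (hN1 : 2 * m ≤ N) (hN2 : 2 * (d - m) + 1 ≤ N) :
    (L : ℂ) * Gt E O m d (1 + I) ∈ Lam := by
  unfold Gt
  rw [mul_sum]
  refine Lam.sum_mem fun t ht => ?_
  have ht' : t ≤ d := by simpa [Nat.lt_succ_iff] using ht
  have h1 : (L : ℂ) * Ab t m (1 + I) ∈ Lam := by
    unfold Ab
    by_cases h : m ≤ t
    · simp only [h, if_true]
      exact Apos_x0_mem hL (by omega)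
    · simp only [h, if_false]
      exact Aneg_x0_mem hL (by omega)
  have h2 : (L : ℂ) * Wb ((t : ℤ) - m) (1 + I) ∈ Lam :=
    Wb_x0_mem hL (by omega)
  have h3 : (L : ℂ) * ((E t : ℂ) * Ab t m (1 + I) + (O t : ℂ) * Wb ((t : ℤ) - m) (1 + I)) =
      (E t : ℂ) * ((L : ℂ) * Ab t m (1 + I)) + (O t : ℂ) * ((L : ℂ) * Wb ((t : ℤ) - m) (1 + I)) := by
    ring
  rw [h3]
  exact Lam.add_mem (Lam.mul_mem (intCast_mem Lam _) h1) (Lam.mul_mem (intCast_mem Lam _) h2)

/-! ### Complex conjugation -/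

lemma wf_conj (x : ℂ) : wf ((starRingEnd ℂ) x) = (starRingEnd ℂ) (wf x) := by
  unfold wf; simp [map_sub, map_div₀, map_ofNat]

lemma uf_conj (x : ℂ) : uf ((starRingEnd ℂ) x) = (starRingEnd ℂ) (uf x) := by
  unfold uf; simp [map_sub, map_pow, map_ofNat]

lemma Apos_conj (j : ℕ) (x : ℂ) : Apos j ((starRingEnd ℂ) x) = (starRingEnd ℂ) (Apos j x) := by
  unfold Apos
  rw [map_sum]
  refine sum_congr rfl fun k _ => ?_
  simp [map_mul, map_div₀, map_zpow₀, map_pow, map_sub, map_ofNat]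

lemma Aneg_conj (l : ℕ) (x : ℂ) : Aneg l ((starRingEnd ℂ) x) = (starRingEnd ℂ) (Aneg l x) := by
  unfold Aneg
  rw [map_sum]
  refine sum_congr rfl fun k _ => ?_
  simp only [uf_conj, map_mul, map_div₀, map_zpow₀, map_pow, map_sub, map_add, map_one, map_natCast,
    map_ofNat]

lemma Wb_conj (j : ℤ) (x : ℂ) : Wb j ((starRingEnd ℂ) x) = (starRingEnd ℂ) (Wb j x) := by
  unfold Wb
  simp only [wf_conj, map_mul, map_div₀, map_zpow₀, map_add, map_one, map_intCast, map_ofNat]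

lemma Ab_conj (t m : ℕ) (x : ℂ) : Ab t m ((starRingEnd ℂ) x) = (starRingEnd ℂ) (Ab t m x) := by
  unfold Ab
  by_cases h : m ≤ t
  · simp only [h, if_true, Apos_conj]
  · simp only [h, if_false, Aneg_conj]

lemma Gt_conj (E O : ℕ → ℤ) (m d : ℕ) (x : ℂ) :
    Gt E O m d ((starRingEnd ℂ) x) = (starRingEnd ℂ) (Gt E O m d x) := by
  unfold Gt
  rw [map_sum]
  refine sum_congr rfl fun t _ => ?_
  simp only [Ab_conj, Wb_conj, map_add, map_mul, map_intCast]

lemma Gt_one_im (E O : ℕ → ℤ) (m d : ℕ) : (Gt E O m d 1).im = 0 := by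
  have h := Gt_conj E O m d 1
  rw [map_one] at h
  exact Complex.conj_eq_iff_im.mp h.symm

lemma conj_x0 : (starRingEnd ℂ) (1 + I) = 1 - I := by
  simp [map_add, sub_eq_add_neg]

lemma Gt_diff (E O : ℕ → ℤ) (m d : ℕ) :
    Gt E O m d (1 + I) - Gt E O m d (1 - I) = 2 * I * ((Gt E O m d (1 + I)).im : ℂ) := by
  rw [← conj_x0, Gt_conj]
  apply Complex.ext <;> simp [Complex.mul_re, Complex.mul_im]
  ring

/-! ### The coordinate at the base point `1 - i` -/

/-- `1 - i`. -/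
def kap : ℂ := 1 - I

/-- The linear coordinate sending `0, 1` to `1 - i, 1 + i`. -/
def Xz (z : ℂ) : ℂ := kap * (1 - kap * z)

/-- `1 - κ ζ`. -/
def p1 (z : ℂ) : ℂ := 1 - kap * z

/-- `1 - 2 ζ + κ ζ ^ 2`. -/
def p2 (z : ℂ) : ℂ := 1 - 2 * z + kap * z ^ 2

lemma kap_ne : kap ≠ 0 := by
  intro h
  have := congrArg Complex.re h
  simp [kap] at this

lemma Xz_eq (z : ℂ) : Xz z = kap * p1 z := rfl

lemma Xz_zero : Xz 0 = 1 - I := by simp [Xz, kap]

lemma Xz_one : Xz 1 = 1 + I := by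
  have : (I : ℂ) * I = -1 := I_mul_I
  simp only [Xz, kap]
  linear_combination (-1 : ℂ) * this

lemma uf_Xz (z : ℂ) : uf (Xz z) = -2 * (1 + I) * p2 z := by
  have : (I : ℂ) * I = -1 := I_mul_I
  have h3 : (I : ℂ) ^ 3 = -I := by rw [pow_succ, pow_two, this]; ring
  have h4 : (I : ℂ) ^ 4 = 1 := by rw [pow_succ, h3]; linear_combination (-1 : ℂ) * this
  simp only [uf, Xz, kap, p2]
  have h2 : (I : ℂ) ^ 2 = -1 := I_sq
  ring_nf
  simp only [h2, h3, h4]
  ring

lemma wf_Xz (z : ℂ) (h1 : p1 z ≠ 0) : wf (Xz z) = (-2 * I) * (p2 z * (p1 z)⁻¹) := by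
  have hX : Xz z ≠ 0 := by rw [Xz_eq]; exact mul_ne_zero kap_ne h1
  rw [wf_eq _ hX, uf_Xz, Xz_eq]
  have e : -2 * (1 + I) = (-2 * I) * kap := by
    have : (I : ℂ) * I = -1 := I_mul_I
    simp only [kap]
    linear_combination (-2 : ℂ) * this
  rw [e]
  field_simp [kap_ne]

lemma hasDerivAt_Xz (z : ℂ) : HasDerivAt Xz (-(kap ^ 2)) z := by
  have h1 : HasDerivAt (fun y : ℂ => kap * (1 - kap * y)) (kap * (0 - kap * 1)) z :=
    ((hasDerivAt_const z (1 : ℂ)).sub ((hasDerivAt_id z).const_mul kap)).const_mul kap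
  refine h1.congr_deriv ?_
  ring

/-- `1 - κ ζ` as a polynomial. -/
def P1 : Polynomial ℂ := 1 - Polynomial.C kap * Polynomial.X

/-- `1 - 2 ζ + κ ζ ^ 2` as a polynomial. -/
def P2 : Polynomial ℂ :=
  1 - Polynomial.C 2 * Polynomial.X + Polynomial.C kap * Polynomial.X ^ 2

lemma eval_P1 (z : ℂ) : P1.eval z = p1 z := by simp [P1, p1]

lemma eval_P2 (z : ℂ) : P2.eval z = p2 z := by simp [P2, p2]

lemma natDegree_P1 : P1.natDegree ≤ 1 := by
  unfold P1; compute_degree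

lemma natDegree_P2 : P2.natDegree ≤ 2 := by
  unfold P2; compute_degree

/-- Functions of the coordinate which are a polynomial of bounded degree over `(p1 p2) ^ K`. -/
def InS (K D : ℕ) (f : ℂ → ℂ) : Prop :=
  ∃ N : Polynomial ℂ, N.natDegree ≤ D ∧ ∀ z, p1 z ≠ 0 → p2 z ≠ 0 →
    f z = N.eval z / (p1 z ^ K * p2 z ^ K)

lemma InS.add {K D : ℕ} {f g : ℂ → ℂ} (hf : InS K D f) (hg : InS K D g) :
    InS K D (fun z => f z + g z) := by
  obtain ⟨N, hN, h1⟩ := hf
  obtain ⟨N', hN', h2⟩ := hg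
  refine ⟨N + N', (Polynomial.natDegree_add_le _ _).trans (max_le hN hN'), fun z h3 h4 => ?_⟩
  show f z + g z = _
  rw [h1 z h3 h4, h2 z h3 h4, Polynomial.eval_add, add_div]

lemma InS.const_mul {K D : ℕ} {f : ℂ → ℂ} (hf : InS K D f) (c : ℂ) :
    InS K D (fun z => c * f z) := by
  obtain ⟨N, hN, h1⟩ := hf
  refine ⟨Polynomial.C c * N, (Polynomial.natDegree_C_mul_le _ _).trans hN, fun z h3 h4 => ?_⟩
  show c * f z = _
  rw [h1 z h3 h4, Polynomial.eval_mul, Polynomial.eval_C, mul_div_assoc]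

lemma InS.zero (K D : ℕ) : InS K D (fun _ => 0) :=
  ⟨0, by simp, fun z _ _ => by simp⟩

lemma InS.sum {K D : ℕ} {ι : Type*} (s : Finset ι) (f : ι → ℂ → ℂ) (h : ∀ i ∈ s, InS K D (f i)) :
    InS K D (fun z => ∑ i ∈ s, f i z) := by
  classical
  induction s using Finset.induction_on with
  | empty => simpa using InS.zero K D
  | insert a s ha ih =>
    have h1 := h a (mem_insert_self a s)
    have h2 := ih (fun i hi => h i (mem_insert_of_mem hi))
    have := h1.add h2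
    simpa [sum_insert ha] using this

lemma InS.mono {K : ℕ} {f : ℂ → ℂ} (c : ℂ) (a b : ℤ) (ha1 : -(K : ℤ) ≤ a) (ha2 : a ≤ K)
    (hb1 : -(K : ℤ) ≤ b) (hb2 : b ≤ K)
    (hf : ∀ z, p1 z ≠ 0 → p2 z ≠ 0 → f z = c * (p1 z ^ a * p2 z ^ b)) : InS K (6 * K) f := by
  obtain ⟨a', ha'⟩ : ∃ a' : ℕ, (a' : ℤ) = a + K := ⟨(a + K).toNat, by omega⟩
  obtain ⟨b', hb'⟩ : ∃ b' : ℕ, (b' : ℤ) = b + K := ⟨(b + K).toNat, by omega⟩
  refine ⟨Polynomial.C c * (P1 ^ a' * P2 ^ b'), ?_, fun z h3 h4 => ?_⟩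
  · refine (Polynomial.natDegree_C_mul_le _ _).trans ?_
    refine Polynomial.natDegree_mul_le.trans ?_
    have h5 : (P1 ^ a').natDegree ≤ a' * 1 := Polynomial.natDegree_pow_le_of_le _ natDegree_P1
    have h6 : (P2 ^ b').natDegree ≤ b' * 2 := Polynomial.natDegree_pow_le_of_le _ natDegree_P2
    omega
  · rw [hf z h3 h4]
    simp only [Polynomial.eval_mul, Polynomial.eval_C, Polynomial.eval_pow, eval_P1, eval_P2]
    have e1 : a = (a' : ℤ) - K := by omega
    have e2 : b = (b' : ℤ) - K := by omega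
    rw [e1, e2, zpow_sub₀ h3, zpow_sub₀ h4, zpow_natCast, zpow_natCast, zpow_natCast, zpow_natCast]
    field_simp

lemma Apos_InS {K j : ℕ} (hj : 2 * j ≤ K) : InS K (6 * K) (fun z => Apos j (Xz z)) := by
  unfold Apos
  refine InS.sum _ _ fun k hk => ?_
  have hk' : k ≤ 2 * j := by simpa [Nat.lt_succ_iff] using hk
  refine InS.mono ((((Nat.choose (2 * j) k : ℂ) * (-2) ^ k) * (kap ^ ((2 * j : ℤ) - 2 * k) /
    ((2 * j : ℂ) - 2 * k)))) ((2 * j : ℤ) - 2 * k) 0 (by omega) (by omega) (by omega) (by omega) ?_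
  intro z _ _
  rw [Xz_eq, mul_zpow]
  simp only [zpow_zero, mul_one]
  ring

lemma Aneg_InS {K l : ℕ} (hl : 2 * l ≤ K) : InS K (6 * K) (fun z => Aneg l (Xz z)) := by
  unfold Aneg
  refine InS.sum _ _ fun s hs => ?_
  have hs' : s < l := by simpa using hs
  refine InS.mono ((1 / 2) * ((Nat.choose (l - 1) s : ℂ) * 2 ^ (l - 1 - s)) *
    ((-2 * (1 + I)) ^ ((s : ℤ) - 2 * l + 1) / ((s : ℂ) - 2 * l + 1))) 0 ((s : ℤ) - 2 * l + 1)
    (by omega) (by omega) (by omega) (by omega) ?_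
  intro z _ _
  rw [uf_Xz, mul_zpow]
  simp only [zpow_zero, one_mul]
  ring

lemma Wb_InS {K : ℕ} {j : ℤ} (hj : (2 * j + 1).natAbs ≤ K) :
    InS K (6 * K) (fun z => Wb j (Xz z)) := by
  unfold Wb
  refine InS.mono ((-2 * I) ^ (2 * j + 1) / (2 * (j : ℂ) + 1)) (-(2 * j + 1)) (2 * j + 1)
    (by omega) (by omega) (by omega) (by omega) ?_
  intro z h1 _
  rw [wf_Xz z h1, mul_zpow (-2 * I), mul_zpow (p2 z), inv_zpow, zpow_neg]
  ring

lemma Gt_InS (E O : ℕ → ℤ) (m d : ℕ) {K : ℕ} (hN1 : 2 * m ≤ K) (hN2 : 2 * (d - m) + 1 ≤ K) :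
    InS K (6 * K) (fun z => Gt E O m d (Xz z)) := by
  unfold Gt
  refine InS.sum _ _ fun t ht => ?_
  have ht' : t ≤ d := by simpa [Nat.lt_succ_iff] using ht
  have h1 : InS K (6 * K) (fun z => Ab t m (Xz z)) := by
    unfold Ab
    by_cases h : m ≤ t
    · simp only [h, if_true]
      exact Apos_InS (by omega)
    · simp only [h, if_false]
      exact Aneg_InS (by omega)
  have h2 : InS K (6 * K) (fun z => Wb ((t : ℤ) - m) (Xz z)) := Wb_InS (by omega)
  exact (h1.const_mul _).add (h2.const_mul _)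


/-! ### Polynomials with Gaussian integer coefficients -/

/-- All coefficients are Gaussian integers. -/
def GamPoly (p : Polynomial ℂ) : Prop := ∀ k, p.coeff k ∈ Gam

lemma GamPoly.mul {p q : Polynomial ℂ} (hp : GamPoly p) (hq : GamPoly q) : GamPoly (p * q) := by
  intro k
  rw [Polynomial.coeff_mul]
  exact Gam.sum_mem fun x _ => Gam.mul_mem (hp _) (hq _)

lemma GamPoly.add {p q : Polynomial ℂ} (hp : GamPoly p) (hq : GamPoly q) : GamPoly (p + q) := by
  intro k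
  rw [Polynomial.coeff_add]
  exact Gam.add_mem (hp _) (hq _)

lemma GamPoly.sub {p q : Polynomial ℂ} (hp : GamPoly p) (hq : GamPoly q) : GamPoly (p - q) := by
  intro k
  rw [Polynomial.coeff_sub]
  exact Gam.sub_mem (hp _) (hq _)

lemma GamPoly.C {c : ℂ} (hc : c ∈ Gam) : GamPoly (Polynomial.C c) := by
  intro k
  rw [Polynomial.coeff_C]
  split_ifs
  · exact hc
  · exact Gam.zero_mem

lemma GamPoly.X : GamPoly (Polynomial.X : Polynomial ℂ) := by
  intro k
  rw [Polynomial.coeff_X]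
  split_ifs
  · exact Gam.one_mem
  · exact Gam.zero_mem

lemma GamPoly.one : GamPoly (1 : Polynomial ℂ) := by
  have := GamPoly.C (c := 1) Gam.one_mem
  simpa using this

lemma GamPoly.pow {p : Polynomial ℂ} (hp : GamPoly p) (n : ℕ) : GamPoly (p ^ n) := by
  induction n with
  | zero => simpa using GamPoly.one
  | succ n ih => rw [pow_succ]; exact ih.mul hp

lemma kap_mem : kap ∈ Gam := Gam.sub_mem Gam.one_mem I_mem_Gam

lemma GamPoly_P1 : GamPoly P1 :=
  GamPoly.one.sub ((GamPoly.C kap_mem).mul GamPoly.X)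

lemma two_mem_Gam : (2 : ℂ) ∈ Gam := by exact_mod_cast natCast_mem Gam 2

lemma GamPoly_P2 : GamPoly P2 :=
  (GamPoly.one.sub ((GamPoly.C two_mem_Gam).mul GamPoly.X)).add
    ((GamPoly.C kap_mem).mul (GamPoly.X.pow 2))

lemma coeff_zero_eq_eval (p : Polynomial ℂ) : p.coeff 0 = p.eval 0 :=
  Polynomial.coeff_zero_eq_eval_zero p

lemma p1_zero : p1 0 = 1 := by simp [p1]
lemma p2_zero : p2 0 = 1 := by simp [p2]

/-- Second integrality statement: the difference of the rational part at the two end points has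
denominator only a common multiple of all small numbers. -/
theorem ratpart_mem (E O : ℕ → ℤ) (m d K L : ℕ) (Num Den : Polynomial ℂ)
    (hN1 : 2 * m ≤ K) (hN2 : 2 * (d - m) + 1 ≤ K)
    (hL : ∀ k, 1 ≤ k → k ≤ 6 * K → k ∣ L)
    (hNum : GamPoly Num) (hDen : GamPoly Den) (hDen0 : Den.coeff 0 = 1)
    (hB : ∀ z, p1 z ≠ 0 → p2 z ≠ 0 → Den.eval z ≠ 0 ∧
      Bf E O m d (Xz z) = Num.eval z / Den.eval z) :
    (L : ℂ) * (Gt E O m d (1 + I) - Gt E O m d (1 - I)) ∈ Gam := by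
  set c0 : ℂ := Gt E O m d (Xz 0) with hc0
  set f : ℂ → ℂ := fun z => Gt E O m d (Xz z) + (-c0) with hf
  have hfS : InS K (6 * K) f := by
    refine (Gt_InS E O m d hN1 hN2).add (InS.mono (-c0) 0 0 (by omega) (by omega) (by omega)
      (by omega) ?_)
    intro z _ _
    simp
  obtain ⟨N, hNdeg, hNf⟩ := hfS
  set P : Polynomial ℂ := P1 ^ K * P2 ^ K with hP
  have hPeval : ∀ z, P.eval z = p1 z ^ K * p2 z ^ K := by
    intro z
    simp [hP, eval_P1, eval_P2]
  set q : ℂ := (qv E m d : ℂ) with hq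
  set E₁ : Polynomial ℂ := Den * P1 with hE₁
  set E₂ : Polynomial ℂ := (Num - Polynomial.C q * Den) * Polynomial.C (-kap) with hE₂
  have hp0ne : p1 0 ≠ 0 := by rw [p1_zero]; exact one_ne_zero
  have hp0ne2 : p2 0 ≠ 0 := by rw [p2_zero]; exact one_ne_zero
  -- the polynomial identity
  have hid : (Polynomial.derivative N * P - N * Polynomial.derivative P) * E₁ = P ^ 2 * E₂ := by
    set W : Polynomial ℂ := P1 * P2 * Den with hW
    have hW0 : W ≠ 0 := by
      intro h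
      have h1 : W.eval 0 = 0 := by rw [h]; simp
      have h2 : Den.eval 0 = 1 := by rw [← coeff_zero_eq_eval, hDen0]
      rw [hW, Polynomial.eval_mul, Polynomial.eval_mul, eval_P1, eval_P2, p1_zero, p2_zero, h2] at h1
      simp at h1
    apply Polynomial.eq_of_infinite_eval_eq
    have hfin : Set.Finite {z | Polynomial.IsRoot W z} := Polynomial.finite_setOfPred_isRoot hW0
    refine (hfin.infinite_compl).mono ?_
    intro z hz
    have hz' : W.eval z ≠ 0 := hz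
    rw [hW, Polynomial.eval_mul, Polynomial.eval_mul, eval_P1, eval_P2] at hz'
    have h1 : p1 z ≠ 0 := fun h => hz' (by rw [h]; simp)
    have h2 : p2 z ≠ 0 := fun h => hz' (by rw [h]; simp)
    have h3 : Den.eval z ≠ 0 := fun h => hz' (by rw [h]; simp)
    obtain ⟨_, hBz⟩ := hB z h1 h2
    have hXne : Xz z ≠ 0 := by rw [Xz_eq]; exact mul_ne_zero kap_ne h1
    have huXne : uf (Xz z) ≠ 0 := by
      rw [uf_Xz]
      refine mul_ne_zero (mul_ne_zero (by norm_num) ?_) h2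
      intro h
      have := congrArg Complex.re h
      simp at this
    have hd1 : HasDerivAt f
        ((Bf E O m d (Xz z) - q) / Xz z * (-(kap ^ 2))) z := by
      have h4 := (hasDerivAt_Gt E O m d hXne huXne).comp z (hasDerivAt_Xz z)
      have h5 := h4.add_const (-c0)
      exact h5
    have hPne : P.eval z ≠ 0 := by
      rw [hPeval]; exact mul_ne_zero (pow_ne_zero _ h1) (pow_ne_zero _ h2)
    have hd2 : HasDerivAt (fun w => N.eval w / P.eval w)
        (((Polynomial.derivative N).eval z * P.eval z - N.eval z * (Polynomial.derivative P).eval z)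
          / (P.eval z) ^ 2) z :=
      (N.hasDerivAt z).div (P.hasDerivAt z) hPne
    have hev : f =ᶠ[nhds z] fun w => N.eval w / P.eval w := by
      have hc1 : ContinuousAt p1 z := by
        have : p1 = fun w => P1.eval w := by funext w; rw [eval_P1]
        rw [this]; exact P1.continuousAt
      have hc2 : ContinuousAt p2 z := by
        have : p2 = fun w => P2.eval w := by funext w; rw [eval_P2]
        rw [this]; exact P2.continuousAt
      filter_upwards [hc1.eventually_ne h1, hc2.eventually_ne h2] with w hw1 hw2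
      rw [hNf w hw1 hw2, hPeval]
    have hd3 := hd2.congr_of_eventuallyEq hev
    have huniq := hd1.unique hd3
    rw [hBz, Xz_eq] at huniq
    have hk := kap_ne
    simp only [Set.mem_ofPred_eq, Polynomial.eval_mul, Polynomial.eval_sub, Polynomial.eval_pow,
      Polynomial.eval_C, hE₁, hE₂, eval_P1]
    field_simp at huniq
    linear_combination -huniq
  have hP0 : P.coeff 0 = 1 := by
    rw [coeff_zero_eq_eval, hPeval, p1_zero, p2_zero]; simp
  have hPG : GamPoly P := (GamPoly_P1.pow K).mul (GamPoly_P2.pow K)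
  have hE10 : E₁.coeff 0 = 1 := by
    rw [coeff_zero_eq_eval, hE₁, Polynomial.eval_mul, eval_P1, p1_zero, ← coeff_zero_eq_eval, hDen0]
    simp
  have hE1G : GamPoly E₁ := hDen.mul GamPoly_P1
  have hqmem : q ∈ Gam := intCast_mem Gam _
  have hE2G : GamPoly E₂ :=
    (hNum.sub ((GamPoly.C hqmem).mul hDen)).mul (GamPoly.C (Gam.neg_mem kap_mem))
  have hN0 : N.coeff 0 = 0 := by
    have h1 := hNf 0 hp0ne hp0ne2
    have h2 : f 0 = 0 := by
      simp only [hf]
      rw [← hc0]; ring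
    rw [h2, p1_zero, p2_zero] at h1
    simp only [one_pow, mul_one, div_one] at h1
    rw [coeff_zero_eq_eval]
    exact h1.symm
  have hcoef := taylor_integrality Gam N P E₁ E₂ (6 * K) L hL hNdeg hPG hP0 hE1G hE10 hE2G hN0 hid
  have hval : (L : ℂ) * N.eval 1 ∈ Gam := by
    rw [Polynomial.eval_eq_sum_range, mul_sum]
    refine Gam.sum_mem fun j _ => ?_
    simpa using hcoef j
  have hp11 : p1 1 = I := by simp [p1, kap]
  have hp21 : p2 1 = -I := by simp only [p2, kap]; ring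
  have hp11ne : p1 1 ≠ 0 := by rw [hp11]; exact I_ne_zero
  have hp21ne : p2 1 ≠ 0 := by rw [hp21]; exact neg_ne_zero.mpr I_ne_zero
  have hf1 := hNf 1 hp11ne hp21ne
  have hprod : p1 1 ^ K * p2 1 ^ K = 1 := by
    rw [← mul_pow, hp11, hp21]
    have : (I : ℂ) * -I = 1 := by
      have h : (I : ℂ) * I = -1 := I_mul_I
      linear_combination (-1 : ℂ) * h
    rw [this, one_pow]
  rw [hprod, div_one] at hf1
  have hf1' : f 1 = Gt E O m d (1 + I) - Gt E O m d (1 - I) := by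
    simp only [hf, hc0, Xz_one, Xz_zero]; ring
  rw [← hf1', hf1]
  exact hval

end

end Vale.Agent.Lib.P021
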