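import Mathlib

/-! The triangle function and its transform. -/

namespace Vale.Agent.Lib.P021.WI

open Complex MeasureTheory Set Filter Topology

noncomputable section

/-- The transform of the triangle function. -/
def Kf (u : ℝ) : ℝ := if u = 0 then 1 else 2 * (1 - Real.cos u) / u ^ 2

lemma Kf_nonneg (u : ℝ) : 0 ≤ Kf u := by
  unfold Kf
  split_ifs with h
  · norm_num
  · have := Real.cos_le_one u
    apply div_nonneg
    · linarith
    · positivity

lemma measurable_Kf : Measurable Kf := by
  unfold Kf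
  refine Measurable.ite (measurableSet_singleton 0) measurable_const ?_
  fun_prop

lemma Kf_le (u : ℝ) : Kf u ≤ 8 * (1 + u ^ 2)⁻¹ := by
  have hpos : 0 < 1 + u ^ 2 := by positivity
  unfold Kf
  split_ifs with h
  · subst h; norm_num
  · have hu : 0 < u ^ 2 := by positivity
    have h1 : 2 * (1 - Real.cos u) / u ^ 2 ≤ 8 * (1 + u ^ 2)⁻¹ := by
      rw [div_le_iff₀ hu, ← div_eq_mul_inv, div_mul_eq_mul_div, le_div_iff₀ hpos]
      -- two bounds for `1 - cos u`
      have h2 := Real.cos_le_one u
      have h3 := Real.neg_one_le_cos u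
      have h4 : 1 - Real.cos u ≤ u ^ 2 / 2 := by
        have := Real.one_sub_sq_div_two_le_cos (x := u)
        linarith
      nlinarith [sq_nonneg u]
    exact h1

lemma integrable_Kf : Integrable Kf := by
  refine Integrable.mono' (integrable_inv_one_add_sq.const_mul 8)
    measurable_Kf.aestronglyMeasurable ?_
  filter_upwards with u
  rw [Real.norm_of_nonneg (Kf_nonneg u)]
  exact Kf_le u

lemma integral_Kf_pos : 0 < ∫ u, Kf u := by
  rw [integral_pos_iff_support_of_nonneg Kf_nonneg integrable_Kf]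
  have hsub : Ioo (0 : ℝ) 1 ⊆ Function.support Kf := by
    intro u hu
    rw [Function.mem_support]
    unfold Kf
    rw [if_neg hu.1.ne']
    have h1 : Real.cos u < 1 := by
      have := Real.cos_lt_cos_of_nonneg_of_le_pi (le_refl 0) (by linarith [hu.2, Real.pi_gt_three])
        hu.1
      simpa using this
    have h2 : 0 < 2 * (1 - Real.cos u) / u ^ 2 := by
      have := hu.1
      apply div_pos
      · linarith
      · positivity
    exact h2.ne'
  have h3 : (0 : ENNReal) < volume (Ioo (0 : ℝ) 1) := by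
    rw [Real.volume_Ioo]; norm_num
  exact lt_of_lt_of_le h3 (measure_mono hsub)

/-- Integral of a linear function times an exponential. -/
lemma integral_lin_exp {a : ℂ} (ha : a ≠ 0) (b c : ℂ) (p q : ℝ) :
    ∫ y in p..q, (b + c * (y : ℂ)) * cexp (a * y) =
      ((b + c * (q : ℂ)) * cexp (a * q) / a - c * cexp (a * q) / a ^ 2) -
      ((b + c * (p : ℂ)) * cexp (a * p) / a - c * cexp (a * p) / a ^ 2) := by
  refine intervalIntegral.integral_eq_sub_of_hasDerivAt (f := fun y : ℝ =>
      (b + c * (y : ℂ)) * cexp (a * y) / a - c * cexp (a * y) / a ^ 2) (fun y _ => ?_) ?_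
  · have h1 : HasDerivAt (fun y : ℂ => cexp (a * y)) (cexp (a * y) * (a * 1)) (y : ℂ) :=
      ((hasDerivAt_id (y : ℂ)).const_mul a).cexp
    have h2 : HasDerivAt (fun y : ℂ => b + c * y) (c * 1) (y : ℂ) :=
      ((hasDerivAt_id (y : ℂ)).const_mul c).const_add b
    have h3 := ((h2.mul h1).div_const a).sub ((h1.const_mul c).div_const (a ^ 2))
    have h4 := h3.comp_ofReal
    refine h4.congr_deriv ?_
    field_simp
    ring
  · apply Continuous.intervalIntegrable
    fun_prop

lemma cexp_add_neg (u : ℝ) :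
    cexp (I * u) + cexp (-(I * u)) = 2 * (Real.cos u : ℂ) := by
  have h := Complex.two_cos (u : ℂ)
  rw [Complex.ofReal_cos, h]
  ring_nf

/-- The integral of the triangle function against an exponential. -/
lemma integral_tri (u : ℝ) :
    ∫ y in (-1 : ℝ)..1, ((1 - |y| : ℝ) : ℂ) * cexp (I * y * u) = (Kf u : ℂ) := by
  have hint : ∀ p q : ℝ, IntervalIntegrable
      (fun y : ℝ => ((1 - |y| : ℝ) : ℂ) * cexp (I * y * u)) volume p q := by
    intro p q
    apply Continuous.intervalIntegrable
    fun_prop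
  rw [← intervalIntegral.integral_add_adjacent_intervals (hint (-1) 0) (hint 0 1)]
  have e1 : ∫ y in (-1 : ℝ)..0, ((1 - |y| : ℝ) : ℂ) * cexp (I * y * u) =
      ∫ y in (-1 : ℝ)..0, (1 + 1 * (y : ℂ)) * cexp ((I * u) * y) := by
    refine intervalIntegral.integral_congr fun y hy => ?_
    have hy' : y ≤ 0 := by
      rw [uIcc_of_le (by norm_num)] at hy
      exact hy.2
    simp only [abs_of_nonpos hy']
    push_cast
    ring_nf
  have e2 : ∫ y in (0 : ℝ)..1, ((1 - |y| : ℝ) : ℂ) * cexp (I * y * u) =
      ∫ y in (0 : ℝ)..1, (1 + (-1) * (y : ℂ)) * cexp ((I * u) * y) := by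
    refine intervalIntegral.integral_congr fun y hy => ?_
    have hy' : 0 ≤ y := by
      rw [uIcc_of_le (by norm_num)] at hy
      exact hy.1
    simp only [abs_of_nonneg hy']
    push_cast
    ring_nf
  rw [e1, e2]
  by_cases hu : u = 0
  · subst hu
    simp only [ofReal_zero, mul_zero, zero_mul, Complex.exp_zero, mul_one]
    have h1 : ∫ y in (-1 : ℝ)..0, (1 + 1 * (y : ℂ)) = 1 / 2 := by
      have : ∀ y : ℝ, (1 + 1 * (y : ℂ)) = ((1 + y : ℝ) : ℂ) := by
        intro y; push_cast; ring
      simp_rw [this]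
      rw [intervalIntegral.integral_ofReal]
      have : ∫ y in (-1 : ℝ)..0, (1 + y) = 1 / 2 := by
        rw [intervalIntegral.integral_add (by simp) (by simp)]
        simp
        norm_num
      rw [this]
      norm_num
    have h2 : ∫ y in (0 : ℝ)..1, (1 + (-1) * (y : ℂ)) = 1 / 2 := by
      have : ∀ y : ℝ, (1 + (-1) * (y : ℂ)) = ((1 - y : ℝ) : ℂ) := by
        intro y; push_cast; ring
      simp_rw [this]
      rw [intervalIntegral.integral_ofReal]
      have : ∫ y in (0 : ℝ)..1, (1 - y) = 1 / 2 := by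
        rw [intervalIntegral.integral_sub (by simp) (by simp)]
        simp
        norm_num
      rw [this]
      norm_num
    rw [h1, h2]
    simp [Kf]
    norm_num
  · have ha : (I * (u : ℂ)) ≠ 0 := mul_ne_zero I_ne_zero (by exact_mod_cast hu)
    rw [integral_lin_exp ha, integral_lin_exp ha]
    have hu' : (u : ℂ) ≠ 0 := by exact_mod_cast hu
    unfold Kf
    rw [if_neg hu]
    push_cast
    have e3 := cexp_add_neg u
    push_cast at e3
    have hI : (I : ℂ) ^ 2 = -1 := I_sq
    simp only [mul_neg, mul_one, ofReal_neg, ofReal_one, ofReal_zero, mul_zero, Complex.exp_zero,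
      neg_mul, one_mul, add_zero]
    have e4 : cexp (-(I * (u : ℂ))) = 2 * Complex.cos (u : ℂ) - cexp (I * u) := by
      linear_combination e3
    rw [e4]
    field_simp
    rw [hI]
    ring_nf

/-- The scaled triangle function. -/
def Tri (l y : ℝ) : ℝ := 1 - |y| / l

lemma integral_tri_scale {l : ℝ} (hl : 0 < l) (w : ℝ) :
    ∫ y in (-l)..l, ((Tri l y : ℝ) : ℂ) * cexp (I * y * w) = ((l * Kf (l * w) : ℝ) : ℂ) := by
  have h := intervalIntegral.smul_integral_comp_mul_left
    (f := fun y : ℝ => ((Tri l y : ℝ) : ℂ) * cexp (I * y * w)) (a := -1) (b := 1) l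
  simp only [mul_neg, mul_one] at h
  rw [← h]
  have e : ∀ v : ℝ, ((Tri l (l * v) : ℝ) : ℂ) * cexp (I * ((l * v : ℝ) : ℂ) * w) =
      ((1 - |v| : ℝ) : ℂ) * cexp (I * v * ((l * w : ℝ) : ℂ)) := by
    intro v
    unfold Tri
    rw [abs_mul, abs_of_pos hl]
    have : l * |v| / l = |v| := by field_simp
    rw [this]
    congr 2
    push_cast
    ring
  simp_rw [e]
  rw [integral_tri]
  simp

end

end Vale.Agent.Lib.P021.WI
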