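import Vale.Agent.Lib.P021.WIKernel

/-! The Laplace transform of the normalized summatory function of the von Mangoldt function. -/

namespace Vale.Agent.Lib.P021.WI

open Complex MeasureTheory Set Filter Topology

noncomputable section

/-- The summatory function in the exponential coordinate, normalized. -/
def Aa (t : ℝ) : ℝ := Real.exp (-t) * Chebyshev.psi (Real.exp t)

/-- The deviation from the expected value. -/
def ff (t : ℝ) : ℝ := Aa t - 1

lemma measurable_psi : Measurable Chebyshev.psi := Chebyshev.psi_mono.measurable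

lemma measurable_Aa : Measurable Aa := by
  unfold Aa
  exact (Real.measurable_exp.comp measurable_neg).mul (measurable_psi.comp Real.measurable_exp)

lemma measurable_ff : Measurable ff := measurable_Aa.sub_const 1

/-- The constant in the bound for `ff`. -/
def Cc : ℝ := Real.log 4 + 5

lemma Cc_pos : 0 < Cc := by
  unfold Cc
  have : 0 < Real.log 4 := Real.log_pos (by norm_num)
  linarith

lemma Aa_nonneg (t : ℝ) : 0 ≤ Aa t := mul_nonneg (Real.exp_pos _).le (Chebyshev.psi_nonneg _)

lemma Aa_le (t : ℝ) : Aa t ≤ Real.log 4 + 4 := by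
  unfold Aa
  have h := Chebyshev.psi_le_const_mul_self (Real.exp_pos t).le
  have h2 : Real.exp (-t) * Real.exp t = 1 := by rw [← Real.exp_add]; simp
  calc Real.exp (-t) * Chebyshev.psi (Real.exp t)
      ≤ Real.exp (-t) * ((Real.log 4 + 4) * Real.exp t) := by gcongr
    _ = (Real.log 4 + 4) * (Real.exp (-t) * Real.exp t) := by ring
    _ = _ := by rw [h2, mul_one]

lemma abs_ff_le (t : ℝ) : |ff t| ≤ Cc := by
  unfold ff Cc
  have h1 := Aa_nonneg t
  have h2 := Aa_le t
  have h3 : 0 < Real.log 4 := Real.log_pos (by norm_num)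
  rw [abs_le]
  constructor <;> linarith

/-- The von Mangoldt function with complex values. -/
def LamC (n : ℕ) : ℂ := ((ArithmeticFunction.vonMangoldt n : ℝ) : ℂ)

/-- The continuous extension. -/
def Gz (s : ℂ) : ℂ := ArithmeticFunction.vonMangoldt.LFunctionResidueClassAux (q := 1) (1 : ZMod 1) s

lemma Gz_cont : ContinuousOn Gz {s | 1 ≤ s.re} :=
  ArithmeticFunction.vonMangoldt.continuousOn_LFunctionResidueClassAux _

lemma Gz_eq {s : ℂ} (hs : 1 < s.re) : Gz s = LSeries LamC s - 1 / (s - 1) := by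
  have h := ArithmeticFunction.vonMangoldt.eqOn_LFunctionResidueClassAux (q := 1) (a := 1)
    isUnit_one hs
  have e : (fun n : ℕ => ((ArithmeticFunction.vonMangoldt.residueClass (1 : ZMod 1) n : ℝ) : ℂ)) =
      LamC := by
    funext n
    unfold LamC
    congr 1
    simp [ArithmeticFunction.vonMangoldt.residueClass, Set.indicator, Subsingleton.elim (n : ZMod 1) 1]
  unfold Gz
  rw [h]
  simp only
  rw [e]
  simp

lemma sum_Icc_psi (t : ℝ) :
    (Finset.Icc 1 ⌊t⌋₊).sum LamC = ((Chebyshev.psi t : ℝ) : ℂ) := by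
  unfold Chebyshev.psi LamC
  push_cast
  rfl

lemma psi_bigO : (fun n : ℕ => ∑ k ∈ Finset.Icc 1 n, ArithmeticFunction.vonMangoldt k) =O[atTop]
    fun n : ℕ => (n : ℝ) ^ (1 : ℝ) := by
  refine Asymptotics.IsBigO.of_bound (Real.log 4 + 4) ?_
  filter_upwards with n
  have e : ∑ k ∈ Finset.Icc 1 n, ArithmeticFunction.vonMangoldt k = Chebyshev.psi n := by
    unfold Chebyshev.psi
    rw [Nat.floor_natCast]
    rfl
  rw [e, Real.norm_of_nonneg (Chebyshev.psi_nonneg _), Real.rpow_one,
    Real.norm_of_nonneg (Nat.cast_nonneg n)]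
  exact Chebyshev.psi_le_const_mul_self (Nat.cast_nonneg n)

lemma image_exp_Ioi : Real.exp '' Ioi (0 : ℝ) = Ioi 1 := by
  ext u
  constructor
  · rintro ⟨t, ht, rfl⟩
    exact Real.one_lt_exp_iff.mpr ht
  · intro hu
    have hu' : (1 : ℝ) < u := hu
    refine ⟨Real.log u, Real.log_pos hu', Real.exp_log (by linarith)⟩

lemma cpow_exp (t : ℝ) (z : ℂ) : (((Real.exp t : ℝ) : ℂ)) ^ z = cexp (t * z) := by
  rw [Complex.cpow_def_of_ne_zero (by exact_mod_cast (Real.exp_pos t).ne'), ← Complex.ofReal_log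
    (Real.exp_pos t).le, Real.log_exp]

/-- The L-series as a Laplace transform. -/
lemma laplace_psi {s : ℂ} (hs : 1 < s.re) :
    ∫ t in Ioi (0 : ℝ), ((Chebyshev.psi (Real.exp t) : ℝ) : ℂ) * cexp (-s * t) =
      LSeries LamC s / s := by
  have hs0 : s ≠ 0 := by
    intro h
    rw [h] at hs
    simp at hs
    linarith
  have h1 := LSeries_eq_mul_integral_of_nonneg (fun n => ArithmeticFunction.vonMangoldt n)
    (r := 1) (by norm_num) (s := s) hs psi_bigO (fun n => ArithmeticFunction.vonMangoldt_nonneg)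
  have e : (fun n : ℕ => ((ArithmeticFunction.vonMangoldt n : ℝ) : ℂ)) = LamC := rfl
  rw [e] at h1
  rw [h1, mul_div_cancel_left₀ _ hs0]
  simp_rw [sum_Icc_psi]
  rw [← image_exp_Ioi, integral_image_eq_integral_abs_deriv_smul measurableSet_Ioi
    (fun x _ => (Real.hasDerivAt_exp x).hasDerivWithinAt) Real.exp_injective.injOn]
  refine setIntegral_congr_fun measurableSet_Ioi fun t _ => ?_
  rw [abs_of_pos (Real.exp_pos t), cpow_exp, Complex.real_smul, Complex.ofReal_exp]
  have : cexp (t : ℂ) * ((Chebyshev.psi (Real.exp t) : ℝ) * cexp ((t : ℂ) * -(s + 1))) =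
      ((Chebyshev.psi (Real.exp t) : ℝ) : ℂ) * (cexp (t : ℂ) * cexp ((t : ℂ) * -(s + 1))) := by ring
  rw [this, ← Complex.exp_add]
  congr 2
  ring

/-- The transform of the deviation. -/
def Hz (z : ℂ) : ℂ := (Gz (1 + z) - 1) / (1 + z)

lemma Hz_cont : ContinuousOn Hz {z | 0 ≤ z.re} := by
  unfold Hz
  have h1 : ContinuousOn (fun z : ℂ => Gz (1 + z)) {z | 0 ≤ z.re} := by
    refine Gz_cont.comp (by fun_prop) ?_
    intro z hz
    have hz' : 0 ≤ z.re := hz
    show 1 ≤ (1 + z).re
    simp only [add_re, one_re]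
    linarith
  refine (h1.sub continuousOn_const).div (by fun_prop) ?_
  intro z hz h0
  have hz' : 0 ≤ z.re := hz
  have := congrArg Complex.re h0
  simp only [add_re, one_re, zero_re] at this
  linarith

lemma integrable_exp_neg {z : ℂ} (hz : 0 < z.re) :
    IntegrableOn (fun t : ℝ => cexp (-z * t)) (Ioi 0) :=
  integrableOn_exp_mul_complex_Ioi (by simpa using hz) 0

/-- The deviation times a decaying exponential is integrable. -/
lemma integrable_ff_exp {z : ℂ} (hz : 0 < z.re) :
    IntegrableOn (fun t : ℝ => ((ff t : ℝ) : ℂ) * cexp (-z * t)) (Ioi 0) := by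
  refine Integrable.bdd_mul (c := Cc) (integrable_exp_neg hz) ?_ ?_
  · exact (Complex.measurable_ofReal.comp measurable_ff).aestronglyMeasurable
  · filter_upwards with t
    rw [Complex.norm_real, Real.norm_eq_abs]
    exact abs_ff_le t

/-- The Laplace transform of the deviation. -/
lemma laplace_ff {z : ℂ} (hz : 0 < z.re) :
    ∫ t in Ioi (0 : ℝ), ((ff t : ℝ) : ℂ) * cexp (-z * t) = Hz z := by
  have hs : 1 < (1 + z).re := by simp [hz]
  have hz0 : z ≠ 0 := by
    intro h
    rw [h] at hz
    simp at hz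
  have hz1 : 1 + z ≠ 0 := by
    intro h
    have := congrArg Complex.re h
    simp only [add_re, one_re, zero_re] at this
    linarith
  have e1 : ∀ t : ℝ, ((ff t : ℝ) : ℂ) * cexp (-z * t) =
      ((Chebyshev.psi (Real.exp t) : ℝ) : ℂ) * cexp (-(1 + z) * t) - cexp (-z * t) := by
    intro t
    unfold ff Aa
    push_cast
    have : cexp (-(1 + z) * t) = cexp (-(t : ℂ)) * cexp (-z * t) := by
      rw [← Complex.exp_add]; congr 1; ring
    rw [this]
    ring
  simp_rw [e1]
  have hint2 := integrable_exp_neg hz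
  have hint1 : IntegrableOn (fun t : ℝ => ((Chebyshev.psi (Real.exp t) : ℝ) : ℂ) *
      cexp (-(1 + z) * t)) (Ioi 0) := by
    have h3 := (integrable_ff_exp hz).add hint2
    refine h3.congr ?_
    filter_upwards with t
    simp only [Pi.add_apply]
    rw [e1]
    ring
  rw [integral_sub hint1 hint2, laplace_psi hs]
  have h4 : ∫ t in Ioi (0 : ℝ), cexp (-z * t) = 1 / z := by
    rw [integral_exp_mul_complex_Ioi (by simpa using hz) 0]
    simp
  rw [h4]
  unfold Hz
  rw [Gz_eq hs]
  have e5 : 1 + z - 1 = z := by ring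
  rw [e5]
  field_simp
  ring

end

end Vale.Agent.Lib.P021.WI
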