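import Vale.Agent.Lib.P021.WILaplace

/-! The Tauberian argument: the prime number theorem. -/

namespace Vale.Agent.Lib.P021.WI

open Complex MeasureTheory Set Filter Topology

noncomputable section

lemma Tri_abs_le {l y : ℝ} (hl : 0 < l) (hy : y ∈ Ioc (-l) l) : |Tri l y| ≤ 1 := by
  unfold Tri
  have h1 : |y| ≤ l := abs_le.mpr ⟨hy.1.le, hy.2⟩
  have h2 : |y| / l ≤ 1 := (div_le_one hl).mpr h1
  have h3 : 0 ≤ |y| / l := by positivity
  rw [abs_le]
  constructor <;> linarith

lemma continuous_Tri {l : ℝ} : Continuous (Tri l) := by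
  unfold Tri
  fun_prop

/-- Change of the order of integration. -/
lemma swap_identity {l ε : ℝ} (hl : 0 < l) (hε : 0 < ε) (x : ℝ) :
    ∫ y in (-l)..l, ((Tri l y : ℝ) : ℂ) * cexp (I * x * y) * Hz (ε + I * y) =
      ∫ t in Ioi (0 : ℝ), ((ff t : ℝ) : ℂ) * cexp (-(ε : ℂ) * t) *
        ((l * Kf (l * (x - t)) : ℝ) : ℂ) := by
  rw [intervalIntegral.integral_of_le (neg_le_self hl.le)]
  have h1 : ∀ y : ℝ, Hz (ε + I * y) =
      ∫ t in Ioi (0 : ℝ), ((ff t : ℝ) : ℂ) * cexp (-((ε : ℂ) + I * y) * t) := by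
    intro y
    rw [laplace_ff]
    simpa using hε
  simp_rw [h1]
  simp_rw [← integral_const_mul]
  have hprod : Integrable (Function.uncurry fun y t : ℝ => ((Tri l y : ℝ) : ℂ) * cexp (I * x * y) *
      (((ff t : ℝ) : ℂ) * cexp (-((ε : ℂ) + I * y) * t)))
      ((volume.restrict (Ioc (-l) l)).prod (volume.restrict (Ioi (0 : ℝ)))) := by
    have hA : Integrable (fun y : ℝ => ((Tri l y : ℝ) : ℂ))
        (volume.restrict (Ioc (-l) l)) := by
      have : IntegrableOn (fun y : ℝ => ((Tri l y : ℝ) : ℂ)) (Icc (-l) l) :=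
        (Complex.continuous_ofReal.comp continuous_Tri).continuousOn.integrableOn_compact isCompact_Icc
      exact this.mono_set Ioc_subset_Icc_self
    have hB : Integrable (fun t : ℝ => ((ff t : ℝ) : ℂ) * cexp (-(ε : ℂ) * t))
        (volume.restrict (Ioi (0 : ℝ))) := integrable_ff_exp (by simpa using hε)
    have hAB := hA.mul_prod hB
    refine hAB.mono ?_ ?_
    · apply Measurable.aestronglyMeasurable
      have h3 : Measurable fun p : ℝ × ℝ => ((ff p.2 : ℝ) : ℂ) :=
        Complex.measurable_ofReal.comp (measurable_ff.comp measurable_snd)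
      have h4 : Measurable fun p : ℝ × ℝ => ((Tri l p.1 : ℝ) : ℂ) :=
        Complex.measurable_ofReal.comp (continuous_Tri.measurable.comp measurable_fst)
      have h5 : Continuous fun p : ℝ × ℝ => cexp (I * x * p.1) := by fun_prop
      have h6 : Continuous fun p : ℝ × ℝ => cexp (-((ε : ℂ) + I * p.1) * p.2) := by fun_prop
      exact (h4.mul h5.measurable).mul (h3.mul h6.measurable)
    · filter_upwards with p
      simp only [Function.uncurry]
      have e1 : ‖cexp (I * x * p.1)‖ = 1 := by
        have : I * x * p.1 = ((x * p.1 : ℝ) : ℂ) * I := by push_cast; ring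
        rw [this, Complex.norm_exp_ofReal_mul_I]
      have e2 : ‖cexp (-((ε : ℂ) + I * p.1) * p.2)‖ = ‖cexp (-(ε : ℂ) * p.2)‖ := by
        rw [Complex.norm_exp, Complex.norm_exp]
        congr 1
        simp
      simp only [norm_mul, e1, e2, mul_one]
      exact le_rfl
  rw [integral_integral_swap hprod]
  refine setIntegral_congr_fun measurableSet_Ioi fun t _ => ?_
  have e3 : ∀ y : ℝ, ((Tri l y : ℝ) : ℂ) * cexp (I * x * y) *
      (((ff t : ℝ) : ℂ) * cexp (-((ε : ℂ) + I * y) * t)) =
      (((ff t : ℝ) : ℂ) * cexp (-(ε : ℂ) * t)) *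
        (((Tri l y : ℝ) : ℂ) * cexp (I * y * ((x - t : ℝ) : ℂ))) := by
    intro y
    have : cexp (I * x * y) * cexp (-((ε : ℂ) + I * y) * t) =
        cexp (-(ε : ℂ) * t) * cexp (I * y * ((x - t : ℝ) : ℂ)) := by
      rw [← Complex.exp_add, ← Complex.exp_add]
      congr 1
      push_cast
      ring
    linear_combination ((Tri l y : ℝ) : ℂ) * ((ff t : ℝ) : ℂ) * this
  simp_rw [e3]
  rw [integral_const_mul, ← intervalIntegral.integral_of_le (neg_le_self hl.le),
    integral_tri_scale hl]

lemma integrable_kernel {l : ℝ} (hl : 0 < l) (x : ℝ) :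
    Integrable (fun t : ℝ => l * Kf (l * (x - t))) := by
  have h1 : Integrable (fun u : ℝ => Kf (l * u)) := integrable_Kf.comp_mul_left' hl.ne'
  have h2 : Integrable (fun t : ℝ => Kf (l * (x - t))) := h1.comp_sub_left x
  exact h2.const_mul l

/-- The identity on the boundary. -/
lemma boundary_identity {l : ℝ} (hl : 0 < l) (x : ℝ) :
    ∫ y in (-l)..l, ((Tri l y : ℝ) : ℂ) * cexp (I * x * y) * Hz (I * y) =
      ∫ t in Ioi (0 : ℝ), ((ff t : ℝ) : ℂ) * ((l * Kf (l * (x - t)) : ℝ) : ℂ) := by
  -- limit of the left side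
  have hL : Tendsto (fun ε : ℝ => ∫ y in (-l)..l, ((Tri l y : ℝ) : ℂ) * cexp (I * x * y) *
      Hz ((|ε| : ℝ) + I * y)) (𝓝[>] 0)
      (𝓝 (∫ y in (-l)..l, ((Tri l y : ℝ) : ℂ) * cexp (I * x * y) * Hz (I * y))) := by
    have hcont : Continuous (Function.uncurry fun (ε y : ℝ) => ((Tri l y : ℝ) : ℂ) *
        cexp (I * x * y) * Hz ((|ε| : ℝ) + I * y)) := by
      have hH : Continuous fun p : ℝ × ℝ => Hz ((|p.1| : ℝ) + I * p.2) := by
        refine Hz_cont.comp_continuous (by fun_prop) ?_
        intro p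
        show 0 ≤ (((|p.1| : ℝ) : ℂ) + I * (p.2 : ℂ)).re
        simp
      have h2 : Continuous fun p : ℝ × ℝ => ((Tri l p.2 : ℝ) : ℂ) * cexp (I * x * p.2) := by
        have := continuous_Tri (l := l)
        fun_prop
      exact h2.mul hH
    have h3 := intervalIntegral.continuous_parametric_intervalIntegral_of_continuous'
      (μ := volume) hcont (-l) l
    have h4 := h3.tendsto 0
    simp only [abs_zero, ofReal_zero, zero_add] at h4
    exact h4.mono_left nhdsWithin_le_nhds
  -- limit of the right side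
  have hR : Tendsto (fun ε : ℝ => ∫ t in Ioi (0 : ℝ), ((ff t : ℝ) : ℂ) * cexp (-(ε : ℂ) * t) *
        ((l * Kf (l * (x - t)) : ℝ) : ℂ)) (𝓝[>] 0)
      (𝓝 (∫ t in Ioi (0 : ℝ), ((ff t : ℝ) : ℂ) * ((l * Kf (l * (x - t)) : ℝ) : ℂ))) := by
    refine tendsto_integral_filter_of_dominated_convergence
      (fun t => Cc * (l * Kf (l * (x - t)))) ?_ ?_ ?_ ?_
    · filter_upwards with ε
      apply Measurable.aestronglyMeasurable
      have h3 : Measurable fun t : ℝ => ((ff t : ℝ) : ℂ) :=
        Complex.measurable_ofReal.comp measurable_ff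
      have h4 : Continuous fun t : ℝ => cexp (-(ε : ℂ) * t) := by fun_prop
      have h5 : Measurable fun t : ℝ => ((l * Kf (l * (x - t)) : ℝ) : ℂ) := by
        apply Complex.measurable_ofReal.comp
        apply Measurable.const_mul
        exact measurable_Kf.comp (by fun_prop)
      exact (h3.mul h4.measurable).mul h5
    · filter_upwards [self_mem_nhdsWithin] with ε hε
      refine ae_restrict_of_forall_mem measurableSet_Ioi fun t ht => ?_
      have ht' : (0 : ℝ) < t := ht
      have hε' : (0 : ℝ) < ε := hε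
      have e1 : ‖cexp (-(ε : ℂ) * t)‖ ≤ 1 := by
        rw [Complex.norm_exp]
        apply Real.exp_le_one_iff.mpr
        simp
        positivity
      have hk : 0 ≤ l * Kf (l * (x - t)) := mul_nonneg hl.le (Kf_nonneg _)
      rw [norm_mul, norm_mul, Complex.norm_real, Complex.norm_real, Real.norm_eq_abs,
        Real.norm_of_nonneg hk]
      have h6 := abs_ff_le t
      have h7 : |ff t| * ‖cexp (-(ε : ℂ) * t)‖ ≤ Cc * 1 :=
        mul_le_mul h6 e1 (norm_nonneg _) Cc_pos.le
      calc _ ≤ (Cc * 1) * (l * Kf (l * (x - t))) := by gcongr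
        _ = _ := by ring
    · exact ((integrable_kernel hl x).const_mul Cc).integrableOn
    · refine ae_of_all _ fun t => ?_
      have h8 : Tendsto (fun ε : ℝ => cexp (-(ε : ℂ) * t)) (𝓝[>] 0) (𝓝 1) := by
        have h9 : Continuous fun ε : ℝ => cexp (-(ε : ℂ) * t) := by fun_prop
        have h10 := h9.tendsto 0
        simp only [ofReal_zero, neg_zero, zero_mul, Complex.exp_zero] at h10
        exact h10.mono_left nhdsWithin_le_nhds
      have h11 := ((tendsto_const_nhds (x := ((ff t : ℝ) : ℂ))).mul h8).mul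
        (tendsto_const_nhds (x := ((l * Kf (l * (x - t)) : ℝ) : ℂ)))
      simpa using h11
  refine tendsto_nhds_unique (hL.congr' ?_) hR
  filter_upwards [self_mem_nhdsWithin] with ε hε
  have hε' : (0 : ℝ) < ε := hε
  rw [abs_of_pos hε']
  exact swap_identity hl hε' x

/-- The Riemann-Lebesgue lemma in our setting. -/
lemma tendsto_boundary {l : ℝ} (hl : 0 < l) :
    Tendsto (fun x : ℝ => ∫ y in (-l)..l, ((Tri l y : ℝ) : ℂ) * cexp (I * x * y) * Hz (I * y))
      atTop (𝓝 0) := by
  set φ : ℝ → ℂ := (Ioc (-l) l).indicator (fun y => ((Tri l y : ℝ) : ℂ) * Hz (I * y)) with hφ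
  have h1 := Real.tendsto_integral_exp_smul_cocompact φ
  have h2 : Tendsto (fun x : ℝ => -x / (2 * Real.pi)) atTop (cocompact ℝ) := by
    refine Tendsto.mono_right ?_ atBot_le_cocompact
    have hp : 0 < (2 * Real.pi)⁻¹ := by positivity
    have := (tendsto_neg_atTop_atBot.atBot_mul_const hp)
    simpa [div_eq_mul_inv] using this
  have h3 := h1.comp h2
  refine h3.congr fun x => ?_
  simp only [Function.comp]
  rw [intervalIntegral.integral_of_le (neg_le_self hl.le), ← integral_indicator measurableSet_Ioc]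
  refine integral_congr_ae (ae_of_all _ fun y => ?_)
  by_cases hy : y ∈ Ioc (-l) l
  · simp only [hφ, indicator_of_mem hy, Circle.smul_def, Real.fourierChar_apply, smul_eq_mul]
    have hp : (Real.pi : ℂ) ≠ 0 := by exact_mod_cast Real.pi_ne_zero
    have : cexp (((2 * Real.pi * (-(y * (-x / (2 * Real.pi)))) : ℝ) : ℂ) * I) = cexp (I * x * y) := by
      congr 1
      push_cast
      field_simp
    rw [this]
    ring
  · simp [hφ, indicator_of_notMem hy]

/-- The smoothed deviation. -/
def gg (l x : ℝ) : ℝ := ∫ t in Ioi (0 : ℝ), ff t * (l * Kf (l * (x - t)))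

lemma gg_ofReal (l x : ℝ) :
    ((gg l x : ℝ) : ℂ) = ∫ t in Ioi (0 : ℝ), ((ff t : ℝ) : ℂ) * ((l * Kf (l * (x - t)) : ℝ) : ℂ) := by
  unfold gg
  rw [← integral_complex_ofReal]
  refine setIntegral_congr_fun measurableSet_Ioi fun t _ => ?_
  push_cast
  rfl

lemma tendsto_gg {l : ℝ} (hl : 0 < l) : Tendsto (gg l) atTop (𝓝 0) := by
  have h1 := tendsto_boundary hl
  have h2 : Tendsto (fun x : ℝ => ((gg l x : ℝ) : ℂ)) atTop (𝓝 ((0 : ℝ) : ℂ)) := by
    refine (h1.congr fun x => ?_)
    rw [boundary_identity hl, gg_ofReal]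
  exact (Complex.continuous_re.tendsto _).comp h2 |>.congr (fun x => by simp) |>.trans (by simp)

/-- The deviation extended by zero. -/
def ft (t : ℝ) : ℝ := (Ioi (0 : ℝ)).indicator ff t

lemma measurable_ft : Measurable ft := measurable_ff.indicator measurableSet_Ioi

lemma abs_ft_le (t : ℝ) : |ft t| ≤ Cc := by
  unfold ft
  by_cases h : t ∈ Ioi (0 : ℝ)
  · rw [indicator_of_mem h]; exact abs_ff_le t
  · rw [indicator_of_notMem h, abs_zero]; exact Cc_pos.le

lemma gg_eq {l : ℝ} (hl : 0 < l) (x : ℝ) : gg l x = ∫ w, ft (x - w / l) * Kf w := by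
  unfold gg
  rw [← integral_indicator measurableSet_Ioi]
  have e1 : (Ioi (0 : ℝ)).indicator (fun t => ff t * (l * Kf (l * (x - t)))) =
      fun t => (fun v => ft (x - v) * (l * Kf (l * v))) (x - t) := by
    funext t
    simp only [sub_sub_cancel, ft]
    by_cases h : t ∈ Ioi (0 : ℝ)
    · simp [indicator_of_mem h]
    · simp [indicator_of_notMem h]
  rw [e1, integral_sub_left_eq_self (fun v => ft (x - v) * (l * Kf (l * v))) volume x]
  have e2 : (fun v => ft (x - v) * (l * Kf (l * v))) =
      fun v => l * (fun w => ft (x - w / l) * Kf w) (l * v) := by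
    funext v
    have : l * v / l = v := by field_simp
    simp only [this]
    ring
  rw [e2, integral_const_mul,
    MeasureTheory.Measure.integral_comp_mul_left (fun w => ft (x - w / l) * Kf w) l]
  rw [abs_of_pos (inv_pos.mpr hl), smul_eq_mul, ← mul_assoc, mul_inv_cancel₀ hl.ne', one_mul]

/-- The mass of the kernel outside an interval. -/
def tail (V : ℝ) : ℝ := ∫ w, {w : ℝ | V < |w|}.indicator Kf w

lemma measurableSet_tail (V : ℝ) : MeasurableSet {w : ℝ | V < |w|} :=
  measurableSet_lt measurable_const (measurable_id.abs)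

lemma tail_small {ε : ℝ} (hε : 0 < ε) : ∃ V : ℝ, 1 ≤ V ∧ tail V ≤ ε := by
  have h1 : Tendsto (fun V : ℕ => tail (V : ℝ)) atTop (𝓝 (∫ _ : ℝ, (0 : ℝ))) := by
    refine tendsto_integral_of_dominated_convergence Kf ?_ integrable_Kf ?_ ?_
    · intro V
      exact (measurable_Kf.indicator (measurableSet_tail _)).aestronglyMeasurable
    · intro V
      refine ae_of_all _ fun w => ?_
      rw [Real.norm_of_nonneg (indicator_nonneg (fun w _ => Kf_nonneg w) w)]
      exact indicator_le_self' (fun w _ => Kf_nonneg w) w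
    · refine ae_of_all _ fun w => ?_
      refine tendsto_const_nhds.congr' ?_
      obtain ⟨N, hN⟩ := exists_nat_ge |w|
      filter_upwards [eventually_ge_atTop N] with V hV
      have hV' : (N : ℝ) ≤ V := by exact_mod_cast hV
      have : w ∉ {w : ℝ | (V : ℝ) < |w|} := by
        simp only [Set.mem_ofPred_eq, not_lt]
        linarith
      rw [indicator_of_notMem this]
  simp only [integral_zero] at h1
  have h2 := (h1.eventually (Iio_mem_nhds hε)).and (eventually_ge_atTop 1)
  obtain ⟨V, hV1, hV2⟩ := h2.exists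
  exact ⟨V, by exact_mod_cast hV2, le_of_lt hV1⟩

/-- The basic inequality for the integral against the kernel. -/
lemma integral_lower {F : ℝ → ℝ} {η C V : ℝ} (hη : 0 < η) (hF : Measurable F)
    (hC : ∀ w, |F w| ≤ C) (h1 : ∀ w, |w| ≤ V → 2 * η ≤ F w) :
    2 * η * (∫ w, Kf w) - (2 * η + C) * tail V ≤ ∫ w, F w * Kf w := by
  have hC0 : 0 ≤ C := (abs_nonneg _).trans (hC 0)
  have hint1 : Integrable (fun w => F w * Kf w) := by
    refine Integrable.bdd_mul (c := C) integrable_Kf hF.aestronglyMeasurable ?_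
    filter_upwards with w
    rw [Real.norm_eq_abs]
    exact hC w
  have hint2 : Integrable ({w : ℝ | V < |w|}.indicator Kf) :=
    integrable_Kf.indicator (measurableSet_tail V)
  have e : 2 * η * (∫ w, Kf w) - (2 * η + C) * tail V =
      ∫ w, (2 * η * Kf w - (2 * η + C) * {w : ℝ | V < |w|}.indicator Kf w) := by
    rw [integral_sub (integrable_Kf.const_mul _) (hint2.const_mul _), integral_const_mul,
      integral_const_mul]
    rfl
  rw [e]
  refine integral_mono ((integrable_Kf.const_mul _).sub (hint2.const_mul _)) hint1 fun w => ?_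
  simp only
  have hk := Kf_nonneg w
  by_cases hw : V < |w|
  · rw [indicator_of_mem (show w ∈ {w : ℝ | V < |w|} from hw)]
    have : -C ≤ F w := (abs_le.mp (hC w)).1
    nlinarith
  · rw [indicator_of_notMem (show w ∉ {w : ℝ | V < |w|} from hw)]
    have := h1 w (not_lt.mp hw)
    nlinarith

lemma Aa_mono {s t : ℝ} (h : t ≤ s) : Real.exp (-(s - t)) * Aa t ≤ Aa s := by
  unfold Aa
  have h1 : Chebyshev.psi (Real.exp t) ≤ Chebyshev.psi (Real.exp s) :=
    Chebyshev.psi_mono (Real.exp_le_exp.mpr h)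
  have e : Real.exp (-(s - t)) * Real.exp (-t) = Real.exp (-s) := by
    rw [← Real.exp_add]; congr 1; ring
  rw [← mul_assoc, e]
  gcongr

/-- Upper bound in the exponential coordinate. -/
lemma Aa_upper {η : ℝ} (hη : 0 < η) : ∃ X : ℝ, ∀ t ≥ X, Aa t ≤ 1 + 3 * η := by
  set c : ℝ := ∫ w, Kf w with hc
  have hcpos : 0 < c := integral_Kf_pos
  set h : ℝ := Real.log ((1 + 3 * η) / (1 + 2 * η)) with hh
  have hratio : 1 < (1 + 3 * η) / (1 + 2 * η) := by
    rw [one_lt_div (by positivity)]
    linarith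
  have hpos : 0 < h := Real.log_pos hratio
  have hexp : Real.exp (-h) * (1 + 3 * η) = 1 + 2 * η := by
    rw [Real.exp_neg, hh, Real.exp_log (by linarith)]
    field_simp
  have hδ : 0 < η * c / (2 * η + Cc) := by
    have := Cc_pos
    positivity
  obtain ⟨V, hV1, hV2⟩ := tail_small hδ
  have hVpos : 0 < V := by linarith
  set l : ℝ := 2 * V / h with hl
  have hlpos : 0 < l := by positivity
  have ht := tendsto_gg hlpos
  have hev := (ht.eventually (gt_mem_nhds (show (0 : ℝ) < η * c by positivity)))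
  obtain ⟨X₀, hX₀⟩ := eventually_atTop.mp hev
  refine ⟨max X₀ 1, fun t ht' => ?_⟩
  by_contra hcon
  push Not at hcon
  have ht1 : X₀ ≤ t := (le_max_left _ _).trans ht'
  have ht2 : 1 ≤ t := (le_max_right _ _).trans ht'
  set x := t + h / 2 with hx
  have hlt := hX₀ x (by linarith)
  set F : ℝ → ℝ := fun w => ft (x - w / l) with hF
  have hFm : Measurable F := measurable_ft.comp (by fun_prop)
  have hFb : ∀ w, |F w| ≤ Cc := fun w => abs_ft_le _
  have hF1 : ∀ w, |w| ≤ V → 2 * η ≤ F w := by
    intro w hw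
    have hwl : |w / l| ≤ h / 2 := by
      rw [abs_div, abs_of_pos hlpos, div_le_iff₀ hlpos, hl]
      have : h / 2 * (2 * V / h) = V := by field_simp
      rw [this]
      exact hw
    have hs := abs_le.mp hwl
    set s := x - w / l with hs'
    have hs1 : t ≤ s := by rw [hs', hx]; linarith [hs.2]
    have hs2 : s ≤ t + h := by rw [hs', hx]; linarith [hs.1]
    have hs0 : 0 < s := by linarith
    have e : F w = Aa s - 1 := by
      simp only [hF, ft, ff]
      rw [indicator_of_mem (show s ∈ Ioi (0 : ℝ) from hs0)]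
      rfl
    rw [e]
    have h1 := Aa_mono hs1
    have h2 : Real.exp (-h) ≤ Real.exp (-(s - t)) := Real.exp_le_exp.mpr (by linarith)
    have h3 : Real.exp (-h) * (1 + 3 * η) ≤ Real.exp (-(s - t)) * Aa t := by
      have := Real.exp_pos (-h)
      gcongr
    rw [hexp] at h3
    linarith
  have hlow := integral_lower hη hFm hFb hF1
  rw [← gg_eq hlpos] at hlow
  have hCc := Cc_pos
  have h4 : (2 * η + Cc) * tail V ≤ η * c := by
    have : (2 * η + Cc) * tail V ≤ (2 * η + Cc) * (η * c / (2 * η + Cc)) := by gcongr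
    refine this.trans (le_of_eq ?_)
    field_simp
  have h5 : 2 * η * c - η * c ≤ gg l x := by linarith
  nlinarith

/-- Lower bound in the exponential coordinate. -/
lemma Aa_lower {η : ℝ} (hη : 0 < η) : ∃ X : ℝ, ∀ t ≥ X, 1 - 3 * η ≤ Aa t := by
  by_cases hη3 : 1 / 3 ≤ η
  · refine ⟨0, fun t _ => ?_⟩
    have := Aa_nonneg t
    linarith
  push Not at hη3
  set c : ℝ := ∫ w, Kf w with hc
  have hcpos : 0 < c := integral_Kf_pos
  have h13 : 0 < 1 - 3 * η := by linarith
  set h : ℝ := Real.log ((1 - 2 * η) / (1 - 3 * η)) with hh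
  have hratio : 1 < (1 - 2 * η) / (1 - 3 * η) := by
    rw [one_lt_div h13]
    linarith
  have hpos : 0 < h := Real.log_pos hratio
  have hexp : Real.exp h * (1 - 3 * η) = 1 - 2 * η := by
    rw [hh, Real.exp_log (by linarith)]
    exact div_mul_cancel₀ _ h13.ne'
  have hδ : 0 < η * c / (2 * η + Cc) := by
    have := Cc_pos
    positivity
  obtain ⟨V, hV1, hV2⟩ := tail_small hδ
  have hVpos : 0 < V := by linarith
  set l : ℝ := 2 * V / h with hl
  have hlpos : 0 < l := by positivity
  have ht := tendsto_gg hlpos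
  have hev := (ht.eventually (lt_mem_nhds (show -(η * c) < (0 : ℝ) by
    have : 0 < η * c := by positivity
    linarith)))
  obtain ⟨X₀, hX₀⟩ := eventually_atTop.mp hev
  refine ⟨max (X₀ + h) (h + 1), fun t ht' => ?_⟩
  by_contra hcon
  push Not at hcon
  have ht1 : X₀ + h ≤ t := (le_max_left _ _).trans ht'
  have ht2 : h + 1 ≤ t := (le_max_right _ _).trans ht'
  set x := t - h / 2 with hx
  have hlt := hX₀ x (by linarith)
  set F : ℝ → ℝ := fun w => -ft (x - w / l) with hF
  have hFm : Measurable F := (measurable_ft.comp (by fun_prop)).neg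
  have hFb : ∀ w, |F w| ≤ Cc := fun w => by
    simp only [hF, abs_neg]
    exact abs_ft_le _
  have hF1 : ∀ w, |w| ≤ V → 2 * η ≤ F w := by
    intro w hw
    have hwl : |w / l| ≤ h / 2 := by
      rw [abs_div, abs_of_pos hlpos, div_le_iff₀ hlpos, hl]
      have : h / 2 * (2 * V / h) = V := by field_simp
      rw [this]
      exact hw
    have hs := abs_le.mp hwl
    set s := x - w / l with hs'
    have hs1 : s ≤ t := by rw [hs', hx]; linarith [hs.1]
    have hs2 : t - h ≤ s := by rw [hs', hx]; linarith [hs.2]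
    have hs0 : 0 < s := by linarith
    have e : F w = -(Aa s - 1) := by
      simp only [hF, ft, ff]
      rw [indicator_of_mem (show s ∈ Ioi (0 : ℝ) from hs0)]
      rfl
    rw [e]
    have h1 := Aa_mono hs1
    have h2 : Real.exp (t - s) ≤ Real.exp h := Real.exp_le_exp.mpr (by linarith)
    have h0 := Aa_nonneg t
    have h3 : Aa s ≤ Real.exp (t - s) * Aa t := by
      have e2 : Real.exp (t - s) * Real.exp (-(t - s)) = 1 := by
        rw [← Real.exp_add]; simp
      have h6 : Real.exp (t - s) * (Real.exp (-(t - s)) * Aa t) ≤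
          Real.exp (t - s) * Aa t := by
        rw [← mul_assoc, e2, one_mul]
        have : 1 ≤ Real.exp (t - s) := Real.one_le_exp (by linarith)
        nlinarith
      have h7 := Aa_mono (s := t) (t := s) hs1
      have h8 : Real.exp (-(t - s)) * Aa s ≤ Aa t := h7
      have e3 : Real.exp (t - s) * (Real.exp (-(t - s)) * Aa s) = Aa s := by
        rw [← mul_assoc, e2, one_mul]
      calc Aa s = Real.exp (t - s) * (Real.exp (-(t - s)) * Aa s) := e3.symm
        _ ≤ Real.exp (t - s) * Aa t := by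
          gcongr
    have h4 : Real.exp (t - s) * Aa t ≤ Real.exp h * (1 - 3 * η) := by
      have := Real.exp_pos (t - s)
      gcongr
    rw [hexp] at h4
    linarith
  have hlow := integral_lower hη hFm hFb hF1
  have e5 : ∫ w, F w * Kf w = -gg l x := by
    rw [gg_eq hlpos, ← integral_neg]
    refine integral_congr_ae (ae_of_all _ fun w => ?_)
    simp only [hF]
    ring
  rw [e5] at hlow
  have hCc := Cc_pos
  have h4 : (2 * η + Cc) * tail V ≤ η * c := by
    have : (2 * η + Cc) * tail V ≤ (2 * η + Cc) * (η * c / (2 * η + Cc)) := by gcongr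
    refine this.trans (le_of_eq ?_)
    field_simp
  have h5 : 2 * η * c - η * c ≤ -gg l x := by linarith
  nlinarith

/-- The upper half of the prime number theorem. -/
theorem psi_upper (ε : ℝ) (hε : 0 < ε) : ∃ X : ℝ, ∀ x ≥ X, Chebyshev.psi x ≤ (1 + ε) * x := by
  obtain ⟨X, hX⟩ := Aa_upper (η := ε / 3) (by positivity)
  refine ⟨max (Real.exp X) 1, fun x hx => ?_⟩
  have hx1 : Real.exp X ≤ x := (le_max_left _ _).trans hx
  have hx2 : (1 : ℝ) ≤ x := (le_max_right _ _).trans hx
  have hx0 : 0 < x := by linarith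
  have ht : X ≤ Real.log x := (Real.le_log_iff_exp_le hx0).mpr hx1
  have h1 := hX _ ht
  unfold Aa at h1
  rw [Real.exp_log hx0, Real.exp_neg, Real.exp_log hx0] at h1
  have e : 1 + 3 * (ε / 3) = 1 + ε := by ring
  rw [e, inv_mul_le_iff₀ hx0] at h1
  linarith

/-- The lower half of the prime number theorem. -/
theorem psi_lower (ε : ℝ) (hε : 0 < ε) : ∃ X : ℝ, ∀ x ≥ X, (1 - ε) * x ≤ Chebyshev.psi x := by
  obtain ⟨X, hX⟩ := Aa_lower (η := ε / 3) (by positivity)
  refine ⟨max (Real.exp X) 1, fun x hx => ?_⟩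
  have hx1 : Real.exp X ≤ x := (le_max_left _ _).trans hx
  have hx2 : (1 : ℝ) ≤ x := (le_max_right _ _).trans hx
  have hx0 : 0 < x := by linarith
  have ht : X ≤ Real.log x := (Real.le_log_iff_exp_le hx0).mpr hx1
  have h1 := hX _ ht
  unfold Aa at h1
  rw [Real.exp_log hx0, Real.exp_neg, Real.exp_log hx0] at h1
  have e : 1 - 3 * (ε / 3) = 1 - ε := by ring
  rw [e, le_inv_mul_iff₀ hx0] at h1
  linarith

end

end Vale.Agent.Lib.P021.WI
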